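import Crest.Agent.R10.Grade

/-! # Row 10: change of coefficients `bc`.
Use the basis of words `FreeAlgebra.basisFreeMonoid` (`bc` maps basis words to basis words, so
`repr (bc f) w = algebraMap (repr f w)`). -/

noncomputable section
namespace Crest.Agent.R10
open FreeAlgebra (ι)

variable {K : Type} [CommRing K] {K' : Type} [CommRing K'] [Algebra K K'] {I : Type}

theorem basis_word (K : Type) [CommRing K] (w : FreeMonoid I) :
    FreeAlgebra.basisFreeMonoid K I w = FreeMonoid.lift (ι K) w := by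
  simp [FreeAlgebra.basisFreeMonoid, FreeAlgebra.equivMonoidAlgebraFreeMonoid]
theorem bc_basis (w : FreeMonoid I) :
    bc K K' I (FreeAlgebra.basisFreeMonoid K I w) = FreeAlgebra.basisFreeMonoid K' I w := by
  rw [basis_word, basis_word]
  induction w using FreeMonoid.inductionOn' with
  | one => simp
  | of_mul i w ih => simp [ih]
theorem bc_smul (c : K) (f : FreeAlgebra K I) :
    bc K K' I (c • f) = algebraMap K K' c • bc K K' I f := by
  rw [map_smul, algebraMap_smul]
theorem repr_bc (f : FreeAlgebra K I) (w : FreeMonoid I) :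
    (FreeAlgebra.basisFreeMonoid K' I).repr (bc K K' I f) w =
      algebraMap K K' ((FreeAlgebra.basisFreeMonoid K I).repr f w) := by
  classical
  have : ((FreeAlgebra.basisFreeMonoid K' I).coord w).restrictScalars K ∘ₗ (bc K K' I).toLinearMap =
      Algebra.linearMap K K' ∘ₗ (FreeAlgebra.basisFreeMonoid K I).coord w := by
    refine (FreeAlgebra.basisFreeMonoid K I).ext (fun v => ?_)
    simp only [LinearMap.comp_apply, AlgHom.toLinearMap_apply, bc_basis,
      LinearMap.restrictScalars_apply, Module.Basis.coord_apply, Module.Basis.repr_self,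
      Finsupp.single_apply, Algebra.linearMap_apply]
    split_ifs <;> simp
  exact DFunLike.congr_fun this f

theorem bc_injective (h : Function.Injective (algebraMap K K')) :
    Function.Injective (bc K K' I) := by
  rw [injective_iff_map_eq_zero]
  intro f hf
  apply (FreeAlgebra.basisFreeMonoid K I).repr.injective
  ext w
  have := repr_bc (K' := K') f w
  rw [hf] at this
  apply h; simpa using this.symm
theorem bc_surjective (h : Function.Surjective (algebraMap K K')) :
    Function.Surjective (bc K K' I) := by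
  intro f
  induction f using FreeAlgebra.induction with
  | grade0 c =>
    obtain ⟨d, rfl⟩ := h c
    exact ⟨d • 1, by rw [bc_smul, map_one, Algebra.algebraMap_eq_smul_one (A := FreeAlgebra K' I)]⟩
  | grade1 i => exact ⟨ι K i, bc_ι _ _⟩
  | mul u v hu hv =>
    obtain ⟨a, rfl⟩ := hu; obtain ⟨b, rfl⟩ := hv; exact ⟨a * b, map_mul _ _ _⟩
  | add u v hu hv =>
    obtain ⟨a, rfl⟩ := hu; obtain ⟨b, rfl⟩ := hv; exact ⟨a + b, map_add _ _ _⟩
theorem bc_two_eq_zero_iff (f : FreeAlgebra ℤ I) :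
    bc ℤ F2 I f = 0 ↔ ∃ g, f = (2 : ℤ) • g := by
  constructor
  · intro hf
    set b := FreeAlgebra.basisFreeMonoid ℤ I
    refine ⟨b.repr.symm ((b.repr f).mapRange (· / 2) (by simp)), ?_⟩
    apply b.repr.injective
    ext w
    have := repr_bc (K' := F2) f w
    rw [hf] at this
    have h2 : (2 : ℤ) ∣ b.repr f w := by
      have h3 : ((b.repr f w : ℤ) : ZMod 2) = 0 := by simpa using this.symm
      exact (ZMod.intCast_zmod_eq_zero_iff_dvd _ 2).1 h3
    rw [map_zsmul, LinearEquiv.apply_symm_apply]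
    simp [Int.mul_ediv_cancel' h2]
  · rintro ⟨g, rfl⟩
    rw [map_zsmul, ← Int.cast_smul_eq_zsmul F2, show ((2 : ℤ) : F2) = 0 from rfl, zero_smul]
theorem eq_zero_of_zsmul_eq_zero {m : ℤ} (hm : m ≠ 0) {f : FreeAlgebra ℤ I} (h : m • f = 0) :
    f = 0 := by
  apply (FreeAlgebra.basisFreeMonoid ℤ I).repr.injective
  ext w
  have := congrArg (fun t => (FreeAlgebra.basisFreeMonoid ℤ I).repr t w) h
  simp only [map_zsmul] at this
  simpa [hm] using this
theorem eq_zero_of_forall_two_pow {f : FreeAlgebra ℤ I}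
    (h : ∀ k : ℕ, ∃ g, f = (2 ^ k : ℤ) • g) : f = 0 := by
  apply (FreeAlgebra.basisFreeMonoid ℤ I).repr.injective
  ext w
  set c := (FreeAlgebra.basisFreeMonoid ℤ I).repr f w
  obtain ⟨g, hg⟩ := h c.natAbs
  have h1 : (2 ^ c.natAbs : ℤ) ∣ c := ⟨(FreeAlgebra.basisFreeMonoid ℤ I).repr g w, by
    conv_lhs => simp only [c]; rw [hg, map_zsmul]
    simp⟩
  have h2 := Int.eq_zero_of_dvd_of_natAbs_lt_natAbs h1 (by simpa using Nat.lt_two_pow_self)
  simpa using h2
theorem exists_bc_eq_smul_of_span (P : Submodule ℤ (FreeAlgebra ℤ I)) {f : FreeAlgebra ℚ I}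
    (hf : f ∈ Submodule.span ℚ (bc ℤ ℚ I '' (P : Set (FreeAlgebra ℤ I)))) :
    ∃ m : ℤ, m ≠ 0 ∧ ∃ g ∈ P, bc ℤ ℚ I g = (m : ℚ) • f := by
  induction hf using Submodule.span_induction with
  | mem a ha => obtain ⟨g, hg, rfl⟩ := ha; exact ⟨1, one_ne_zero, g, hg, by simp⟩
  | zero => exact ⟨1, one_ne_zero, 0, zero_mem _, by simp⟩
  | add a b _ _ ha hb =>
    obtain ⟨m, hm, g, hg, e⟩ := ha
    obtain ⟨n, hn, h, hh, e'⟩ := hb
    refine ⟨m * n, mul_ne_zero hm hn, n • g + m • h,
      add_mem (P.smul_mem _ hg) (P.smul_mem _ hh), ?_⟩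
    rw [map_add, map_zsmul, map_zsmul, e, e', ← Int.cast_smul_eq_zsmul ℚ,
      ← Int.cast_smul_eq_zsmul ℚ, smul_smul, smul_smul, smul_add]
    simp [mul_comm]
  | smul c a _ ha =>
    obtain ⟨m, hm, g, hg, e⟩ := ha
    refine ⟨m * c.den, mul_ne_zero hm (by exact_mod_cast c.den_nz), c.num • g, P.smul_mem _ hg, ?_⟩
    rw [map_zsmul, e, ← Int.cast_smul_eq_zsmul ℚ, smul_smul, smul_smul]
    congr 1
    simp only [eq_intCast, Int.cast_mul, Int.cast_natCast, mul_assoc, Rat.den_mul_eq_num]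
    ring

theorem exists_bc_eq_smul (f : FreeAlgebra ℚ I) :
    ∃ m : ℤ, m ≠ 0 ∧ ∃ g, bc ℤ ℚ I g = (m : ℚ) • f := by
  obtain ⟨m, hm, g, -, e⟩ := exists_bc_eq_smul_of_span (f := f) ⊤ (by
    have : (⊤ : Submodule ℚ (FreeAlgebra ℚ I)) ≤ Submodule.span ℚ (bc ℤ ℚ I '' ((⊤ : Submodule ℤ
        (FreeAlgebra ℤ I)) : Set (FreeAlgebra ℤ I))) := by
      rw [← (FreeAlgebra.basisFreeMonoid ℚ I).span_eq]
      apply Submodule.span_mono
      rintro _ ⟨w, rfl⟩
      exact ⟨_, trivial, bc_basis w⟩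
    exact this trivial)
  exact ⟨m, hm, g, e⟩
theorem bc_mem_LS (wt : I → ℕ) {n : ℕ} {f : FreeAlgebra K I} (hf : f ∈ LS K (ι K) wt n) :
    bc K K' I f ∈ LS K' (ι K') wt n := by
  exact LS_le (fun n => ((LS K' (ι K') wt n).restrictScalars K).comap (bc K K' I).toLinearMap)
    (fun i => by simpa using mem_LS_of (K := K') (ι K') wt i) (fun m n a b ha hb => by
      change bc K K' I ⁅a, b⁆ ∈ LS K' (ι K') wt (m + n)
      rw [map_lie']; exact lie_mem_LS ha hb) n hf
/-- `LS` over `K'` is the `K'`-span of the image of `LS` over `K`. -/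
theorem LS_le_span_bc (wt : I → ℕ) (n : ℕ) :
    LS K' (ι K') wt n ≤ Submodule.span K' (bc K K' I '' (LS K (ι K) wt n : Set (FreeAlgebra K I))) := by
  apply Submodule.span_mono
  intro a ha
  induction ha with
  | of i => exact ⟨ι K i, mem_LS_of _ _ i, bc_ι _ _⟩
  | lie _ _ h1 h2 =>
    obtain ⟨a, ha, rfl⟩ := h1
    obtain ⟨b, hb, rfl⟩ := h2
    exact ⟨_, lie_mem_LS ha hb, map_lie' _ _ _⟩

theorem exists_bc_eq_smul_LS (wt : I → ℕ) {n : ℕ} {f : FreeAlgebra ℚ I}
    (hf : f ∈ LS ℚ (ι ℚ) wt n) :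
    ∃ m : ℤ, m ≠ 0 ∧ ∃ g ∈ LS ℤ (ι ℤ) wt n, bc ℤ ℚ I g = (m : ℚ) • f := by
  exact exists_bc_eq_smul_of_span _ (LS_le_span_bc wt n hf)
theorem lift_bc {A : Type} [Ring A] [Algebra K A] [Algebra K' A] [IsScalarTower K K' A]
    (g : I → A) (f : FreeAlgebra K I) :
    FreeAlgebra.lift K' g (bc K K' I f) = FreeAlgebra.lift K g f := by
  induction f using FreeAlgebra.induction with
  | grade0 c =>
    rw [Algebra.algebraMap_eq_smul_one, bc_smul, map_smul]
    simp
  | grade1 i => simp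
  | mul u v hu hv => simp [hu, hv]
  | add u v hu hv => simp [hu, hv]
theorem ev_bc {A : Type} [Ring A] [Algebra K A] [Algebra K' A] [IsScalarTower K K' A]
    (a b : A) (f : T K) : ev K' a b (bc K K' _ f) = ev K a b f := by
  exact lift_bc _ f
theorem bc_lift {I' : Type} (g : I → FreeAlgebra K I') (f : FreeAlgebra K I) :
    bc K K' I' (FreeAlgebra.lift K g f) =
      FreeAlgebra.lift K' (fun i => bc K K' I' (g i)) (bc K K' I f) := by
  rw [lift_bc, map_lift]
theorem bc_ev {I' : Type} (a b : FreeAlgebra K I') (f : T K) :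
    bc K K' I' (ev K a b f) = ev K' (bc K K' I' a) (bc K K' I' b) (bc K K' _ f) := by
  rw [ev_bc, map_ev]
theorem bc_der (u : I → FreeAlgebra K I) (w : FreeAlgebra K I) :
    bc K K' I (der K u w) = der K' (fun i => bc K K' I (u i)) (bc K K' I w) := by
  induction w using FreeAlgebra.induction with
  | grade0 c => rw [Algebra.algebraMap_eq_smul_one, bc_smul]; simp
  | grade1 i => simp
  | mul u v hu hv => simp [der_mul, hu, hv]
  | add u v hu hv => simp [hu, hv]
/-- intertwining along `bc` (induction on `w`, as `intertwine_lift`). -/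
theorem bc_lift_End {I' : Type} (g : I → Module.End K (FreeAlgebra K I'))
    (g' : I → Module.End K' (FreeAlgebra K' I'))
    (h : ∀ i m, bc K K' I' (g i m) = g' i (bc K K' I' m)) (w : FreeAlgebra K I)
    (m : FreeAlgebra K I') :
    bc K K' I' (FreeAlgebra.lift K g w m) = FreeAlgebra.lift K' g' (bc K K' I w) (bc K K' I' m) := by
  induction w using FreeAlgebra.induction generalizing m with
  | grade0 c => 
    rw [Algebra.algebraMap_eq_smul_one, bc_smul, map_smul, map_smul, LinearMap.smul_apply, bc_smul]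
    simp
  | grade1 i => simp [h]
  | mul u v hu hv => simp [hu, hv]
  | add u v hu hv => simp [hu, hv]
theorem cmp_bc (wt : I → ℕ) (d : ℕ) (f : FreeAlgebra K I) :
    cmp K' wt d (bc K K' I f) = bc K K' I (cmp K wt d f) := by
  induction f using FreeAlgebra.induction generalizing d with
  | grade0 c =>
    rw [Algebra.algebraMap_eq_smul_one, bc_smul, map_smul, map_smul, bc_smul, map_one, cmp_one,
      cmp_one]
    split_ifs <;> simp
  | grade1 i => rw [bc_ι, cmp_ι, cmp_ι]; split_ifs <;> simp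
  | mul u v hu hv => simp [cmp_mul, hu, hv]
  | add u v hu hv => simp [hu, hv]
theorem cc_bc (f : T K) : cc K' (bc K K' _ f) = algebraMap K K' (cc K f) := by
  change ev K' (!![1, 0; 0, 0] : Matrix (Fin 2) (Fin 2) K') !![0, 1; 0, 0] (bc K K' _ f) 0 1 =
    ((Algebra.ofId K K').mapMatrix
      (ev K (!![1, 0; 0, 0] : Matrix (Fin 2) (Fin 2) K) !![0, 1; 0, 0] f)) 0 1
  rw [ev_bc, map_ev]
  have e1 : (Algebra.ofId K K').mapMatrix (!![1, 0; 0, 0] : Matrix (Fin 2) (Fin 2) K) =
      !![1, 0; 0, 0] := by ext i j; fin_cases i <;> fin_cases j <;> simp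
  have e2 : (Algebra.ofId K K').mapMatrix (!![0, 1; 0, 0] : Matrix (Fin 2) (Fin 2) K) =
      !![0, 1; 0, 0] := by ext i j; fin_cases i <;> fin_cases j <;> simp
  rw [e1, e2]
theorem bc_Dr (ψ φ : T K) : bc K K' _ (Dr K ψ φ) = Dr K' (bc K K' _ ψ) (bc K K' _ φ) := by
  rw [Dr, bc_der, Dr]; congr 2; funext i; fin_cases i
  · simp
  · simp [map_lie', yy]

theorem bc_Op (ψ φ : T K) : bc K K' _ (Op K ψ φ) = Op K' (bc K K' _ ψ) (bc K K' _ φ) := by
  change bc K K' _ (ψ * φ + Dr K ψ φ) = _ * _ + _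
  rw [map_add, map_mul, bc_Dr]
theorem bc_ihara (ψ φ : T K) :
    bc K K' _ (ihara K ψ φ) = ihara K' (bc K K' _ ψ) (bc K K' _ φ) := by
  simp only [ihara, map_add, map_sub, bc_Dr, map_lie']
theorem bc_phi (σ : ℕ → T K) (ω : FreeAlgebra K ℕ) :
    bc K K' _ (phi K σ ω) = phi K' (fun k => bc K K' _ (σ k)) (bc K K' ℕ ω) := by
  have := bc_lift_End (fun k => Op K (σ k)) (fun k => Op K' (bc K K' _ (σ k)))
    (fun k m => bc_Op _ _) ω 1
  rw [map_one (bc K K' _)] at this
  exact this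

end Crest.Agent.R10
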