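import Crest.Agent.R10.Defs

/-! # Row 10: elementary API (sorry-free). -/

noncomputable section
namespace Crest.Agent.R10
open FreeAlgebra (ι)

section
variable {K : Type} [CommRing K] {A : Type} [Ring A] [Algebra K A] {B : Type} [Ring B]
  [Algebra K B] {I : Type}

@[simp] theorem ev_xx (a b : A) : ev K a b (xx K) = a := by simp [ev, xx]
@[simp] theorem ev_yy (a b : A) : ev K a b (yy K) = b := by simp [ev, yy]
@[simp] theorem ev_ι0 (a b : A) : ev K a b (ι K 0) = a := ev_xx a b
@[simp] theorem ev_ι1 (a b : A) : ev K a b (ι K 1) = b := ev_yy a b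

theorem T_ext {φ ψ : T K →ₐ[K] A} (hx : φ (xx K) = ψ (xx K)) (hy : φ (yy K) = ψ (yy K)) :
    φ = ψ := by
  apply FreeAlgebra.hom_ext; funext i; fin_cases i
  · exact hx
  · exact hy

theorem map_lift (φ : A →ₐ[K] B) (g : I → A) (w : FreeAlgebra K I) :
    φ (FreeAlgebra.lift K g w) = FreeAlgebra.lift K (fun i => φ (g i)) w := by
  have : φ.comp (FreeAlgebra.lift K g) = FreeAlgebra.lift K (fun i => φ (g i)) := by
    apply FreeAlgebra.hom_ext; funext i; simp
  exact DFunLike.congr_fun this w

theorem map_ev (φ : A →ₐ[K] B) (a b : A) (f : T K) :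
    φ (ev K a b f) = ev K (φ a) (φ b) f := by
  have : φ.comp (ev K a b) = ev K (φ a) (φ b) := T_ext (by simp) (by simp)
  exact DFunLike.congr_fun this f

@[simp] theorem ev_self (f : T K) : ev K (xx K) (yy K) f = f := by
  have : ev K (xx K) (yy K) = AlgHom.id K _ := T_ext (by simp) (by simp)
  rw [this]; rfl

@[simp] theorem lift_self (f : FreeAlgebra K I) : FreeAlgebra.lift K (ι K) f = f := by
  have : FreeAlgebra.lift K (ι K) = AlgHom.id K (FreeAlgebra K I) := by
    apply FreeAlgebra.hom_ext; funext i; simp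
  rw [this]; rfl

theorem map_lie' {F : Type} [FunLike F A B] [RingHomClass F A B] (φ : F) (a b : A) :
    φ ⁅a, b⁆ = ⁅φ a, φ b⁆ := by simp [Ring.lie_def]

@[simp] theorem adp_zero (z w : A) : adp z 0 w = w := rfl
theorem adp_succ (z w : A) (i : ℕ) : adp z (i + 1) w = ⁅z, adp z i w⁆ := rfl
theorem adp_succ' (z w : A) (i : ℕ) : adp z (i + 1) w = adp z i ⁅z, w⁆ := by
  induction i with
  | zero => rfl
  | succ i ih => rw [adp_succ, ih, ← adp_succ]
@[simp] theorem adp_zero_right (z : A) (i : ℕ) : adp z i 0 = 0 := by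
  induction i with
  | zero => rfl
  | succ i ih => simp [adp_succ, ih, Ring.lie_def]
theorem adp_add (z v w : A) (i : ℕ) : adp z i (v + w) = adp z i v + adp z i w := by
  induction i with
  | zero => rfl
  | succ i ih => simp only [adp_succ, ih, Ring.lie_def]; noncomm_ring
theorem adp_smul (z w : A) (c : K) (i : ℕ) : adp z i (c • w) = c • adp z i w := by
  induction i with
  | zero => rfl
  | succ i ih => simp [adp_succ, ih, Ring.lie_def, smul_sub]
theorem map_adp {F : Type} [FunLike F A B] [RingHomClass F A B] (φ : F) (z w : A) (i : ℕ) :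
    φ (adp z i w) = adp (φ z) i (φ w) := by
  induction i with
  | zero => rfl
  | succ i ih => rw [adp_succ, adp_succ, map_lie', ih]

/-! dual numbers -/
@[simp] theorem fst_dn (a u : A) : (dn a u).fst = a := by simp [dn]
@[simp] theorem snd_dn (a u : A) : (dn a u).snd = u := by simp [dn]
theorem dn_eta (w : DualNumber A) : dn w.fst w.snd = w := TrivSqZeroExt.inl_fst_add_inr_snd_eq w
theorem dn_inj {a u b v : A} : dn a u = dn b v ↔ a = b ∧ u = v := by
  constructor
  · intro h; exact ⟨by simpa using congrArg TrivSqZeroExt.fst h,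
      by simpa using congrArg TrivSqZeroExt.snd h⟩
  · rintro ⟨rfl, rfl⟩; rfl
theorem dn_add (a u b v : A) : dn a u + dn b v = dn (a + b) (u + v) := by ext <;> simp
theorem dn_sub (a u b v : A) : dn a u - dn b v = dn (a - b) (u - v) := by ext <;> simp
theorem dn_neg (a u : A) : -dn a u = dn (-a) (-u) := by ext <;> simp
theorem dn_mul (a u b v : A) : dn a u * dn b v = dn (a * b) (a * v + u * b) := by
  ext <;> simp
theorem dn_smul (c : K) (a u : A) : c • dn a u = dn (c • a) (c • u) := by ext <;> simp
theorem dn_one : (1 : DualNumber A) = dn 1 0 := by ext <;> simp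
theorem dn_zero : (0 : DualNumber A) = dn 0 0 := by ext <;> simp
theorem dn_lie (a u b v : A) : ⁅dn a u, dn b v⁆ = dn ⁅a, b⁆ (⁅a, v⁆ + ⁅u, b⁆) := by
  simp only [Ring.lie_def, dn_mul, dn_sub]; congr 1; abel

theorem lift_dn (g u : I → A) (w : FreeAlgebra K I) :
    FreeAlgebra.lift K (fun i => dn (g i) (u i)) w =
      dn (FreeAlgebra.lift K g w) (dA K g u w) := by
  have h := map_lift (TrivSqZeroExt.fstHom K A A) (fun i => dn (g i) (u i)) w
  simp only [TrivSqZeroExt.fstHom_apply, fst_dn] at h
  ext
  · simpa using h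
  · simp [dA]

theorem ev_dn (a u b v : A) (f : T K) :
    ev K (dn a u) (dn b v) f = dn (ev K a b f) (dA K ![a, b] ![u, v] f) := by
  have := lift_dn (K := K) ![a, b] ![u, v] f
  rw [ev, ev, ← this]; congr 2; funext i; fin_cases i <;> rfl

@[simp] theorem dA_ι (g u : I → A) (i : I) : dA K g u (ι K i) = u i := by simp [dA]
@[simp] theorem dA_one (g u : I → A) : dA K g u 1 = 0 := by simp [dA]
@[simp] theorem dA_algebraMap (g u : I → A) (c : K) : dA K g u (algebraMap K _ c) = 0 := by
  rw [Algebra.algebraMap_eq_smul_one, map_smul, dA_one, smul_zero]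
theorem dA_mul (g u : I → A) (v w : FreeAlgebra K I) :
    dA K g u (v * w) = FreeAlgebra.lift K g v * dA K g u w + dA K g u v * FreeAlgebra.lift K g w := by
  have h := map_mul (FreeAlgebra.lift K (fun i => dn (g i) (u i))) v w
  rw [lift_dn, lift_dn, lift_dn, dn_mul, dn_inj] at h
  exact h.2

/-- a derivation along `lift g` is `dA`. -/
theorem eq_dA (g : I → A) (D : FreeAlgebra K I →ₗ[K] A)
    (hD : ∀ v w, D (v * w) = FreeAlgebra.lift K g v * D w + D v * FreeAlgebra.lift K g w) :
    D = dA K g (fun i => D (ι K i)) := by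
  have h1 : D 1 = 0 := by have := hD 1 1; simpa using this
  ext1 w
  induction w using FreeAlgebra.induction with
  | grade0 c => rw [Algebra.algebraMap_eq_smul_one, map_smul, map_smul, h1, dA_one]
  | grade1 i => simp
  | mul v w hv hw => rw [hD, dA_mul, hv, hw]
  | add v w hv hw => rw [map_add, map_add, hv, hw]

theorem dA_add (g u v : I → A) (w : FreeAlgebra K I) :
    dA K g (u + v) w = dA K g u w + dA K g v w := by
  have := eq_dA g (dA K g u + dA K g v) (fun a b => by
    simp only [LinearMap.add_apply, dA_mul]; noncomm_ring)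
  have h := DFunLike.congr_fun this w
  simp only [LinearMap.add_apply, dA_ι] at h
  exact h.symm

@[simp] theorem dA_zero (g : I → A) (w : FreeAlgebra K I) : dA K g 0 w = 0 := by
  have := dA_add (K := K) g 0 0 w
  simpa using this

theorem dA_inner (g : I → A) (c : A) (w : FreeAlgebra K I) :
    dA K g (fun i => ⁅g i, c⁆) w = ⁅FreeAlgebra.lift K g w, c⁆ := by
  have := eq_dA g ((LinearMap.mulRight K c - LinearMap.mulLeft K c) ∘ₗ
      (FreeAlgebra.lift K g).toLinearMap) (fun a b => by simp; noncomm_ring)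
  have h := DFunLike.congr_fun this w
  simp only [LinearMap.comp_apply, LinearMap.sub_apply, AlgHom.toLinearMap_apply,
    LinearMap.mulRight_apply, LinearMap.mulLeft_apply, FreeAlgebra.lift_ι_apply] at h
  simp only [Ring.lie_def]; exact h.symm

theorem map_dA (φ : A →ₐ[K] B) (g u : I → A) (w : FreeAlgebra K I) :
    φ (dA K g u w) = dA K (fun i => φ (g i)) (fun i => φ (u i)) w := by
  have := eq_dA (fun i => φ (g i)) (φ.toLinearMap ∘ₗ dA K g u) (fun a b => by
    simp [dA_mul, map_lift])
  have h := DFunLike.congr_fun this w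
  simpa using h

@[simp] theorem der_ι (u : I → FreeAlgebra K I) (i : I) : der K u (ι K i) = u i := dA_ι _ _ _
@[simp] theorem der_one (u : I → FreeAlgebra K I) : der K u 1 = 0 := dA_one _ _
theorem der_mul (u : I → FreeAlgebra K I) (v w : FreeAlgebra K I) :
    der K u (v * w) = v * der K u w + der K u v * w := by
  simp [der, dA_mul]
theorem der_lie (u : I → FreeAlgebra K I) (v w : FreeAlgebra K I) :
    der K u ⁅v, w⁆ = ⁅der K u v, w⁆ + ⁅v, der K u w⁆ := by
  simp only [Ring.lie_def, map_sub, der_mul]; abel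
theorem eq_der (D : Module.End K (FreeAlgebra K I))
    (hD : ∀ v w, D (v * w) = v * D w + D v * w) : D = der K (fun i => D (ι K i)) :=
  eq_dA _ D (by simpa using hD)
theorem lift_der (g : I → A) (u : I → FreeAlgebra K I) (w : FreeAlgebra K I) :
    FreeAlgebra.lift K g (der K u w) = dA K g (fun i => FreeAlgebra.lift K g (u i)) w := by
  rw [der, map_dA]; simp
theorem der_add (u v : I → FreeAlgebra K I) : der K (u + v) = der K u + der K v := by
  ext1 w; exact dA_add _ _ _ _
@[simp] theorem der_zero : der K (0 : I → FreeAlgebra K I) = 0 := by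
  ext1 w; exact dA_zero _ _
@[simp] theorem Lm_apply (t w : A) : Lm K t w = t * w := rfl
theorem lie_der_Lm (u : I → FreeAlgebra K I) (t : FreeAlgebra K I) :
    ⁅der K u, Lm K t⁆ = Lm K (der K u t) := by
  ext1 w; simp [Ring.lie_def, der_mul]
theorem lie_der_der (u v : I → FreeAlgebra K I) :
    ⁅der K u, der K v⁆ = der K (fun i => der K u (v i) - der K v (u i)) := by
  have := eq_der ⁅der K u, der K v⁆ (fun a b => by
    simp only [Ring.lie_def, LinearMap.sub_apply, Module.End.mul_apply, der_mul, map_add]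
    noncomm_ring)
  rw [this]; simp [Ring.lie_def]

/-- intertwining operators: free-algebra evaluations are intertwined too. -/
theorem intertwine_lift {M M' : Type} [AddCommGroup M] [Module K M] [AddCommGroup M'] [Module K M']
    (φ : M →ₗ[K] M') (g : I → Module.End K M) (g' : I → Module.End K M')
    (h : ∀ i m, φ (g i m) = g' i (φ m)) (w : FreeAlgebra K I) (m : M) :
    φ (FreeAlgebra.lift K g w m) = FreeAlgebra.lift K g' w (φ m) := by
  induction w using FreeAlgebra.induction generalizing m with
  | grade0 c => simp [Algebra.algebraMap_eq_smul_one]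
  | grade1 i => simp [h]
  | mul v w hv hw => simp [hv, hw]
  | add v w hv hw => simp [hv, hw]

theorem intertwine_ev {M M' : Type} [AddCommGroup M] [Module K M] [AddCommGroup M'] [Module K M']
    (φ : M →ₗ[K] M') (p q : Module.End K M) (p' q' : Module.End K M')
    (hp : ∀ m, φ (p m) = p' (φ m)) (hq : ∀ m, φ (q m) = q' (φ m)) (w : T K) (m : M) :
    φ (ev K p q w m) = ev K p' q' w (φ m) :=
  intertwine_lift φ _ _ (fun i => by fin_cases i <;> simpa) w m

theorem intertwine_adp {M M' : Type} [AddCommGroup M] [Module K M] [AddCommGroup M'] [Module K M']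
    (φ : M →ₗ[K] M') (p q : Module.End K M) (p' q' : Module.End K M')
    (hp : ∀ m, φ (p m) = p' (φ m)) (hq : ∀ m, φ (q m) = q' (φ m)) (i : ℕ) (m : M) :
    φ (adp p i q m) = adp p' i q' (φ m) := by
  induction i generalizing m with
  | zero => exact hq m
  | succ i ih => simp [adp_succ, Ring.lie_def, hp, ih]

theorem ev_Lm (p q : A) (f : T K) : ev K (Lm K p) (Lm K q) f = Lm K (ev K p q f) :=
  (map_ev (Algebra.lmul K A) p q f).symm

/-! block operators -/
section mat
variable {N : Type} [AddCommGroup N] [Module K N]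
@[simp] theorem mat_apply (p q r s : Module.End K N) (m n : N) :
    mat p q r s (m, n) = (p m + q n, r m + s n) := rfl
theorem mat_mul (p q r s p' q' r' s' : Module.End K N) :
    mat p q r s * mat p' q' r' s' =
      mat (p * p' + q * r') (p * q' + q * s') (r * p' + s * r') (r * q' + s * s') := by
  apply LinearMap.ext; rintro ⟨m, n⟩; simp [add_add_add_comm]
theorem mat_add (p q r s p' q' r' s' : Module.End K N) :
    mat p q r s + mat p' q' r' s' = mat (p + p') (q + q') (r + r') (s + s') := by
  apply LinearMap.ext; rintro ⟨m, n⟩; simp [add_add_add_comm]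
theorem mat_sub (p q r s p' q' r' s' : Module.End K N) :
    mat p q r s - mat p' q' r' s' = mat (p - p') (q - q') (r - r') (s - s') := by
  apply LinearMap.ext; rintro ⟨m, n⟩; simp; constructor <;> abel
theorem mat_zero : mat (0 : Module.End K N) 0 0 0 = 0 := by
  apply LinearMap.ext; rintro ⟨m, n⟩; simp
theorem mat_congr {p q r s p' q' r' s' : Module.End K N} (h1 : p = p') (h2 : q = q') (h3 : r = r')
    (h4 : s = s') : mat p q r s = mat p' q' r' s' := by rw [h1, h2, h3, h4]
end mat

/-! spans of monomials -/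
theorem mem_LS_of (g : I → A) (wt : I → ℕ) (i : I) : g i ∈ LS K g wt (wt i) :=
  Submodule.subset_span (Mono.of i)
theorem lie_mem_LS {g : I → A} {wt : I → ℕ} {m n : ℕ} {a b : A} (ha : a ∈ LS K g wt m)
    (hb : b ∈ LS K g wt n) : ⁅a, b⁆ ∈ LS K g wt (m + n) := by
  induction ha using Submodule.span_induction with
  | zero => simp [Ring.lie_def]
  | add a a' _ _ h h' =>
    have : ⁅a + a', b⁆ = ⁅a, b⁆ + ⁅a', b⁆ := by simp only [Ring.lie_def]; noncomm_ring
    rw [this]; exact add_mem h h'
  | smul c a _ h =>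
    have : ⁅c • a, b⁆ = c • ⁅a, b⁆ := by simp [Ring.lie_def, smul_sub]
    rw [this]; exact Submodule.smul_mem _ _ h
  | mem a ha =>
    induction hb using Submodule.span_induction with
    | zero => simp [Ring.lie_def]
    | add b b' _ _ h h' =>
      have : ⁅a, b + b'⁆ = ⁅a, b⁆ + ⁅a, b'⁆ := by simp only [Ring.lie_def]; noncomm_ring
      rw [this]; exact add_mem h h'
    | smul c b _ h =>
      have : ⁅a, c • b⁆ = c • ⁅a, b⁆ := by simp [Ring.lie_def, smul_sub]
      rw [this]; exact Submodule.smul_mem _ _ h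
    | mem b hb => exact Submodule.subset_span (Mono.lie ha hb)

/-- induction principle: a graded family of submodules containing the generators and closed under
brackets contains `LS`. -/
theorem LS_le {g : I → A} {wt : I → ℕ} (P : ℕ → Submodule K A) (h0 : ∀ i, g i ∈ P (wt i))
    (h1 : ∀ m n a b, a ∈ P m → b ∈ P n → ⁅a, b⁆ ∈ P (m + n)) (n : ℕ) : LS K g wt n ≤ P n := by
  apply Submodule.span_le.2
  intro a ha
  induction ha with
  | of i => exact h0 i
  | lie _ _ iha ihb => exact h1 _ _ _ _ iha ihb

theorem map_mem_LS {I' : Type} (φ : A →ₐ[K] B) {g : I → A} {wt : I → ℕ} {g' : I' → B}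
    {wt' : I' → ℕ} (h : ∀ i, φ (g i) ∈ LS K g' wt' (wt i)) {n : ℕ} {a : A}
    (ha : a ∈ LS K g wt n) : φ a ∈ LS K g' wt' n :=
  LS_le (fun n => (LS K g' wt' n).comap φ.toLinearMap) h (fun m n a b ha hb => by
    simp only [Submodule.mem_comap, AlgHom.toLinearMap_apply, map_lie'] at *
    exact lie_mem_LS ha hb) n ha

theorem xx_mem_L : xx K ∈ L K 1 := mem_LS_of (ι K) (fun _ => 1) 0
theorem yy_mem_L : yy K ∈ L K 1 := mem_LS_of (ι K) (fun _ => 1) 1

@[simp] theorem bc_ι (K' : Type) [CommRing K'] [Algebra K K'] (i : I) :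
    bc K K' I (ι K i) = ι K' i := by simp [bc]

end
end Crest.Agent.R10
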