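import Crest.Agent.R10.Lie

/-! # Row 10: the operators `Op`, linearity of `Grt`, low weights. -/

noncomputable section
namespace Crest.Agent.R10
open FreeAlgebra (ι)

variable {K : Type} [CommRing K] {A : Type} [Ring A] [Algebra K A]

theorem Op_apply (ψ φ : T K) : Op K ψ φ = ψ * φ + Dr K ψ φ := rfl
@[simp] theorem Dr_xx (ψ : T K) : Dr K ψ (xx K) = 0 := der_ι _ 0
@[simp] theorem Dr_yy (ψ : T K) : Dr K ψ (yy K) = ⁅yy K, ψ⁆ := der_ι _ 1
@[simp] theorem Dr_one (ψ : T K) : Dr K ψ 1 = 0 := der_one _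
theorem Dr_mul (ψ u v : T K) : Dr K ψ (u * v) = u * Dr K ψ v + Dr K ψ u * v := der_mul _ _ _
theorem Dr_lie (ψ u v : T K) : Dr K ψ ⁅u, v⁆ = ⁅Dr K ψ u, v⁆ + ⁅u, Dr K ψ v⁆ := der_lie _ _ _
theorem Dr_add (ψ φ : T K) : Dr K (ψ + φ) = Dr K ψ + Dr K φ := by
  rw [Dr, Dr, Dr, ← der_add]; congr 1; funext i; fin_cases i
  · simp
  · simp [lie_add_r]
theorem Dr_smul (c : K) (ψ : T K) : Dr K (c • ψ) = c • Dr K ψ := by
  have := eq_der (c • Dr K ψ) (fun v w => by simp [Dr_mul])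
  rw [this, Dr]; congr 1; funext i; fin_cases i
  · exact (congrArg (c • ·) (Dr_xx ψ)).trans (smul_zero c) |>.symm
  · exact (lie_smul_r c _ _).trans (congrArg (c • ·) (Dr_yy ψ)).symm
theorem lie_Dr (ψ φ : T K) : ⁅Dr K ψ, Dr K φ⁆ = Dr K (ihara K ψ φ) := by
  conv_lhs => rw [Dr, Dr, lie_der_der, ← Dr, ← Dr]
  rw [Dr.eq_1 K (ihara K ψ φ)]; congr 1; funext i; fin_cases i
  · simp
  · change Dr K ψ ⁅yy K, φ⁆ - Dr K φ ⁅yy K, ψ⁆ = ⁅yy K, ihara K ψ φ⁆
    rw [Dr_lie, Dr_lie, Dr_yy, Dr_yy, ihara]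
    simp only [Ring.lie_def]; noncomm_ring

@[simp] theorem Op_one (ψ : T K) : Op K ψ 1 = ψ := by
  simp [Op_apply]
theorem Op_add (ψ φ : T K) : Op K (ψ + φ) = Op K ψ + Op K φ := by
  ext1 w; simp only [Op_apply, Dr_add, LinearMap.add_apply, add_mul]; abel
theorem Op_smul (c : K) (ψ : T K) : Op K (c • ψ) = c • Op K ψ := by
  ext1 w; simp [Op_apply, Dr_smul]
@[simp] theorem Op_zero : Op K (0 : T K) = 0 := by
  simpa using Op_smul (0 : K) (0 : T K)
/-- `lie_der_Lm`, `lie_der_der`; `[D_ψ,D_φ] y = [y, {ψ,φ}]`. -/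
theorem lie_Op (ψ φ : T K) : ⁅Op K ψ, Op K φ⁆ = Op K (ihara K ψ φ) := by
  ext1 w
  have := DFunLike.congr_fun (lie_Dr ψ φ) w
  simp only [Ring.lie_def, LinearMap.sub_apply, Module.End.mul_apply] at this
  simp only [Ring.lie_def, LinearMap.sub_apply, Module.End.mul_apply, Op_apply, map_add, Dr_mul,
    ← this]
  simp only [ihara, Ring.lie_def]
  noncomm_ring
theorem Dr_mem_L {m n : ℕ} {ψ φ : T K} (hψ : ψ ∈ L K m) (hφ : φ ∈ L K n) :
    Dr K ψ φ ∈ L K (n + m) := by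
  refine der_mem_LS _ (fun i => ?_) hφ
  fin_cases i
  · exact zero_mem _
  · exact lie_mem_LS yy_mem_L hψ
theorem lie_mem_Hom {m n : ℕ} {ψ φ : T K} (hψ : ψ ∈ Hom K w1 m) (hφ : φ ∈ Hom K w1 n) :
    ⁅ψ, φ⁆ ∈ Hom K w1 (m + n) :=
  sub_mem (mul_mem_Hom w1 hψ hφ) (add_comm n m ▸ mul_mem_Hom w1 hφ hψ)

theorem ihara_mem_L {m n : ℕ} {ψ φ : T K} (hψ : ψ ∈ L K m) (hφ : φ ∈ L K n) :
    ihara K ψ φ ∈ L K (m + n) := by
  exact add_mem (sub_mem (add_comm n m ▸ Dr_mem_L hψ hφ) (Dr_mem_L hφ hψ)) (lie_mem_LS hψ hφ)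
theorem Op_mem_Hom {m n : ℕ} {ψ φ : T K} (hψ : ψ ∈ Hom K w1 m) (hφ : φ ∈ Hom K w1 n) :
    Op K ψ φ ∈ Hom K w1 (n + m) := by
  refine add_mem (add_comm m n ▸ mul_mem_Hom w1 hψ hφ) ?_
  refine dA_mem_of_Hom w1 _ _ (Hom K w1) (one_mem_Hom w1) (fun _ _ _ _ => mul_mem_Hom w1) m
    (ι_mem_Hom w1) (fun i => ?_) hφ
  fin_cases i
  · exact zero_mem _
  · exact lie_mem_Hom (ι_mem_Hom w1 1) hψ
theorem Op_mem_Ge {m n : ℕ} {ψ φ : T K} (hψ : ψ ∈ Hom K w1 m) (hφ : φ ∈ Ge K w1 n) :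
    Op K ψ φ ∈ Ge K w1 (n + m) := by
  refine add_mem (add_comm m n ▸ mul_mem_Ge w1 (Hom_le_Ge w1 _ hψ) hφ) ?_
  refine dA_mem_of_Ge w1 _ _ (Ge K w1) (by rw [Ge_zero]; trivial) (Ge_anti w1)
    (fun _ _ _ _ => mul_mem_Ge w1) m (fun i => Hom_le_Ge w1 _ (ι_mem_Hom w1 i)) (fun i => ?_) hφ
  fin_cases i
  · exact zero_mem _
  · exact Hom_le_Ge w1 _ (lie_mem_Hom (ι_mem_Hom w1 1) hψ)
theorem ev_Dr (p q : A) (ψ φ : T K) :
    ev K p q (Dr K ψ φ) = dA K ![p, q] ![0, ⁅q, ev K p q ψ⁆] φ := by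
  rw [Dr, ev, lift_der]; congr 2; funext i; fin_cases i
  · simp
  · exact (map_lie' (ev K p q) _ _).trans (by rw [ev_yy]; rfl)
theorem cc_Dr {m : ℕ} {ψ : T K} (hψ : ψ ∈ L K m) (hm : 2 ≤ m) (φ : T K) :
    cc K (Dr K ψ φ) = 0 := by
  change ev K (!![1, 0; 0, 0] : Matrix (Fin 2) (Fin 2) K) !![0, 1; 0, 0] (Dr K ψ φ) 0 1 = _
  have h1 : ev K (1 : K) 0 ψ = 0 := ev_eq_zero_of_commute hψ hm (Commute.all _ _)
  have h2 : ev K (0 : K) 0 ψ = 0 := ev_eq_zero_of_commute hψ hm (Commute.all _ _)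
  rw [ev_Dr, ev_cc_mat, h1, h2]
  have : (![0, ⁅(!![0, 1; 0, 0] : Matrix (Fin 2) (Fin 2) K),
      (!![0, cc K ψ; 0, 0] : Matrix (Fin 2) (Fin 2) K)⁆] : Fin 2 → Matrix (Fin 2) (Fin 2) K) = 0 := by
    funext i; fin_cases i
    · rfl
    · simp [Ring.lie_def]
  rw [this, dA_zero]; rfl

/-- with `P = E11`, `E = E12`: `ψ(P,E) = cc ψ • E` (`ev_lin`), so `[y,ψ] ↦ 0` and
`ev P E (Dr ψ φ) = 0` (`lift_der`, `dA_zero`); the `(1,1)` entry of `ev P E φ` is `ev 0 0 φ`. -/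
theorem cc_Op {m : ℕ} {ψ : T K} (hψ : ψ ∈ L K m) (hm : 2 ≤ m) (φ : T K) :
    cc K (Op K ψ φ) = cc K ψ * ev K (0 : K) 0 φ := by
  have h1 : ev K (1 : K) 0 ψ = 0 := ev_eq_zero_of_commute hψ hm (Commute.all _ _)
  rw [Op_apply, map_add, cc_Dr hψ hm, cc_mul, h1]; simp
theorem ihara_eq (ψ φ : T K) : ihara K ψ φ = Op K ψ φ - Op K φ ψ := by
  simp only [ihara, Op_apply, Ring.lie_def]; abel

theorem cc_ihara {m n : ℕ} {ψ φ : T K} (hψ : ψ ∈ L K m) (hφ : φ ∈ L K n) (hm : 2 ≤ m)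
    (hn : 2 ≤ n) : cc K (ihara K ψ φ) = 0 := by
  rw [ihara_eq, map_sub, cc_Op hψ hm, cc_Op hφ hn,
    ev_eq_zero_of_commute hψ hm (Commute.all _ _), ev_eq_zero_of_commute hφ hn (Commute.all _ _)]
  simp
/-- `Op` as a linear map. -/
def OpL (K : Type) [CommRing K] : T K →ₗ[K] Module.End K (T K) where
  toFun := Op K
  map_add' := Op_add
  map_smul' := Op_smul

theorem eq_Op_of_mem_LS {I : Type} (σ : I → T K) (wt : I → ℕ) {n : ℕ} {ω : Module.End K (T K)}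
    (h : ω ∈ LS K (fun k => Op K (σ k)) wt n) : ω = Op K (ω 1) := by
  have := LS_le (fun _ => LinearMap.ker (LinearMap.id - OpL K ∘ₗ LinearMap.applyₗ (1 : T K)))
    (fun i => by simp [OpL]) (fun m n a b ha hb => by
      simp only [LinearMap.mem_ker, LinearMap.sub_apply, LinearMap.id_apply, LinearMap.comp_apply,
        LinearMap.applyₗ_apply_apply, sub_eq_zero] at *
      rw [ha, hb]
      change ⁅Op K (a 1), Op K (b 1)⁆ = Op K (⁅Op K (a 1), Op K (b 1)⁆ 1)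
      rw [lie_Op, Op_one]) n h
  exact sub_eq_zero.1 this
theorem mem_IB_self (σ : ℕ → T K) (k : ℕ) : σ k ∈ IB K σ (2 * k + 3) := by
  exact ⟨_, mem_LS_of (fun k => Op K (σ k)) (fun k => 2 * k + 3) k, by simp⟩
theorem ihara_mem_IB (σ : ℕ → T K) {m n : ℕ} {ψ φ : T K} (hψ : ψ ∈ IB K σ m) (hφ : φ ∈ IB K σ n) :
    ihara K ψ φ ∈ IB K σ (m + n) := by
  obtain ⟨a, ha, rfl⟩ := hψ
  obtain ⟨b, hb, rfl⟩ := hφ
  refine ⟨_, lie_mem_LS ha hb, ?_⟩
  rw [eq_Op_of_mem_LS σ _ ha, eq_Op_of_mem_LS σ _ hb, lie_Op]; simp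
/-- induction principle for `IB` (use `LS_le` with `{ω | ω = Op (ω 1) ∧ ω 1 ∈ P n}`). -/
theorem IB_le (σ : ℕ → T K) (P : ℕ → Submodule K (T K)) (h0 : ∀ k, σ k ∈ P (2 * k + 3))
    (h1 : ∀ m n ψ φ, ψ ∈ P m → φ ∈ P n → ihara K ψ φ ∈ P (m + n)) (n : ℕ) : IB K σ n ≤ P n := by
  rintro _ ⟨ω, hω, rfl⟩
  have := LS_le (fun n => LS K (fun k => Op K (σ k)) (fun k => 2 * k + 3) n ⊓
      (P n).comap (LinearMap.applyₗ (1 : T K)))
    (fun k => ⟨mem_LS_of _ _ k, by simpa using h0 k⟩) (fun m n a b ha hb => by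
      refine ⟨lie_mem_LS ha.1 hb.1, ?_⟩
      have := h1 m n _ _ ha.2 hb.2
      change ⁅a, b⁆ 1 ∈ P (m + n)
      rw [eq_Op_of_mem_LS σ _ ha.1, eq_Op_of_mem_LS σ _ hb.1, lie_Op, Op_one]
      exact this) n hω
  exact this.2
theorem phi_mem_IB (σ : ℕ → T K) {n : ℕ} {ω : FreeAlgebra K ℕ}
    (h : ω ∈ LS K (ι K) (fun k => 2 * k + 3) n) : phi K σ ω ∈ IB K σ n := by
  refine ⟨FreeAlgebra.lift K (fun k => Op K (σ k)) ω, map_mem_LS _ (fun k => ?_) h, rfl⟩
  simpa using mem_LS_of (K := K) (fun k => Op K (σ k)) (fun k => 2 * k + 3) k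

theorem asy_ev {f : T K} (h : asy K f (xx K) (yy K) = 0) (p q : A) : asy K f p q = 0 := by
  have := congrArg (ev K p q) h
  simpa [asy, map_ev] using this
theorem hex_ev {f : T K} (h : hex K f (xx K) (yy K) = 0) (p q : A) : hex K f p q = 0 := by
  have := congrArg (ev K p q) h
  simpa [hex, map_ev] using this
theorem spc_ev {f : T K} (h : spc K f (xx K) (yy K) = 0) (p q : A) : spc K f p q = 0 := by
  have := congrArg (ev K p q) h
  simpa [spc, map_ev, map_lie'] using this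

theorem asy_add (f g : T K) (p q : A) : asy K (f + g) p q = asy K f p q + asy K g p q := by
  simp only [asy, map_add]; abel
theorem hex_add (f g : T K) (p q : A) : hex K (f + g) p q = hex K f p q + hex K g p q := by
  simp only [hex, map_add]; abel
theorem spc_add (f g : T K) (p q : A) : spc K (f + g) p q = spc K f p q + spc K g p q := by
  simp only [spc, map_add, lie_add_r]; abel
theorem pent_add (f f' : T K) (a b d e g : A) :
    pent K (f + f') a b d e g = pent K f a b d e g + pent K f' a b d e g := by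
  simp only [pent, map_add]; abel
theorem asy_smul (c : K) (f : T K) (p q : A) : asy K (c • f) p q = c • asy K f p q := by
  simp only [asy, map_smul, smul_add]
theorem hex_smul (c : K) (f : T K) (p q : A) : hex K (c • f) p q = c • hex K f p q := by
  simp only [hex, map_smul, smul_add]
theorem spc_smul (c : K) (f : T K) (p q : A) : spc K (c • f) p q = c • spc K f p q := by
  simp only [spc, map_smul, smul_add, lie_smul_r]
theorem pent_smul (c : K) (f : T K) (a b d e g : A) :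
    pent K (c • f) a b d e g = c • pent K f a b d e g := by
  simp only [pent, map_smul, smul_add, smul_sub]

/-- `Grt K n` as a submodule. -/
def GrtS (K : Type) [CommRing K] (n : ℕ) : Submodule K (T K) where
  carrier := {f | Grt K n f}
  add_mem' := fun {f g} hf hg => ⟨add_mem hf.lie hg.lie, by rw [asy_add, hf.asy, hg.asy, add_zero],
    by rw [hex_add, hf.hex, hg.hex, add_zero], fun A _ _ a b c d e g h => by
      rw [pent_add, hf.pent A a b c d e g h, hg.pent A a b c d e g h, add_zero]⟩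
  zero_mem' := ⟨zero_mem _, by simp [asy], by simp [hex], fun A _ _ a b c d e g h => by simp [pent]⟩
  smul_mem' := fun c f hf => ⟨Submodule.smul_mem _ c hf.lie, by rw [asy_smul, hf.asy, smul_zero],
    by rw [hex_smul, hf.hex, smul_zero], fun A _ _ a b c d e g h => by
      rw [pent_smul, hf.pent A a b c d e g h, smul_zero]⟩
theorem mem_GrtS {n : ℕ} {f : T K} : f ∈ GrtS K n ↔ Grt K n f := Iff.rfl

/-- `GrtR K n` as a submodule. -/
def GrtRS (K : Type) [CommRing K] (n : ℕ) : Submodule K (T K) where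
  carrier := {f | GrtR K n f}
  add_mem' := fun {f g} hf hg => ⟨add_mem hf.lie hg.lie, by rw [asy_add, hf.asy, hg.asy, add_zero],
    by rw [hex_add, hf.hex, hg.hex, add_zero], by rw [spc_add, hf.spc, hg.spc, add_zero],
    by rw [pent_add, LinearMap.add_apply, hf.cell3, hg.cell3, add_zero],
    by rw [pent_add, LinearMap.add_apply, hf.cell1, hg.cell1, add_zero]⟩
  zero_mem' := ⟨zero_mem _, by simp [asy], by simp [hex], by simp [spc, Ring.lie_def],
    by simp [pent], by simp [pent]⟩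
  smul_mem' := fun c f hf => ⟨Submodule.smul_mem _ c hf.lie, by rw [asy_smul, hf.asy, smul_zero],
    by rw [hex_smul, hf.hex, smul_zero], by rw [spc_smul, hf.spc, smul_zero],
    by rw [pent_smul, LinearMap.smul_apply, hf.cell3, smul_zero],
    by rw [pent_smul, LinearMap.smul_apply, hf.cell1, smul_zero]⟩
theorem mem_GrtRS {n : ℕ} {f : T K} : f ∈ GrtRS K n ↔ GrtR K n f := Iff.rfl

/-- weight 0: `LS_zero`.  Weight 1: `f = αx+βy`, `asy` gives `β = -α`, the pentagon in `A = K`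
with `g = 1` and the rest `0` gives `α = 0`.  Weight 2: `hex (c•[x,y]) = 3c•[x,y]`
(test `[x,y] ≠ 0` with `cc`). -/
theorem Grt.eq_zero_of_le_two {K : Type} [Field K] [CharZero K] {n : ℕ} {f : T K}
    (hf : Grt K n f) (hn : n ≤ 2) : f = 0 := by
  have hl := hf.lie
  interval_cases n
  · rw [L, LS_zero _ _ (fun _ => le_rfl)] at hl; exact hl
  · obtain ⟨α, β, rfl⟩ := mem_L_one hl
    have h1 := asy_ev hf.asy (1 : K) 0
    have h2 := hf.pent K 0 0 0 0 0 1 (by constructor <;> exact Commute.all _ _)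
    simp [R10.asy] at h1
    simp [R10.pent] at h2
    have : β = 0 := h2
    have : α = 0 := by simpa [this] using h1
    simp [*]
  · obtain ⟨c, rfl⟩ := mem_L_two hl
    have h1 := hf.hex
    rw [hex_smul] at h1
    have h2 : R10.hex K ⁅xx K, yy K⁆ (xx K) (yy K) = (3 : K) • ⁅xx K, yy K⁆ := by
      simp only [R10.hex, Ring.lie_def, map_sub, map_mul, ev_xx, ev_yy]
      rw [show (3 : K) = 1 + 1 + 1 by norm_num, add_smul, add_smul, one_smul]
      noncomm_ring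
    rw [h2, smul_comm] at h1
    exact (smul_eq_zero.1 h1).resolve_left (by norm_num)

/-- an edge of the deformation: potentials `u` (at `p`) and `v` (at `q`). -/
structure Edge (K : Type) [CommRing K] {A : Type} [Ring A] [Algebra K A] (f : T K)
    (p q sp sq u v : A) : Prop where
  hp : sp = ⁅p, u⁆
  hq : sq = ⁅q, v⁆
  huv : v - u = ev K p q f

/-- `ev_dn`; `![sp,sq] = (fun i => ⁅![p,q] i, u⁆) + ![0, ⁅q, ev p q f⁆]`; `dA_add`, `dA_inner`,
`lift_der`. -/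
theorem Edge.ev_dn {f : T K} {p q sp sq u v : A} (h : Edge K f p q sp sq u v) (φ : T K) :
    ev K (dn p sp) (dn q sq) φ =
      dn (ev K p q φ) (ev K p q (Op K f φ) - v * ev K p q φ + ev K p q φ * u) := by
  rw [R10.ev_dn]; congr 1
  have e : (![sp, sq] : Fin 2 → A) = (fun i => ⁅![p, q] i, u⁆) + ![0, ⁅q, ev K p q f⁆] := by
    funext i; fin_cases i
    · simp [h.hp]
    · simp [h.hq, ← h.huv, ← lie_add_r]
  have hv : v = u + ev K p q f := by rw [← h.huv]; abel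
  rw [e, dA_add, dA_inner, ← ev_Dr, Op_apply, map_add, map_mul, hv, ← ev, Ring.lie_def]
  noncomm_ring

end Crest.Agent.R10
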