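import Crest.Agent.R10.BC
import Crest.Agent.R10.Ihara

/-! # Row 10: braid families, the fibre representation, transfer of `GrtR` along `bc`. -/

noncomputable section
namespace Crest.Agent.R10
open FreeAlgebra (ι)

section
variable {A : Type} [Ring A] {a b c d e g : A}
theorem Commute.cvt {p q q' : A} (h : Commute p q) (e : q = q') : Commute p q' := e ▸ h

/-- swap strands 0,1. -/
theorem Br.s01 (h : Br a b c d e g) : Br a d e b c g := by
  refine ⟨h.ag, h.cd.symm, h.be.symm, Commute.cvt h.a3 ?_, Commute.cvt h.d3 ?_,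
    Commute.cvt h.b3 ?_, Commute.cvt h.a2 ?_, Commute.cvt h.e2 ?_, Commute.cvt h.c2 ?_, h.d0, h.e0,
    h.g0, h.b1, h.c1, h.g1⟩ <;> abel
/-- swap strands 1,2. -/
theorem Br.s12 (h : Br a b c d e g) : Br b a c d g e := by
  refine ⟨h.be, h.ag, h.cd, Commute.cvt h.b3 ?_, Commute.cvt h.a3 ?_,
    Commute.cvt h.d3 ?_, h.b1, h.c1, h.g1, h.a2, h.c2, h.e2, Commute.cvt h.d0 ?_,
    Commute.cvt h.g0 ?_, Commute.cvt h.e0 ?_⟩ <;> abel
/-- swap strands 2,3. -/
theorem Br.s23 (h : Br a b c d e g) : Br a c b e d g := by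
  refine ⟨h.ag, h.cd, h.be, h.a2, h.c2, h.e2, h.a3, h.b3, h.d3, Commute.cvt h.c1 ?_,
    Commute.cvt h.b1 ?_, Commute.cvt h.g1 ?_, Commute.cvt h.e0 ?_,
    Commute.cvt h.d0 ?_, Commute.cvt h.g0 ?_⟩ <;> abel
theorem Br.neg (h : Br a b c d e g) : Br (-a) (-b) (-c) (-d) (-e) (-g) := by
  have k : ∀ {p q r s : A}, Commute p (q + r + s) → Commute (-p) (-q + -r + -s) :=
    fun h => Commute.cvt h.neg_left.neg_right (by abel)
  exact ⟨h.ag.neg_left.neg_right, h.be.neg_left.neg_right, h.cd.neg_left.neg_right, k h.a3, k h.b3,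
    k h.d3, k h.a2, k h.c2, k h.e2, k h.b1, k h.c1, k h.g1, k h.d0, k h.e0, k h.g0⟩
theorem Br.map {B F : Type} [Ring B] [FunLike F A B] [RingHomClass F A B] (φ : F)
    (h : Br a b c d e g) : Br (φ a) (φ b) (φ c) (φ d) (φ e) (φ g) := by
  have k : ∀ {p q r s : A}, Commute p (q + r + s) → Commute (φ p) (φ q + φ r + φ s) :=
    fun h => Commute.cvt (h.map φ) (by rw [map_add, map_add])
  exact ⟨h.ag.map φ, h.be.map φ, h.cd.map φ, k h.a3, k h.b3,
    k h.d3, k h.a2, k h.c2, k h.e2, k h.b1, k h.c1, k h.g1, k h.d0, k h.e0, k h.g0⟩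
theorem Br.monomial (h : Br a b c d e g) :
    Br (Polynomial.monomial 1 a) (Polynomial.monomial 1 b) (Polynomial.monomial 1 c)
      (Polynomial.monomial 1 d) (Polynomial.monomial 1 e) (Polynomial.monomial 1 g) := by
  have k0 : ∀ {p q : A}, Commute p q →
      Commute (Polynomial.monomial 1 p) (Polynomial.monomial 1 q) := fun h => by
    rw [Commute, SemiconjBy, Polynomial.monomial_mul_monomial, Polynomial.monomial_mul_monomial,
      h.eq]
  have k : ∀ {p q r s : A}, Commute p (q + r + s) → Commute (Polynomial.monomial 1 p)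
      (Polynomial.monomial 1 q + Polynomial.monomial 1 r + Polynomial.monomial 1 s) :=
    fun h => Commute.cvt (k0 h) (by rw [map_add, map_add])
  exact ⟨k0 h.ag, k0 h.be, k0 h.cd, k h.a3, k h.b3,
    k h.d3, k h.a2, k h.c2, k h.e2, k h.b1, k h.c1, k h.g1, k h.d0, k h.e0, k h.g0⟩
/-- the sum of all six generators is central: e.g. `Z = (a+b+d) + (a+c+e) + g - a`. -/
theorem Br.central (h : Br a b c d e g) :
    Commute a (a + b + c + d + e + g) ∧ Commute b (a + b + c + d + e + g) ∧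
    Commute c (a + b + c + d + e + g) ∧ Commute d (a + b + c + d + e + g) ∧
    Commute e (a + b + c + d + e + g) ∧ Commute g (a + b + c + d + e + g) := by
  refine ⟨Commute.cvt (((h.a3.add_right h.a2).add_right h.ag).sub_right (Commute.refl a)) ?_,
    Commute.cvt (((h.b3.add_right h.b1).add_right h.be).sub_right (Commute.refl b)) ?_,
    Commute.cvt (((h.c2.add_right h.c1).add_right h.cd).sub_right (Commute.refl c)) ?_,
    Commute.cvt (((h.d3.add_right h.d0).add_right h.cd.symm).sub_right (Commute.refl d)) ?_,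
    Commute.cvt (((h.e2.add_right h.e0).add_right h.be.symm).sub_right (Commute.refl e)) ?_,
    Commute.cvt (((h.g1.add_right h.g0).add_right h.ag.symm).sub_right (Commute.refl g)) ?_⟩ <;>
  abel
end

variable {K : Type} [CommRing K]

theorem comm_of_lie {A : Type} [Ring A] {p q : A} (h : ⁅p, q⁆ = 0) : Commute p q :=
  sub_eq_zero.1 h
theorem comm_add3 {A : Type} [Ring A] {p q r s : A} (h : ⁅p, q⁆ + ⁅p, r⁆ + ⁅p, s⁆ = 0) :
    Commute p (q + r + s) := comm_of_lie (by rw [lie_add_r, lie_add_r, h])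
theorem lie_Lm_der {I : Type} (u : I → FreeAlgebra K I) (t : FreeAlgebra K I) :
    ⁅Lm K t, der K u⁆ = -Lm K (der K u t) := by
  rw [← lie_der_Lm]; simp [Ring.lie_def]
theorem lie_Lm_Lm {A : Type} [Ring A] [Algebra K A] (s t : A) : ⁅Lm K s, Lm K t⁆ = Lm K ⁅s, t⁆ :=
  (map_lie' (Algebra.lmul K A) s t).symm
theorem der_add3 {I : Type} {u v w : I → FreeAlgebra K I} (h : ∀ i, u i + v i + w i = 0) :
    der K u + der K v + der K w = 0 := by
  rw [← der_add, ← der_add, ← der_zero]; congr 1; funext i; exact h i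

/-- `lie_der_Lm`, `lie_der_der`, `der_add`, `commute_iff_lie_eq`; each relation among derivations
is checked on the three letters with `der_lie` and `noncomm_ring`. -/
theorem br_rep : Br (Lm K (a3 K)) (Lm K (b3 K)) (Lm K (e3 K)) (tAB K) (tAw K) (tBw K) := by
  have k0 : der K (fun _ : Fin 3 => (0 : T3 K)) = 0 := der_zero
  constructor
  all_goals first | apply comm_add3 | apply comm_of_lie
  all_goals simp only [tAB, tAw, tBw, lie_Lm_der, lie_der_Lm, lie_Lm_Lm, lie_der_der]
  all_goals first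
    | (apply der_add3; intro i; fin_cases i <;>
        simp [a3, b3, e3, Ring.lie_def, der_mul] <;> noncomm_ring)
    | (ext1 w; simp [a3, b3, e3, Ring.lie_def, sub_mul, k0])

variable {K' : Type} [CommRing K'] [Algebra K K']

theorem bc_asy (f : T K) : bc K K' _ (asy K f (xx K) (yy K)) =
    asy K' (bc K K' _ f) (xx K') (yy K') := by simp [asy, bc_ev, xx, yy]
theorem bc_hex (f : T K) : bc K K' _ (hex K f (xx K) (yy K)) =
    hex K' (bc K K' _ f) (xx K') (yy K') := by simp [hex, bc_ev, xx, yy]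
theorem bc_spc (f : T K) : bc K K' _ (spc K f (xx K) (yy K)) =
    spc K' (bc K K' _ f) (xx K') (yy K') := by simp [spc, bc_ev, xx, yy, map_lie']
/-- operators related along `bc`. -/
def Rel3 (p : Module.End K (T3 K)) (p' : Module.End K' (T3 K')) : Prop :=
  ∀ m, bc K K' _ (p m) = p' (bc K K' _ m)
theorem Rel3.add {p q : Module.End K (T3 K)} {p' q' : Module.End K' (T3 K')} (h : Rel3 p p')
    (h' : Rel3 q q') : Rel3 (p + q) (p' + q') := fun m => by simp [h m, h' m]
theorem Rel3.ev {p q : Module.End K (T3 K)} {p' q' : Module.End K' (T3 K')} (h : Rel3 p p')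
    (h' : Rel3 q q') (f : T K) : bc K K' _ (ev K p q f 1) = ev K' p' q' (bc K K' _ f) 1 := by
  have := bc_lift_End ![p, q] ![p', q'] (fun i => by fin_cases i; exacts [h, h']) f 1
  rw [map_one (bc K K' _)] at this
  exact this
theorem bc_pent {a b d e g : Module.End K (T3 K)} {a' b' d' e' g' : Module.End K' (T3 K')}
    (ha : Rel3 a a') (hb : Rel3 b b') (hd : Rel3 d d') (he : Rel3 e e') (hg : Rel3 g g') (f : T K) :
    bc K K' _ (pent K f a b d e g 1) = pent K' (bc K K' _ f) a' b' d' e' g' 1 := by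
  simp only [pent, LinearMap.sub_apply, LinearMap.add_apply, map_sub, map_add,
    ha.ev (hd.add he), (hb.add hd).ev hg, hd.ev hg, (ha.add hb).ev (he.add hg), ha.ev hd]
theorem rel3_Lm (i : Fin 3) : Rel3 (Lm K (ι K i)) (Lm K' (ι K' i)) := fun m => by simp
theorem rel3_tAB : Rel3 (tAB K) (tAB K') := fun m => by
  rw [tAB, bc_der, tAB]; congr 2; funext i; fin_cases i <;> simp [map_lie', a3, b3]
theorem rel3_tAw : Rel3 (tAw K) (tAw K') := fun m => by
  rw [tAw, bc_der, tAw]; congr 2; funext i; fin_cases i <;> simp [map_lie', a3, e3]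
theorem rel3_tBw : Rel3 (tBw K) (tBw K') := fun m => by
  rw [tBw, bc_der, tBw]; congr 2; funext i; fin_cases i <;> simp [map_lie', b3, e3]

theorem GrtR.bc {n : ℕ} {f : T K} (hf : GrtR K n f) : GrtR K' n (bc K K' _ f) := by
  refine ⟨bc_mem_LS _ hf.lie, by rw [← bc_asy, hf.asy, map_zero], by rw [← bc_hex, hf.hex, map_zero],
    by rw [← bc_spc, hf.spc, map_zero], ?_, ?_⟩
  · exact (bc_pent (rel3_Lm 0) (rel3_Lm 1) rel3_tAB rel3_tAw rel3_tBw f).symm.trans
      ((congrArg _ hf.cell3).trans (map_zero _))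
  · exact (bc_pent (rel3_Lm 2) (rel3_Lm 0) rel3_tAw rel3_tBw rel3_tAB f).symm.trans
      ((congrArg _ hf.cell1).trans (map_zero _))
theorem GrtR.of_bc (h : Function.Injective (algebraMap K K')) {n : ℕ} {f : T K} (hl : f ∈ L K n)
    (hf : GrtR K' n (R10.bc K K' _ f)) : GrtR K n f := by
  refine ⟨hl, bc_injective h ?_, bc_injective h ?_, bc_injective h ?_, bc_injective h ?_,
    bc_injective h ?_⟩
  · rw [bc_asy, hf.asy, map_zero]
  · rw [bc_hex, hf.hex, map_zero]
  · rw [bc_spc, hf.spc, map_zero]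
  · exact (bc_pent (rel3_Lm 0) (rel3_Lm 1) rel3_tAB rel3_tAw rel3_tBw f).trans
      (hf.cell3.trans (map_zero _).symm)
  · exact (bc_pent (rel3_Lm 2) (rel3_Lm 0) rel3_tAw rel3_tBw rel3_tAB f).trans
      (hf.cell1.trans (map_zero _).symm)

end Crest.Agent.R10
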