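import Crest.Prelude.Def_GTLie
import Crest.Agent.R10.Rep

/-! # Row 10: bridge between `FreeLieAlgebra` and the associative language. -/

noncomputable section
namespace Crest.Agent.R10
open FreeAlgebra (ι)
open Crest.NumberTheoryR.GT

attribute [local instance 100] LieRing.ofAssociativeRing

/-- the canonical map to the free associative algebra. -/
def io (I : Type) : FreeLieAlgebra ℚ I →ₗ⁅ℚ⁆ FreeAlgebra ℚ I := FreeLieAlgebra.lift ℚ (ι ℚ)

variable {I : Type}

@[simp] theorem io_of (i : I) : io I (FreeLieAlgebra.of ℚ i) = ι ℚ i :=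
  FreeLieAlgebra.lift_of_apply _ _

theorem bra_lie_mem {wt : I → ℕ} {m n : ℕ} {a b : FreeLieAlgebra ℚ I} (ha : a ∈ weightSubspace wt m)
    (hb : b ∈ weightSubspace wt n) : ⁅a, b⁆ ∈ weightSubspace wt (m + n) := by
  induction ha, hb using Submodule.span_induction₂ with
  | mem_mem a b ha hb => exact Submodule.subset_span (IsBracketMonomial.lie ha hb)
  | zero_left => simp
  | zero_right => simp
  | add_left _ _ _ _ _ _ h h' => rw [add_lie]; exact add_mem h h'
  | add_right _ _ _ _ _ _ h h' => rw [lie_add]; exact add_mem h h'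
  | smul_left _ _ _ _ _ h => rw [smul_lie]; exact Submodule.smul_mem _ _ h
  | smul_right _ _ _ _ _ h => rw [lie_smul]; exact Submodule.smul_mem _ _ h

/-- the span of all weight subspaces is a Lie subalgebra containing the generators; lift to it and
use `FreeLieAlgebra.hom_ext`. -/
theorem iSup_weightSubspace (wt : I → ℕ) : ⨆ n, weightSubspace wt n = ⊤ := by
  let S : LieSubalgebra ℚ (FreeLieAlgebra ℚ I) :=
    { toSubmodule := ⨆ n, weightSubspace wt n
      lie_mem' := fun {a b} ha hb => by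
        change _ ∈ ⨆ n, weightSubspace wt n
        induction ha using Submodule.iSup_induction' with
        | zero => simp
        | add _ _ _ _ h h' => rw [add_lie]; exact add_mem h h'
        | mem m a ha =>
          induction hb using Submodule.iSup_induction' with
          | zero => simp
          | add _ _ _ _ h h' => rw [lie_add]; exact add_mem h h'
          | mem n b hb => exact Submodule.mem_iSup_of_mem _ (bra_lie_mem ha hb) }
  have h : S.incl.comp (FreeLieAlgebra.lift ℚ fun i => ⟨FreeLieAlgebra.of ℚ i,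
      Submodule.mem_iSup_of_mem _ (Submodule.subset_span (IsBracketMonomial.of i))⟩) = LieHom.id :=
    FreeLieAlgebra.hom_ext fun i => by simp
  refine Submodule.eq_top_iff'.2 fun ψ => ?_
  rw [← LieHom.id_apply (R := ℚ) ψ, ← h]
  exact Subtype.prop _

theorem map_weightSubspace (wt : I → ℕ) (n : ℕ) :
    (weightSubspace wt n).map (io I).toLinearMap = LS ℚ (ι ℚ) wt n := by
  rw [weightSubspace, Submodule.map_span, LS]
  congr 1
  ext a
  constructor
  · rintro ⟨b, hb, rfl⟩
    induction hb with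
    | of i => simpa using Mono.of i
    | lie _ _ h h' => simpa using Mono.lie h h'
  · intro ha
    induction ha with
    | of i => exact ⟨_, IsBracketMonomial.of i, io_of i⟩
    | lie _ _ h h' =>
      obtain ⟨a, h1, rfl⟩ := h
      obtain ⟨b, h2, rfl⟩ := h'
      exact ⟨_, IsBracketMonomial.lie h1 h2, LieHom.map_lie _ _ _⟩

/-- the Dynkin module: `t` acts on `M × ℚ` by `(u,c) ↦ (⁅t,u⁆ + c • t, 0)`. -/
def dyn {M : Type} [LieRing M] [LieAlgebra ℚ M] : M →ₗ[ℚ] Module.End ℚ (M × ℚ) where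
  toFun t := LinearMap.inl ℚ M ℚ ∘ₗ
    (LieAlgebra.ad ℚ M t).coprod (LinearMap.toSpanSingleton ℚ M t)
  map_add' := by
    intro s t
    refine LinearMap.ext fun p => ?_
    simp [add_add_add_comm]
  map_smul' := by
    intro c t
    refine LinearMap.ext fun p => ?_
    simp [smul_comm c]

theorem dyn_apply {M : Type} [LieRing M] [LieAlgebra ℚ M] (t u : M) (c : ℚ) :
    dyn t (u, c) = (⁅t, u⁆ + c • t, 0) := by
  simp [dyn]

/-- induction on monomials. -/
theorem lift_dyn {M : Type} [LieRing M] [LieAlgebra ℚ M] (g : I → M) {n : ℕ}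
    {ψ : FreeLieAlgebra ℚ I} (h : ψ ∈ weightSubspace (fun _ => 1) n) (u : M) (c : ℚ) :
    FreeAlgebra.lift ℚ (fun i => dyn (g i)) (io I ψ) (u, c) =
      (⁅FreeLieAlgebra.lift ℚ g ψ, u⁆ + (c * n) • FreeLieAlgebra.lift ℚ g ψ, 0) := by
  induction h using Submodule.span_induction with
  | zero => simp [Prod.ext_iff]
  | add a b _ _ h h' => simp only [map_add, LinearMap.add_apply, h, h', add_lie, smul_add, Prod.mk_add_mk,
      add_zero, add_add_add_comm]
  | smul r a _ h => simp only [map_smul, LinearMap.smul_apply, h, smul_lie, smul_add, Prod.smul_mk,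
      smul_zero, smul_comm r]
  | mem a ha =>
    induction ha generalizing u c with
    | of i => simp [dyn_apply]
    | @lie m n a b _ _ h h' =>
      rw [LieHom.map_lie, map_lie', Ring.lie_def, LinearMap.sub_apply, Module.End.mul_apply, Module.End.mul_apply,
        h, h', h, h', LieHom.map_lie, Prod.mk_sub_mk, sub_zero, lie_lie, lie_add, lie_add, lie_smul, lie_smul,
        ← lie_skew (FreeLieAlgebra.lift ℚ g b) (FreeLieAlgebra.lift ℚ g a)]
      congr 1
      push_cast
      module

/-- write `ψ = ∑ ψ_n`; `io ψ_n = cmp n (io ψ) = 0`; `lift_dyn` with `g = of` gives `n • ψ_n = 0`;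
the weight-0 subspace is zero. -/
theorem io_injective : Function.Injective (io I) := by
  let D : Module.End ℚ (FreeLieAlgebra ℚ I) := LinearMap.fst ℚ _ ℚ ∘ₗ LinearMap.applyₗ (0, 1) ∘ₗ
    (FreeAlgebra.lift ℚ fun i => dyn (FreeLieAlgebra.of ℚ i)).toLinearMap ∘ₗ (io I).toLinearMap
  have e : FreeLieAlgebra.lift ℚ (FreeLieAlgebra.of ℚ) = (LieHom.id : FreeLieAlgebra ℚ I →ₗ⁅ℚ⁆ _) :=
    FreeLieAlgebra.hom_ext fun i => by simp
  have h0 {n : ℕ} {a : FreeLieAlgebra ℚ I} (h : IsBracketMonomial (fun _ => 1) n a) : n ≠ 0 := by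
    induction h with
    | of => exact one_ne_zero
    | lie => omega
  have h1 : ⨆ μ ≠ (0 : ℚ), D.eigenspace μ = ⊤ := by
    refine top_le_iff.1 ((iSup_weightSubspace fun _ => 1).ge.trans (iSup_le fun n => Submodule.span_le.2 fun a ha =>
      Submodule.mem_iSup_of_mem (n : ℚ) (Submodule.mem_iSup_of_mem (Nat.cast_ne_zero.2 (h0 ha)) ?_)))
    rw [Module.End.mem_eigenspace_iff]
    simpa [D, e] using congrArg Prod.fst (lift_dyn (FreeLieAlgebra.of ℚ) (Submodule.subset_span ha) 0 1)
  refine (injective_iff_map_eq_zero _).2 fun ψ h => ?_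
  refine (Submodule.disjoint_def.1 (D.eigenspaces_iSupIndep 0)) ψ ?_ (h1 ▸ Submodule.mem_top)
  rw [Module.End.mem_eigenspace_iff]
  simp [D, h]

theorem ev_io {A : Type} [Ring A] [Algebra ℚ A] (a b : A) (ψ : GTLie) :
    ev ℚ a b (io _ ψ) = gtSubst a b ψ := by
  have : (ev ℚ a b).toLieHom.comp (io _) = gtSubst a b :=
    FreeLieAlgebra.hom_ext fun i => by fin_cases i <;> simp [gtSubst]
  exact DFunLike.congr_fun this ψ

theorem io_gtSubst (a b ψ : GTLie) :
    io _ (gtSubst a b ψ) = ev ℚ (io _ a) (io _ b) (io _ ψ) := by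
  have : (io _).comp (gtSubst a b) = gtSubst (io _ a) (io _ b) :=
    FreeLieAlgebra.hom_ext fun i => by fin_cases i <;> simp [gtSubst]
  rw [ev_io]
  exact DFunLike.congr_fun this ψ

/-- the Lie map `DualGT → DualNumber (T ℚ)`. -/
def ioDual : DualGT →ₗ⁅ℚ⁆ DualNumber (T ℚ) where
  toFun v := dn (io _ ((LieAlgebra.ofProd 0).symm v).1) (io _ ((LieAlgebra.ofProd 0).symm v).2)
  map_add' v w := by simp [dn_add]
  map_smul' r v := by simp [dn_smul]
  map_lie' {v w} := by
    rw [dn_lie, LieAlgebra.bracket_ofTwoCocycle]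
    simp only [Equiv.symm_apply_apply, ZeroMemClass.coe_zero, LinearMap.zero_apply, zero_add,
      map_sub, LieHom.map_lie]
    rw [sub_eq_add_neg, lie_skew]

theorem ioDual_dualMk (a u : GTLie) : ioDual (dualMk a u) = dn (io _ a) (io _ u) := rfl

/-- both sides are derivations; compare through the Lie map
`DualGT → DualNumber (T ℚ)`, `(a,u) ↦ dn (io a) (io u)`, or induct on monomials. -/
theorem io_iharaDer (ψ φ : GTLie) : io _ (iharaDer ψ φ) = Dr ℚ (io _ ψ) (io _ φ) := by
  have h : ioDual.comp (gtSubst (dualMk gx 0) (dualMk gy ⁅gy, ψ⁆)) =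
      ((FreeAlgebra.lift ℚ (fun i => dn (ι ℚ i) (![0, ⁅yy ℚ, io _ ψ⁆] i))).toLieHom).comp
        (io (Fin 2)) := by
    apply FreeLieAlgebra.hom_ext
    intro i
    fin_cases i
    · simp [gtSubst, ioDual_dualMk, gx]
    · simp [gtSubst, ioDual_dualMk, gy, yy]
  exact congrArg TrivSqZeroExt.snd (DFunLike.congr_fun h φ) |> (snd_dn _ _).symm.trans

theorem io_iharaBracket (ψ φ : GTLie) :
    io _ (iharaBracket ψ φ) = ihara ℚ (io _ ψ) (io _ φ) := by
  rw [iharaBracket, ihara, map_add, map_sub, io_iharaDer, io_iharaDer, LieHom.map_lie]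

/-- the symmetric table of a braid family. -/
def brTab {A : Type} [Zero A] (a b c d e g : A) : Fin 4 → Fin 4 → A :=
  ![![0, a, b, c], ![a, 0, d, e], ![b, d, 0, g], ![c, e, g, 0]]

theorem lie_add_of_commute {A : Type} [Ring A] {x y z s : A} (h : Commute x s)
    (hs : s = x + (y + z)) : ⁅x, y + z⁆ = 0 := by
  have h1 : Commute x (s - x) := h.sub_right (Commute.refl x)
  rw [hs, add_sub_cancel_left] at h1
  exact h1.lie_eq

/-- a braid family gives a Lie map out of `braidLie4` (lift, kill `braidIdeal4`,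
`LieSubmodule.lieSpan_le`, `fin_cases`/`decide` on the indices). -/
theorem exists_braid_hom {A : Type} [Ring A] [Algebra ℚ A] {a b c d e g : A}
    (h : Br a b c d e g) : ∃ φ : braidLie4 →ₗ⁅ℚ⁆ A, φ (tB 0 1) = a ∧ φ (tB 0 2) = b ∧
      φ (tB 0 3) = c ∧ φ (tB 1 2) = d ∧ φ (tB 1 3) = e ∧ φ (tB 2 3) = g := by
  let f : FreeBraid4 →ₗ⁅ℚ⁆ A := FreeLieAlgebra.lift ℚ fun p => brTab a b c d e g p.1.1 p.1.2
  have hf : ∀ i j, f (tFree i j) = brTab a b c d e g i j := by
    intro i j
    unfold tFree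
    split_ifs with h1 h2
    · exact FreeLieAlgebra.lift_of_apply _ _
    · refine (FreeLieAlgebra.lift_of_apply _ _).trans ?_
      fin_cases i <;> fin_cases j <;> rfl
    · obtain rfl : i = j := le_antisymm (not_lt.1 h2) (not_lt.1 h1)
      rw [map_zero]
      fin_cases i <;> rfl
  have hker : braidIdeal4 ≤ f.ker := by
    rw [braidIdeal4, LieSubmodule.lieSpan_le]
    rintro r (⟨i, j, k, l, h1, h2, h3, h4, h5, h6, rfl⟩ | ⟨i, j, k, h1, h2, h3, rfl⟩)
    · rw [SetLike.mem_coe, LieHom.mem_ker, LieHom.map_lie, hf, hf]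
      fin_cases i <;> fin_cases j <;> (try exact absurd rfl h1) <;> fin_cases k <;>
        (try exact absurd rfl h2) <;> (try exact absurd rfl h4) <;> fin_cases l <;>
        (try exact absurd rfl h3) <;> (try exact absurd rfl h5) <;> (try exact absurd rfl h6) <;>
        first
          | exact h.ag.lie_eq
          | exact h.be.lie_eq
          | exact h.cd.lie_eq
          | exact h.ag.symm.lie_eq
          | exact h.be.symm.lie_eq
          | exact h.cd.symm.lie_eq
    · rw [SetLike.mem_coe, LieHom.mem_ker, LieHom.map_lie, map_add, hf, hf, hf]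
      fin_cases i <;> fin_cases j <;> (try exact absurd rfl h1) <;> fin_cases k <;>
        (try exact absurd rfl h2) <;> (try exact absurd rfl h3) <;>
        simp only [brTab, Fin.zero_eta, Fin.mk_one, Fin.reduceFinMk, Matrix.cons_val] <;>
        first
          | exact lie_add_of_commute h.a3 (by abel1)
          | exact lie_add_of_commute h.b3 (by abel1)
          | exact lie_add_of_commute h.d3 (by abel1)
          | exact lie_add_of_commute h.a2 (by abel1)
          | exact lie_add_of_commute h.c2 (by abel1)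
          | exact lie_add_of_commute h.e2 (by abel1)
          | exact lie_add_of_commute h.b1 (by abel1)
          | exact lie_add_of_commute h.c1 (by abel1)
          | exact lie_add_of_commute h.g1 (by abel1)
          | exact lie_add_of_commute h.d0 (by abel1)
          | exact lie_add_of_commute h.e0 (by abel1)
          | exact lie_add_of_commute h.g0 (by abel1)
  let φ : braidLie4 →ₗ⁅ℚ⁆ A :=
    { braidIdeal4.toSubmodule.liftQ f.toLinearMap hker with
      map_lie' := by
        rintro ⟨x⟩ ⟨y⟩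
        exact f.map_lie x y }
  exact ⟨φ, hf 0 1, hf 0 2, hf 0 3, hf 1 2, hf 1 3, hf 2 3⟩

theorem dyn_commute {M : Type} [LieRing M] [LieAlgebra ℚ M] {t s : M} (h : ⁅t, s⁆ = 0) :
    Commute (dyn t) (dyn s) := by
  have h' : ⁅s, t⁆ = 0 := by rw [← lie_skew, h, neg_zero]
  apply LinearMap.ext
  rintro ⟨u, c⟩
  simp only [Module.End.mul_apply, dyn_apply, lie_add, lie_smul, h, h', smul_zero, add_zero,
    zero_smul]
  rw [leibniz_lie, h, zero_lie, zero_add]

theorem tB_symm (i j : Fin 4) : tB i j = tB j i := by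
  unfold tB tFree
  rcases lt_trichotomy i j with h | rfl | h
  · rw [dif_pos h, dif_neg h.not_gt, dif_pos h]
  · rfl
  · rw [dif_neg h.not_gt, dif_pos h, dif_pos h]

theorem tB_rel1 (i j k l : Fin 4)
    (h : i ≠ j ∧ i ≠ k ∧ i ≠ l ∧ j ≠ k ∧ j ≠ l ∧ k ≠ l) : Commute (dyn (tB i j)) (dyn (tB k l)) := by
  apply dyn_commute
  obtain ⟨h1, h2, h3, h4, h5, h6⟩ := h
  exact (LieSubmodule.Quotient.mk_eq_zero' (N := braidIdeal4)).2
    (LieSubmodule.subset_lieSpan (Or.inl ⟨i, j, k, l, h1, h2, h3, h4, h5, h6, rfl⟩))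

theorem tB_rel2 (i j k : Fin 4) (h : i ≠ j ∧ i ≠ k ∧ j ≠ k) {s : Module.End ℚ (braidLie4 × ℚ)}
    (hs : s = dyn (tB i j) + (dyn (tB i k) + dyn (tB j k))) : Commute (dyn (tB i j)) s := by
  rw [hs, ← map_add dyn (tB i k)]
  refine (Commute.refl _).add_right (dyn_commute ?_)
  obtain ⟨h1, h2, h3⟩ := h
  exact (LieSubmodule.Quotient.mk_eq_zero' (N := braidIdeal4)).2
    (LieSubmodule.subset_lieSpan (Or.inr ⟨i, j, k, h1, h2, h3, rfl⟩))

theorem br_dyn : Br (dyn (tB 0 1)) (dyn (tB 0 2)) (dyn (tB 0 3)) (dyn (tB 1 2)) (dyn (tB 1 3))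
    (dyn (tB 2 3)) where
  ag := tB_rel1 _ _ _ _ (by decide)
  be := tB_rel1 _ _ _ _ (by decide)
  cd := tB_rel1 _ _ _ _ (by decide)
  a3 := tB_rel2 0 1 2 (by decide) (by abel1)
  b3 := tB_rel2 0 2 1 (by decide) (by rw [tB_symm 2 1]; abel1)
  d3 := tB_rel2 1 2 0 (by decide) (by rw [tB_symm 1 0, tB_symm 2 0]; abel1)
  a2 := tB_rel2 0 1 3 (by decide) (by abel1)
  c2 := tB_rel2 0 3 1 (by decide) (by rw [tB_symm 3 1]; abel1)
  e2 := tB_rel2 1 3 0 (by decide) (by rw [tB_symm 1 0, tB_symm 3 0]; abel1)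
  b1 := tB_rel2 0 2 3 (by decide) (by abel1)
  c1 := tB_rel2 0 3 2 (by decide) (by rw [tB_symm 3 2]; abel1)
  g1 := tB_rel2 2 3 0 (by decide) (by rw [tB_symm 2 0, tB_symm 3 0]; abel1)
  d0 := tB_rel2 1 2 3 (by decide) (by abel1)
  e0 := tB_rel2 1 3 2 (by decide) (by rw [tB_symm 3 2]; abel1)
  g0 := tB_rel2 2 3 1 (by decide) (by rw [tB_symm 2 1, tB_symm 3 1]; abel1)

theorem brc_map_gtSubst {M M' : Type} [LieRing M] [LieAlgebra ℚ M] [LieRing M'] [LieAlgebra ℚ M']
    (φ : M →ₗ⁅ℚ⁆ M') (a b : M) (ψ : GTLie) : φ (gtSubst a b ψ) = gtSubst (φ a) (φ b) ψ := by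
  have : φ.comp (gtSubst a b) = gtSubst (φ a) (φ b) := by
    refine FreeLieAlgebra.hom_ext fun i => ?_
    simp only [gtSubst, LieHom.comp_apply, FreeLieAlgebra.lift_of_apply]
    split_ifs <;> rfl
  exact LieHom.congr_fun this ψ

theorem brc_gx {M : Type} [LieRing M] [LieAlgebra ℚ M] (a b : M) : gtSubst a b gx = a := by
  simp [gtSubst, gx, FreeLieAlgebra.lift_of_apply]

theorem brc_gy {M : Type} [LieRing M] [LieAlgebra ℚ M] (a b : M) : gtSubst a b gy = b := by
  simp [gtSubst, gy, FreeLieAlgebra.lift_of_apply]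

theorem brc_mem {ψ : GTLie} : ψ ∈ grtSpace ↔ ψ + gtSubst gy gx ψ = 0 ∧
    ψ + gtSubst gy (-gx - gy) ψ + gtSubst (-gx - gy) gx ψ = 0 ∧
    gtSubst (tB 0 1) (tB 1 2 + tB 1 3) ψ + gtSubst (tB 0 2 + tB 1 2) (tB 2 3) ψ -
      gtSubst (tB 1 2) (tB 2 3) ψ - gtSubst (tB 0 1 + tB 0 2) (tB 1 3 + tB 2 3) ψ -
      gtSubst (tB 0 1) (tB 1 2) ψ = 0 := by
  rw [← and_assoc]
  exact Iff.rfl

/-- homogeneous components: evaluate on `monomial 1 a` in `Polynomial A` (`coeff_ev_monomial`,
`Br.monomial`); for `lie` use `iSup_weightSubspace`, `map_weightSubspace`, `cmp_of_mem_Hom`. -/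
theorem grt_cmp_of_mem {ψ : GTLie} (h : ψ ∈ grtSpace) (n : ℕ) :
    Grt ℚ n (cmp ℚ w1 n (io _ ψ)) := by
  obtain ⟨h1, h2, h3⟩ := brc_mem.1 h
  refine ⟨?_, ?_, ?_, ?_⟩
  · have hψ : ψ ∈ ⨆ m, weightSubspace (fun _ : Fin 2 => 1) m := by
      rw [iSup_weightSubspace]
      trivial
    clear h h1 h2 h3
    induction hψ using Submodule.iSup_induction' with
    | mem m ψ hm =>
      have hL : io _ ψ ∈ L ℚ m := by
        rw [L, ← map_weightSubspace]
        exact Submodule.mem_map_of_mem hm
      rw [cmp_of_mem_Hom w1 (LS_le_Hom w1 m hL)]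
      split_ifs with hn
      · exact hn ▸ hL
      · exact zero_mem _
    | zero => simp
    | add ψ φ _ _ h1 h2 =>
      rw [map_add, map_add]
      exact add_mem h1 h2
  · have := congrArg (gtSubst (Polynomial.monomial 1 (xx ℚ)) (Polynomial.monomial 1 (yy ℚ))) h1
    simp only [map_add, map_zero, brc_map_gtSubst, brc_gx, brc_gy] at this
    simp only [← ev_io] at this
    have := congrArg (Polynomial.coeff · n) this
    simpa only [Polynomial.coeff_add, coeff_ev_monomial, Polynomial.coeff_zero, asy] using this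
  · have := congrArg (gtSubst (Polynomial.monomial 1 (xx ℚ)) (Polynomial.monomial 1 (yy ℚ))) h2
    simp only [map_add, map_zero, map_sub, map_neg, brc_map_gtSubst, brc_gx, brc_gy] at this
    simp only [← ev_io] at this
    rw [← map_neg, ← map_sub] at this
    have := congrArg (Polynomial.coeff · n) this
    simpa only [Polynomial.coeff_add, coeff_ev_monomial, Polynomial.coeff_zero, hex] using this
  · intro A _ _ a b c d e g hB
    obtain ⟨φ, e1, e2, -, e4, e5, e6⟩ := exists_braid_hom hB.monomial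
    have := congrArg φ h3
    simp only [map_add, map_zero, map_sub, brc_map_gtSubst, e1, e2, e4, e5, e6, ← ev_io] at this
    rw [← map_add, ← map_add, ← map_add, ← map_add] at this
    have := congrArg (Polynomial.coeff · n) this
    simpa only [Polynomial.coeff_add, Polynomial.coeff_sub, coeff_ev_monomial,
      Polynomial.coeff_zero, pent] using this

theorem brc_one_le {n : ℕ} {a : FreeLieAlgebra ℚ I} (h : IsBracketMonomial w1 n a) : 1 ≤ n := by
  induction h with
  | of i => exact le_rfl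
  | lie _ _ h1 _ => omega

theorem brc_ev_dyn {M : Type} [LieRing M] [LieAlgebra ℚ M] (a b : M) {n : ℕ} {ψ : GTLie}
    (h : ψ ∈ weightSubspace (fun _ => 1) n) :
    ev ℚ (dyn a) (dyn b) (io _ ψ) (0, 1) = ((n : ℚ) • gtSubst a b ψ, 0) := by
  have := lift_dyn (fun i : Fin 2 => if i = 0 then a else b) h 0 1
  rw [lie_zero, zero_add, one_mul] at this
  rw [gtSubst, ← this, ev]
  congr 3
  funext i
  fin_cases i <;> rfl

/-- `ψ ∈ weightSubspace n` (`map_weightSubspace`, `io_injective`); pentagon for `br_dyn` applied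
to `(0,1)` is `n • pentagonDefect ψ` (`lift_dyn`). -/
theorem mem_grtSpace_of_grt {n : ℕ} {ψ : GTLie} (h : Grt ℚ n (io _ ψ)) : ψ ∈ grtSpace := by
  have hx : io _ gx = xx ℚ := io_of _
  have hy : io _ gy = yy ℚ := io_of _
  refine brc_mem.2 ⟨io_injective ?_, io_injective ?_, ?_⟩
  · have := h.asy
    rw [asy, ev_self] at this
    simpa only [map_add, map_zero, io_gtSubst, hx, hy] using this
  · have := h.hex
    rw [hex, ev_self] at this
    simpa only [map_add, map_zero, map_sub, map_neg, io_gtSubst, hx, hy] using this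
  · have hw : ψ ∈ weightSubspace (fun _ => 1) n := by
      have := h.lie
      rw [L, ← map_weightSubspace] at this
      obtain ⟨ψ', h1, h2⟩ := this
      exact io_injective h2 ▸ h1
    rcases Nat.eq_zero_or_pos n with rfl | hn
    · have : weightSubspace (fun _ : Fin 2 => 1) 0 = ⊥ :=
        Submodule.span_eq_bot.2 fun a ha => absurd (brc_one_le ha) (by omega)
      rw [this, Submodule.mem_bot] at hw
      simp [hw]
    · have := LinearMap.congr_fun (h.pent _ _ _ _ _ _ _ br_dyn) (0, 1)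
      simp only [pent, ← map_add, LinearMap.add_apply, LinearMap.sub_apply, brc_ev_dyn _ _ hw,
        LinearMap.zero_apply] at this
      have := congrArg Prod.fst this
      simp only [Prod.fst_add, Prod.fst_sub, Prod.fst_zero, ← smul_add, ← smul_sub] at this
      exact (smul_eq_zero.1 this).resolve_left (by exact_mod_cast hn.ne')

end Crest.Agent.R10
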