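import Crest.Agent.R10.Rep

/-! # Row 10, block C, part 1: cluster form of the equations; pentagon ⇒ antisymmetry, hexagon.
Clusters of a braid family: the six generators and `T0 = d+e+g`, `T1 = b+c+g`, `T2 = a+c+e`,
`T3 = a+b+d`.  `Z = a+b+c+d+e+g` is central (`Br.central`).  See `notes10/R10.md` and the
script `notes10/comb.py` (edges, 12 pentagons, 10 triangles, linear solver). -/

noncomputable section
namespace Crest.Agent.R10
open FreeAlgebra (ι)

variable {K : Type} [CommRing K] {A : Type} [Ring A] [Algebra K A]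

theorem c1_comm {u v w : A} (h : Commute u w) (e : w - u = v) : Commute v u :=
  e ▸ (h.sub_right (Commute.refl u)).symm

theorem c1_neg {p q s : A} (hp : Commute p s) (hq : Commute q s) : Commute (-p - q) s :=
  hp.neg_left.sub_left hq

/-- three `ev_shift`s. -/
theorem pent_cl {n : ℕ} {f : T K} (hf : f ∈ L K n) (hn : 2 ≤ n) {a b c d e g : A}
    (h : Br a b c d e g) :
    pent K f a b d e g = ev K a (d + e + g) f + ev K (a + b + d) g f - ev K d g f -
      ev K (a + b + d) (d + e + g) f - ev K a d f := by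
  have e1 := ev_shift hf hn (a := a) (b := d + e) (s := 0) (t := g) (Commute.zero_right _) h.ag
    (Commute.zero_right _) (c1_comm h.g0 (by abel)) (Commute.zero_left _)
  have e2 := ev_shift hf hn (a := b + d) (b := g) (s := a) (t := 0) (c1_comm h.a3 (by abel))
    (Commute.zero_right _) h.ag.symm (Commute.zero_right _) (Commute.zero_right _)
  have e3 := ev_shift hf hn (a := a + b) (b := e + g) (s := d) (t := d) (c1_comm h.d3 (by abel))
    (c1_comm h.d3 (by abel)) (c1_comm h.d0 (by abel)) (c1_comm h.d0 (by abel)) (Commute.refl _)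
  rw [add_zero] at e1
  rw [add_zero, show b + d + a = a + b + d by abel] at e2
  rw [show e + g + d = d + e + g by abel] at e3
  rw [e1, e2, e3, pent]

/-- triangle: `r = (-p-q) + s` with `s = p+q+r` commuting with `p, q` (hence with `r`). -/
theorem hex_cl {n : ℕ} {f : T K} (hf : f ∈ L K n) (hn : 2 ≤ n) {p q r : A}
    (hp : Commute p (p + q + r)) (hq : Commute q (p + q + r)) :
    ev K p q f + ev K q r f + ev K r p f = hex K f p q := by
  have e1 := ev_shift hf hn (a := q) (b := -p - q) (s := 0) (t := p + q + r) (Commute.zero_right _) hq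
    (Commute.zero_right _) (c1_neg hp hq) (Commute.zero_left _)
  have e2 := ev_shift hf hn (a := -p - q) (b := p) (s := p + q + r) (t := 0) (c1_neg hp hq)
    (Commute.zero_right _) hp (Commute.zero_right _) (Commute.zero_right _)
  rw [add_zero, show -p - q + (p + q + r) = r by abel] at e1 e2
  rw [e1, e2, hex]

theorem spc_cl {n : ℕ} {f : T K} (hf : f ∈ L K n) (hn : 2 ≤ n) {p q r : A}
    (hp : Commute p (p + q + r)) (hq : Commute q (p + q + r)) :
    ⁅q, ev K p q f⁆ + ⁅r, ev K p r f⁆ = spc K f p q := by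
  have e1 := ev_shift hf hn (a := p) (b := -p - q) (s := 0) (t := p + q + r) (Commute.zero_right _) hp
    (Commute.zero_right _) (c1_neg hp hq) (Commute.zero_left _)
  have e2 := lie_add_l (-p - q) (p + q + r) (ev K p (-p - q) f)
  rw [lie_of_commute (commute_ev hp.symm (c1_neg hp hq).symm f), add_zero] at e2
  rw [add_zero] at e1
  rw [show -p - q + (p + q + r) = r by abel] at e1 e2
  rw [e1, e2, spc]

theorem hex_shift {n : ℕ} {f : T K} (hf : f ∈ L K n) (hn : 2 ≤ n) {p q s t : A}
    (h1 : Commute p s) (h2 : Commute p t) (h3 : Commute q s) (h4 : Commute q t)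
    (h5 : Commute s t) : hex K f (p + s) (q + t) = hex K f p q := by
  have k1 : Commute p (-s - t) := (c1_neg h1.symm h2.symm).symm
  have k2 : Commute q (-s - t) := (c1_neg h3.symm h4.symm).symm
  have k3 : Commute (-s - t) s := c1_neg (Commute.refl s) h5.symm
  have k4 : Commute (-s - t) t := c1_neg h5 (Commute.refl t)
  unfold hex
  rw [show -(p + s) - (q + t) = (-p - q) + (-s - t) by abel, ev_shift hf hn h1 h2 h3 h4 h5,
    ev_shift hf hn h4 k2 (c1_neg h2 h4) (c1_neg k1 k2) k4.symm,
    ev_shift hf hn (c1_neg k1 k2) (c1_neg h1 h3) k1 h1 k3]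

theorem spc_shift {n : ℕ} {f : T K} (hf : f ∈ L K n) (hn : 2 ≤ n) {p q s t : A}
    (h1 : Commute p s) (h2 : Commute p t) (h3 : Commute q s) (h4 : Commute q t)
    (h5 : Commute s t) : spc K f (p + s) (q + t) = spc K f p q := by
  have k1 : Commute p (-s - t) := (c1_neg h1.symm h2.symm).symm
  have k2 : Commute q (-s - t) := (c1_neg h3.symm h4.symm).symm
  have k3 : Commute (-s - t) s := c1_neg (Commute.refl s) h5.symm
  unfold spc
  rw [show -(p + s) - (q + t) = (-p - q) + (-s - t) by abel, ev_shift hf hn h1 h2 h3 h4 h5,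
    ev_shift hf hn h1 k1 (c1_neg h1 h3) (c1_neg k1 k2) k3.symm, lie_add_l, lie_add_l (-p - q),
    lie_of_commute (commute_ev h2.symm h4.symm f),
    lie_of_commute (commute_ev k1.symm (c1_neg k1 k2).symm f), add_zero, add_zero]

/-- family `a = g = x`, `d = c = y`, `b = e = -x-y` (all four cluster sums vanish):
`pent = f(x,-x) + f(-x,x) - f(y,x) - f(-y,-y) - f(x,y)`. -/
theorem asy_of_pent {n : ℕ} {f : T K} (hf : f ∈ L K n) (hn : 2 ≤ n) (hp : Pent K f) :
    asy K f (xx K) (yy K) = 0 := by
  have z1 : xx K + (-xx K - yy K) + yy K = 0 := by abel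
  have z2 : xx K + yy K + (-xx K - yy K) = 0 := by abel
  have z3 : -xx K - yy K + yy K + xx K = 0 := by abel
  have z4 : yy K + (-xx K - yy K) + xx K = 0 := by abel
  have hb : Br (xx K) (-xx K - yy K) (yy K) (yy K) (-xx K - yy K) (xx K) := by
    constructor <;> first
      | exact Commute.refl _
      | (simp only [z1, z2, z3, z4]; exact Commute.zero_right _)
  have h := hp _ _ _ _ _ _ _ hb
  rw [pent_cl hf hn hb, z1, z4, ev_eq_zero_of_commute hf hn (Commute.zero_right (xx K)),
    ev_eq_zero_of_commute hf hn (Commute.zero_left (xx K)),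
    ev_eq_zero_of_commute hf hn (Commute.refl 0)] at h
  unfold asy
  rw [← neg_eq_zero, ← h]
  abel

theorem c1b_pc {n : ℕ} {f : T K} (hf : f ∈ L K n) (hn : 2 ≤ n) (hp : Pent K f) {a b c d e g : A}
    (h : Br a b c d e g) {T0 T3 : A} (h0 : d + e + g = T0) (h3 : a + b + d = T3) :
    ev K a T0 f + ev K T3 g f - ev K d g f - ev K T3 T0 f - ev K a d f = 0 := by
  rw [← h0, ← h3, ← pent_cl hf hn h]
  exact hp A a b c d e g h

theorem c1b_asy {f : T K} (h : asy K f (xx K) (yy K) = 0) (p q : A) :
    ev K p q f + ev K q p f = 0 := by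
  simpa [asy, map_ev] using congrArg (ev K p q) h

/-- A combination with coefficients `±1` of the 12 pentagons (`pent_cl` for the 12 families
obtained by `Br.s01/s12/s23`), modulo antisymmetry, equals twice
`± triangle(T3,c,T0) ± triangle(a,d,e)~… `; the three triangles are those of the spectators
`d`, `T1`, `T2`: `(T3,c,T0)`, `(b,c,g)`, `(a,c,e)`; by `hex_cl`, `hex_shift` they are
`hex (a+b) c`, `hex b c`, `hex a c`.  Coefficients: second line of the output of `comb.py`. -/
theorem hex_add_of_pent {n : ℕ} {f : T K} (hf : f ∈ L K n) (hn : 2 ≤ n) (hp : Pent K f)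
    {a b c d e g : A} (h : Br a b c d e g) :
    (2 : K) • hex K f (a + b) c = (2 : K) • (hex K f a c + hex K f b c) := by
  have as := c1b_asy (A := A) (asy_of_pent hf hn hp)
  obtain ⟨za, zb, zc, zd, -, -⟩ := h.central
  have e1 : a + b + d + c + (d + e + g) = a + b + c + d + e + g + d := by abel
  have hd : Commute (a + b) d := by simpa using (h.d3.sub_right (Commute.refl d)).symm
  have t1 := hex_cl hf hn (p := a + b + d) (q := c) (r := d + e + g)
    (e1 ▸ ((za.add_left zb).add_left zd).add_right h.d3.symm) (e1 ▸ zc.add_right h.cd)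
  have t2 := hex_shift hf hn hd (Commute.zero_right _) h.cd (Commute.zero_right _)
    (Commute.zero_right _)
  rw [add_zero] at t2
  rw [← t2, ← t1, ← hex_cl hf hn h.a2 h.c2, ← hex_cl hf hn h.b1 h.c1, two_smul, two_smul]
  have p0 := c1b_pc hf hn hp h (T0 := d + e + g) (T3 := a + b + d) (by abel) (by abel)
  have p1 := c1b_pc hf hn hp h.s23 (T0 := d + e + g) (T3 := a + c + e) (by abel) (by abel)
  have p2 := c1b_pc hf hn hp h.s12 (T0 := d + e + g) (T3 := a + b + d) (by abel) (by abel)
  have p3 := c1b_pc hf hn hp h.s12.s23 (T0 := d + e + g) (T3 := b + c + g) (by abel) (by abel)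
  have p4 := c1b_pc hf hn hp h.s23.s12 (T0 := d + e + g) (T3 := a + c + e) (by abel) (by abel)
  have p5 := c1b_pc hf hn hp h.s12.s23.s12 (T0 := d + e + g) (T3 := b + c + g) (by abel) (by abel)
  have p6 := c1b_pc hf hn hp h.s01 (T0 := b + c + g) (T3 := a + b + d) (by abel) (by abel)
  have p7 := c1b_pc hf hn hp h.s01.s23 (T0 := b + c + g) (T3 := a + c + e) (by abel) (by abel)
  have p8 := c1b_pc hf hn hp h.s01.s12 (T0 := b + c + g) (T3 := a + b + d) (by abel) (by abel)
  have p9 := c1b_pc hf hn hp h.s01.s23.s12 (T0 := b + c + g) (T3 := a + c + e) (by abel) (by abel)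
  have p10 := c1b_pc hf hn hp h.s12.s01 (T0 := a + c + e) (T3 := a + b + d) (by abel) (by abel)
  have p11 := c1b_pc hf hn hp h.s01.s12.s01 (T0 := a + c + e) (T3 := a + b + d) (by abel) (by abel)
  linear_combination (norm := abel)
    p0 - p1 + p2 - p3 + p4 + p5 - p6 + p7 + p8 - p9 - p10 + p11 + as d b + as b (a + c + e) -
    as b c - as e a - as e a + as d g - as g b - as g b + as e d +
    as (a + b + d) (d + e + g) + as (a + b + d) (d + e + g) + as e (b + c + g) - as e c -
    as (a + c + e) d - as e g - as (b + c + g) d + as a d - as b a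

theorem c1b_map {B : Type} [Ring B] [Algebra K B] (φ : A →ₐ[K] B) (f : T K) (p q : A) :
    φ (hex K f p q) = hex K f (φ p) (φ q) := by
  simp [hex, map_ev]

/-- Furusho's theorem, Lie version.  `hex_add_of_pent` for `br_rep`, applied to `1` (`ev_Lm`) and
mapped by `a,b ↦ p`, `e ↦ q` gives `hex (2p) q = 2 hex p q` in any algebra; `hex q p = - hex p q`
by antisymmetry; so `2^n hex x y = hex (2x) (2y) = 4 hex x y` (`ev_smul_of_Hom`). -/
theorem furusho {K : Type} [Field K] [CharZero K] {n : ℕ} {f : T K} (hf : f ∈ L K n) (hn : 3 ≤ n)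
    (hp : Pent K f) : Grt K n f := by
  have hn2 : 2 ≤ n := by omega
  have ha := asy_of_pent hf hn2 hp
  refine ⟨hf, ha, ?_, hp⟩
  have h1 := hex_add_of_pent hf hn2 hp (br_rep (K := K))
  rw [← map_add, ← c1b_map, ← c1b_map, ← c1b_map, ← map_add, ← map_smul, ← map_smul] at h1
  have h2 := smul_right_injective _ two_ne_zero (Algebra.lmul_injective h1)
  have h3 : ∀ p q : T K, hex K f ((2 : K) • p) q = (2 : K) • hex K f p q := fun p q => by
    simpa [c1b_map, a3, b3, e3, two_smul] using congrArg (FreeAlgebra.lift K ![p, p, q]) h2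
  have h4 : ∀ p q : T K, hex K f q p = -hex K f p q := fun p q => by
    unfold hex
    rw [show -q - p = -p - q by abel]
    linear_combination (norm := abel) c1b_asy ha p q + c1b_asy ha p (-p - q) + c1b_asy ha q (-p - q)
  have h5 : hex K f ((2 : K) • xx K) ((2 : K) • yy K) = (2 : K) ^ n • hex K f (xx K) (yy K) := by
    have hh := LS_le_Hom w1 n hf
    unfold hex
    rw [← smul_neg, ← smul_sub, ev_smul_of_Hom hh, ev_smul_of_Hom hh, ev_smul_of_Hom hh, smul_add,
      smul_add]
  rw [h3, h4, h3, ← smul_neg, ← h4, smul_smul, ← sub_eq_zero, ← sub_smul, smul_eq_zero] at h5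
  refine h5.resolve_left (sub_ne_zero.2 fun h => ?_)
  have h6 : 2 * 2 = 2 ^ n := by exact_mod_cast h
  have := Nat.pow_le_pow_right two_pos hn
  omega

end Crest.Agent.R10
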