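import Crest.Agent.R10.C1

/-! # Row 10, block C, part 2: potentials, special condition, deformation, closure. -/

noncomputable section
namespace Crest.Agent.R10
open FreeAlgebra (ι)

variable {K : Type} [Field K] [CharZero K] {A : Type} [Ring A] [Algebra K A]

/-- Potentials on the 15 vertices (compatible pairs of clusters): for the edge from `{S,P}` to
`{S,Q}` the difference `u{S,Q} - u{S,P}` is `f(τ_P, τ_Q)`.  For each spectator `S` two of the three
edges are listed (the third follows from the triangle relation). -/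
structure Pot (K : Type) [CommRing K] {A : Type} [Ring A] [Algebra K A] (f : T K)
    (a b c d e g : A) (uag ube ucd ua3 ub3 ud3 ua2 uc2 ue2 ub1 uc1 ug1 ud0 ue0 ug0 : A) : Prop where
  a_32 : ua2 - ua3 = ev K (a + b + d) (a + c + e) f
  a_3g : uag - ua3 = ev K (a + b + d) g f
  b_31 : ub1 - ub3 = ev K (a + b + d) (b + c + g) f
  b_3e : ube - ub3 = ev K (a + b + d) e f
  d_30 : ud0 - ud3 = ev K (a + b + d) (d + e + g) f
  d_3c : ucd - ud3 = ev K (a + b + d) c f
  c_21 : uc1 - uc2 = ev K (a + c + e) (b + c + g) f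
  c_2d : ucd - uc2 = ev K (a + c + e) d f
  e_20 : ue0 - ue2 = ev K (a + c + e) (d + e + g) f
  e_2b : ube - ue2 = ev K (a + c + e) b f
  g_10 : ug0 - ug1 = ev K (b + c + g) (d + e + g) f
  g_1a : uag - ug1 = ev K (b + c + g) a f
  t3_ab : ub3 - ua3 = ev K a b f
  t3_ad : ud3 - ua3 = ev K a d f
  t2_ac : uc2 - ua2 = ev K a c f
  t2_ae : ue2 - ua2 = ev K a e f
  t1_bc : uc1 - ub1 = ev K b c f
  t1_bg : ug1 - ub1 = ev K b g f
  t0_de : ue0 - ud0 = ev K d e f
  t0_dg : ug0 - ud0 = ev K d g f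

omit [CharZero K] in
theorem c2a_pent {n : ℕ} {f : T K} (hf : Grt K n f) (hn : 2 ≤ n) {a b c d e g S T : A}
    (h : Br a b c d e g) (hS : d + e + g = S) (hT : a + b + d = T) :
    ev K a S f + ev K T g f - ev K d g f - ev K T S f - ev K a d f = 0 := by
  rw [← hS, ← hT, ← pent_cl hf.lie hn h]
  exact hf.pent _ _ _ _ _ _ _ h

omit [CharZero K] in
theorem c2a_hex {n : ℕ} {f : T K} (hf : Grt K n f) (hn : 2 ≤ n) {p q r s : A}
    (hp : Commute p s) (hq : Commute q s) (hs : p + q + r = s) :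
    ev K p q f + ev K q r f + ev K r p f = 0 := by
  rw [hex_cl hf.lie hn (hs ▸ hp) (hs ▸ hq)]
  exact hex_ev hf.hex p q

/-- define the potentials along a spanning tree (`notes10/pot.py` prints one, and for every other
edge a combination of pentagons and triangles); `linear_combination (norm := module)` or
`abel`-style bookkeeping. -/
theorem exists_pot {n : ℕ} {f : T K} (hf : Grt K n f) (hn : 2 ≤ n) {a b c d e g : A}
    (h : Br a b c d e g) :
    ∃ uag ube ucd ua3 ub3 ud3 ua2 uc2 ue2 ub1 uc1 ug1 ud0 ue0 ug0 : A,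
      Pot K f a b c d e g uag ube ucd ua3 ub3 ud3 ua2 uc2 ue2 ub1 uc1 ug1 ud0 ue0 ug0 ∧
      ∀ u ∈ [uag, ube, ucd, ua3, ub3, ud3, ua2, uc2, ue2, ub1, uc1, ug1, ud0, ue0, ug0],
        u ∈ LS K ![a, b, c, d, e, g] w1 n := by
  have hE : ∀ p q : A, ev K p q f + ev K q p f = 0 := asy_ev hf.asy
  obtain ⟨za, zb, zc, zd, ze, zg⟩ := h.central
  have p0123 := c2a_pent hf hn h (S := d + e + g) (T := a + b + d) (by abel) (by abel)
  have p0132 := c2a_pent hf hn h.s23 (S := d + e + g) (T := a + c + e) (by abel) (by abel)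
  have p0213 := c2a_pent hf hn h.s12 (S := d + e + g) (T := a + b + d) (by abel) (by abel)
  have p0231 := c2a_pent hf hn h.s12.s23 (S := d + e + g) (T := b + c + g) (by abel) (by abel)
  have p0312 := c2a_pent hf hn h.s23.s12 (S := d + e + g) (T := a + c + e) (by abel) (by abel)
  have p0321 := c2a_pent hf hn h.s12.s23.s12 (S := d + e + g) (T := b + c + g) (by abel) (by abel)
  have p1023 := c2a_pent hf hn h.s01 (S := b + c + g) (T := a + b + d) (by abel) (by abel)
  have p1032 := c2a_pent hf hn h.s01.s23 (S := b + c + g) (T := a + c + e) (by abel) (by abel)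
  have p1203 := c2a_pent hf hn h.s01.s12 (S := b + c + g) (T := a + b + d) (by abel) (by abel)
  have p1302 := c2a_pent hf hn h.s01.s23.s12 (S := b + c + g) (T := a + c + e) (by abel) (by abel)
  have p2013 := c2a_pent hf hn h.s12.s01 (S := a + c + e) (T := a + b + d) (by abel) (by abel)
  have p2103 := c2a_pent hf hn h.s01.s12.s01 (S := a + c + e) (T := a + b + d) (by abel) (by abel)
  have ha := c2a_hex hf hn (r := (a + c + e)) (zg.add_right h.ag.symm)
    (((za.add_left zb).add_left zd).add_right h.a3.symm) (by abel)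
  have hb := c2a_hex hf hn (r := (b + c + g)) (ze.add_right h.be.symm)
    (((za.add_left zb).add_left zd).add_right h.b3.symm) (by abel)
  have hc := c2a_hex hf hn (r := (b + c + g)) (zd.add_right h.cd.symm)
    (((za.add_left zc).add_left ze).add_right h.c2.symm) (by abel)
  have hT0 := c2a_hex hf hn (r := e) h.d0 h.g0 (by abel)
  refine ⟨ev K (a + b + d) g f,
    ev K a b f + ev K (a + b + d) e f,
    ev K a d f + ev K (a + b + d) c f,
    0,
    ev K a b f,
    ev K a d f,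
    ev K (a + b + d) (a + c + e) f,
    ev K (a + b + d) (a + c + e) f + ev K a c f,
    ev K (a + b + d) (a + c + e) f + ev K a e f,
    ev K a b f + ev K (a + b + d) (b + c + g) f,
    ev K (a + b + d) (a + c + e) f + ev K a c f + ev K (a + c + e) (b + c + g) f,
    ev K (a + b + d) g f + ev K a (b + c + g) f,
    ev K a d f + ev K (a + b + d) (d + e + g) f,
    ev K (a + b + d) (a + c + e) f + ev K a e f + ev K (a + c + e) (d + e + g) f,
    ev K (a + b + d) g f + ev K a (b + c + g) f + ev K (b + c + g) (d + e + g) f,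
    ⟨?_, ?_, ?_, ?_, ?_, ?_, ?_, ?_, ?_, ?_, ?_, ?_, ?_, ?_, ?_, ?_, ?_, ?_, ?_, ?_⟩, ?_⟩
  · abel
  · abel
  · abel
  · abel
  · abel
  · abel
  · abel
  · linear_combination (norm := module) (1 : K) • p2103 + (1 : K) • hE a d
      + (-1 : K) • hE (a + c + e) d
  · abel
  · linear_combination (norm := module) (1 : K) • p2013 + (1 : K) • hE a b
      + (-1 : K) • hE (a + c + e) b
  · abel
  · linear_combination (norm := module) (-1 : K) • hE a (b + c + g)
  · abel
  · abel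
  · abel
  · abel
  · linear_combination (norm := module) (-1 / 2 : K) • p0123 + (1 / 2 : K) • p0132
      + (1 / 2 : K) • p0213 + (-1 / 2 : K) • p0231 + (-1 / 2 : K) • p0312 + (1 / 2 : K) • p0321
      + (1 / 2 : K) • p1023 + (-1 / 2 : K) • p1032 + (1 / 2 : K) • p1203 + (-1 / 2 : K) • p1302
      + (-1 / 2 : K) • p2013 + (-1 / 2 : K) • p2103 + (-1 : K) • hT0 + (-1 / 2 : K) • hE a b
      + (-1 / 2 : K) • hE b c + (1 / 2 : K) • hE d g + (-1 / 2 : K) • hE a d
      + (1 / 2 : K) • hE e g + (1 / 2 : K) • hE d e + (1 / 2 : K) • hE b d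
      + (1 / 2 : K) • hE (b + c + g) e + (1 / 2 : K) • hE (a + c + e) d + (-1 / 2 : K) • hE c e
      + (-1 / 2 : K) • hE (b + c + g) d + (1 / 2 : K) • hE (a + c + e) b
  · linear_combination (norm := module) (1 : K) • p1023
  · linear_combination (norm := module) (1 : K) • p0123 + (-1 : K) • p0132 + (1 : K) • ha
      + (1 : K) • hT0 + (-1 : K) • hE d e + (-1 : K) • hE (a + b + d) g + (-1 : K) • hE e g
  · linear_combination (norm := module) (1 / 2 : K) • p0123 + (-1 / 2 : K) • p0132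
      + (1 / 2 : K) • p0213 + (-1 / 2 : K) • p0231 + (1 / 2 : K) • p0312 + (-1 / 2 : K) • p0321
      + (1 / 2 : K) • p1023 + (1 / 2 : K) • p1032 + (1 / 2 : K) • p1203 + (1 / 2 : K) • p1302
      + (1 / 2 : K) • p2013 + (-1 / 2 : K) • p2103 + (1 : K) • hb + (1 : K) • hc
      + (-1 / 2 : K) • hE a d + (-1 / 2 : K) • hE d g + (-1 / 2 : K) • hE e g
      + (-1 : K) • hE (a + b + d) e + (1 / 2 : K) • hE d e + (1 / 2 : K) • hE b d
      + (-1 / 2 : K) • hE (b + c + g) e + (-1 / 2 : K) • hE (a + c + e) d + (1 / 2 : K) • hE c e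
      + (-1 / 2 : K) • hE (b + c + g) d + (1 / 2 : K) • hE a b + (1 / 2 : K) • hE b c
      + (-1 / 2 : K) • hE (a + c + e) b
  · have m : ∀ i, ![a, b, c, d, e, g] i ∈ LS K ![a, b, c, d, e, g] w1 1 := mem_LS_of _ w1
    have ma : a ∈ _ := m 0
    have mb : b ∈ _ := m 1
    have mc : c ∈ _ := m 2
    have md : d ∈ _ := m 3
    have me : e ∈ _ := m 4
    have mg : g ∈ _ := m 5
    simp only [List.mem_cons, List.not_mem_nil, or_false, forall_eq_or_imp, forall_eq]
    refine ⟨?_, ?_, ?_, ?_, ?_, ?_, ?_, ?_, ?_, ?_, ?_, ?_, ?_, ?_, ?_⟩ <;>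
      repeat' first | assumption | exact zero_mem _ | apply add_mem | apply ev_mem_LS hf.lie

omit [CharZero K] in
theorem c2b_commute_LS {I : Type} {g : I → A} {wt : I → ℕ} {Z : A} (h : ∀ i, Commute (g i) Z)
    {n : ℕ} {u : A} (hu : u ∈ LS K g wt n) : Commute u Z :=
  LS_le (fun _ => LinearMap.ker (LinearMap.mulRight K Z - LinearMap.mulLeft K Z))
    (fun i => by simpa [sub_eq_zero] using (h i).eq)
    (fun m n a b ha hb => by
      have ha' : Commute a Z := (commute_iff_eq _ _).2 (by simpa [sub_eq_zero] using ha)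
      have hb' : Commute b Z := (commute_iff_eq _ _).2 (by simpa [sub_eq_zero] using hb)
      have : Commute ⁅a, b⁆ Z := by
        rw [Ring.lie_def]; exact (ha'.mul_left hb').sub_left (hb'.mul_left ha')
      simpa [sub_eq_zero] using this.eq) n hu |> fun h =>
    (commute_iff_eq _ _).2 (by simpa [sub_eq_zero] using h)

/-- With `s_S := ⁅τ_S, u v⁆` for any vertex `v ∋ S` (independent of `v`: `commute_ev`),
`spc a b = s_a + s_b + s_d - s_T3` (`spc_cl` at `ua3`), and
`spc (a+b) c = s_T3 + s_c + s_T0 - s_d` (`spc_cl` for `(T3,c,T0)` at `ud3`, whose sum is `Z + d`,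
then `spc_shift`).  So `spc (a+b) c + spc a b = s_a+s_b+s_c+s_T0 = spc (a+c) b + spc a c`. -/
theorem spc_four {n : ℕ} {f : T K} (hf : Grt K n f) (hn : 2 ≤ n) {a b c d e g : A}
    (h : Br a b c d e g) :
    spc K f (a + b) c + spc K f a b = spc K f (a + c) b + spc K f a c := by
  obtain ⟨uag, ube, ucd, ua3, ub3, ud3, ua2, uc2, ue2, ub1, uc1, ug1, ud0, ue0, ug0, P, hL⟩ :=
    exists_pot hf hn h
  obtain ⟨za, zb, zc, zd, ze, zg⟩ := h.central
  have hZ : ∀ i, Commute (![a, b, c, d, e, g] i) (a + b + c + d + e + g) := by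
    intro i; fin_cases i <;> assumption
  have z1 := (c2b_commute_LS hZ (hL ud3 (by simp))).eq
  have z2 := (c2b_commute_LS hZ (hL ue2 (by simp))).eq
  have e1 := spc_cl hf.lie hn h.a3 h.b3
  have e2 := spc_cl hf.lie hn h.a2 h.c2
  have e3 : ⁅c, ev K (a + b + d) c f⁆ + ⁅d + e + g, ev K (a + b + d) (d + e + g) f⁆ =
      spc K f (a + b) c := by
    have h1 : a + b + d + c + (d + e + g) = (a + b + c + d + e + g) + d := by abel
    have h2 : Commute (a + b) d := by
      have := h.d3.sub_right (Commute.refl d)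
      rw [add_sub_cancel_right] at this
      exact this.symm
    rw [spc_cl hf.lie hn (by rw [h1]; exact ((za.add_left zb).add_left zd).add_right h.d3.symm)
      (by rw [h1]; exact zc.add_right h.cd)]
    have h3 := spc_shift hf.lie hn h2 (Commute.zero_right _) h.cd (Commute.zero_right _)
      (Commute.zero_right _)
    rwa [add_zero] at h3
  have e4 : ⁅b, ev K (a + c + e) b f⁆ + ⁅d + e + g, ev K (a + c + e) (d + e + g) f⁆ =
      spc K f (a + c) b := by
    have h1 : a + c + e + b + (d + e + g) = (a + b + c + d + e + g) + e := by abel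
    have h2 : Commute (a + c) e := by
      have := h.e2.sub_right (Commute.refl e)
      rw [add_sub_cancel_right] at this
      exact this.symm
    rw [spc_cl hf.lie hn (by rw [h1]; exact ((za.add_left zc).add_left ze).add_right h.e2.symm)
      (by rw [h1]; exact zb.add_right h.be)]
    have h3 := spc_shift hf.lie hn h2 (Commute.zero_right _) h.be (Commute.zero_right _)
      (Commute.zero_right _)
    rwa [add_zero] at h3
  have k1 := (commute_ev (K := K) h.a3.symm h.d3.symm f).eq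
  have k2 := (commute_ev (K := K) h.a2.symm h.e2.symm f).eq
  have k3 := (commute_ev (K := K) h.c2 h.cd f).eq
  have k4 := (commute_ev (K := K) h.d0.symm h.e0.symm f).eq
  have k5 := (commute_ev (K := K) h.b3 h.be f).eq
  have k6 := (commute_ev (K := K) h.a3 h.a2 f).eq
  rw [← P.t3_ad] at k1
  rw [← P.t2_ae] at k2
  rw [← P.c_2d] at k3
  rw [← P.t0_de] at k4
  rw [← P.b_3e] at k5
  rw [← P.a_32] at k6
  rw [← e1, ← e2, ← e3, ← e4, ← P.t3_ab, ← P.t3_ad, ← P.t2_ac, ← P.t2_ae, ← P.d_3c, ← P.d_30,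
    ← P.e_2b, ← P.e_20]
  simp only [Ring.lie_def]
  linear_combination (norm := noncomm_ring) k1 - k2 + k3 - k4 - k5 - k6 + z1 - z2

theorem spc_symm {n : ℕ} {f : T K} (hf : Grt K n f) (p q : A) : spc K f p q = spc K f q p := by
  have h1 := asy_ev hf.asy p q
  have h2 := asy_ev hf.asy p (-p - q)
  have h3 := hex_ev hf.hex p q
  have h4 : -q - p = -p - q := by abel
  simp only [asy, hex] at h1 h2 h3
  simp only [spc, h4]
  rw [eq_neg_of_add_eq_zero_right h1, eq_neg_of_add_eq_zero_left h2,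
    show ev K q (-p - q) f = -ev K p q f - ev K (-p - q) p f by
      linear_combination (norm := abel1) h3]
  simp only [Ring.lie_def]
  noncomm_ring

omit [CharZero K] in
theorem c2b_spc_eq (f : T K) (p q : A) : spc K f p q = ev K p q (spc K f (xx K) (yy K)) := by
  simp only [spc, map_add, map_lie', map_ev, map_sub, map_neg, ev_xx, ev_yy]

omit [CharZero K] in
theorem c2b_spc_mem {n : ℕ} {f : T K} (hf : f ∈ L K n) : spc K f (xx K) (yy K) ∈ L K (1 + n) := by
  have h1 : -xx K - yy K ∈ L K 1 := sub_mem (neg_mem xx_mem_L) yy_mem_L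
  exact add_mem (lie_mem_LS yy_mem_L (ev_mem_LS hf xx_mem_L yy_mem_L))
    (lie_mem_LS h1 (ev_mem_LS hf xx_mem_L h1))

/-- the four-term identity for arbitrary elements -/
theorem c2b_four {n : ℕ} {f : T K} (hf : Grt K n f) (hn : 2 ≤ n) (a b c : A) :
    spc K f (a + b) c + spc K f a b = spc K f (a + c) b + spc K f a c := by
  have h1 := spc_four hf hn (br_rep (K := K))
  have hL : ∀ p q : T3 K, spc K f (Lm K p) (Lm K q) = Lm K (ev K p q (spc K f (xx K) (yy K))) :=
    fun p q => by rw [c2b_spc_eq f (Lm K p), ev_Lm]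
  have hA : ∀ p q : T3 K, Lm K p + Lm K q = Lm K (p + q) :=
    fun p q => (map_add (Algebra.lmul K (T3 K)) p q).symm
  rw [hA, hA, hL, hL, hL, hL] at h1
  have h2 := congrArg (fun w : Module.End K (T3 K) => FreeAlgebra.lift K ![a, b, c] (w 1)) h1
  simp only [LinearMap.add_apply, Lm_apply, mul_one] at h2
  simp only [map_add, map_ev, a3, b3, e3, FreeAlgebra.lift_ι_apply] at h2
  rw [c2b_spc_eq f (a + b), c2b_spc_eq f (a + c), c2b_spc_eq f a, c2b_spc_eq f a]
  exact h2

/-- Drinfeld's special condition.  `φ := spc f x y ∈ L (n+1)`, `spc f p q = ev p q φ`.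
`spc_four` for `br_rep` at `1` gives the four-term identity for arbitrary `a,b,c` in any algebra.
In `DualNumber (T K)` take `(a,b,c) = (dn x 0, dn y 0, dn 0 x)`; `snd` gives (`ev_lin`, `ev_dn`)
`cc φ • adp (x+y) n x = dA ![x,y] ![x,0] φ` (the term `φ(x, εx)` vanishes); symmetrically
`cc φ • adp (x+y) n y = dA ![x,y] ![0,y] φ` (`spc_symm`).  Add: `0 = (n+1) • φ`
(`dA_add`, `dA_self_of_Hom`). -/
theorem Grt.spc {n : ℕ} {f : T K} (hf : Grt K n f) : spc K f (xx K) (yy K) = 0 := by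
  rcases le_or_gt n 2 with hn | hn
  · rw [hf.eq_zero_of_le_two hn]; simp [R10.spc, Ring.lie_def]
  have hn2 : 2 ≤ n := hn.le
  set φ := R10.spc K f (xx K) (yy K) with hφ
  have hL : φ ∈ L K (1 + n) := c2b_spc_mem hf.lie
  have hev : ∀ p q : DualNumber (T K), R10.spc K f p q = ev K p q φ := fun p q => c2b_spc_eq f p q
  have h0 : ∀ z : T K, ev K (dn z 0) (dn 0 z) φ = 0 := fun z =>
    ev_eq_zero_of_commute hL (by omega) (by simp [Commute, SemiconjBy, dn_mul])
  have hz : (![0, 0] : Fin 2 → T K) = 0 := by funext i; fin_cases i <;> rfl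
  have h1 := c2b_four hf hn2 (dn (xx K) 0) (dn (yy K) 0) (dn 0 (xx K))
  have h2 := c2b_four hf hn2 (dn (yy K) 0) (dn (xx K) 0) (dn 0 (yy K))
  rw [spc_symm hf (dn (yy K) 0 + dn 0 (yy K))] at h2
  simp only [hev, dn_add, add_zero, zero_add, h0] at h1 h2
  simp only [ev_dn, dn_add, dn_inj, hz, dA_zero, add_zero] at h1 h2
  have h3 := h0 (xx K + yy K)
  rw [ev_dn, dn_zero, dn_inj] at h3
  have h4 := dA_add (K := K) ![xx K + yy K, 0] ![0, xx K] ![0, yy K] φ
  have h5 := dA_add (K := K) ![xx K, yy K] ![xx K, 0] ![0, yy K] φ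
  have e4 : (![0, xx K] + ![0, yy K] : Fin 2 → T K) = ![0, xx K + yy K] := by
    funext i; fin_cases i <;> simp
  have e5 : (![xx K, 0] + ![0, yy K] : Fin 2 → T K) = ![xx K, yy K] := by
    funext i; fin_cases i <;> simp
  rw [e4, h3.2] at h4
  rw [e5, dA_self_of_Hom (LS_le_Hom w1 _ hL), ← h1.2, ← h2.2, add_comm (yy K), ← h4] at h5
  have h6 : FreeAlgebra.lift K ![xx K, yy K] φ = φ := ev_self φ
  rw [h6, ← Nat.cast_smul_eq_nsmul K, smul_eq_zero] at h5
  exact h5.resolve_left (Nat.cast_ne_zero.2 (by omega))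

theorem Grt.grtR {n : ℕ} {f : T K} (hf : Grt K n f) : GrtR K n f :=
  ⟨hf.lie, hf.asy, hf.hex, hf.spc,
    by rw [hf.pent _ _ _ _ _ _ _ br_rep]; rfl,
    by rw [hf.pent _ _ _ _ _ _ _ br_rep.s23.s12]; rfl⟩

theorem c2c_comm {p q : A} (h : Commute p q) {u s t : A} (hs : s = ⁅p, u⁆) (ht : t = ⁅q, u⁆) :
    Commute (dn p s) (dn q t) := by
  rw [commute_iff_eq, dn_mul, dn_mul, hs, ht, dn_inj]
  refine ⟨h.eq, ?_⟩
  simp only [Ring.lie_def]
  linear_combination (norm := noncomm_ring) h.eq * u - u * h.eq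

omit [CharZero K] in
theorem c2c_lie {f : T K} {s p q u v : A} (hp : Commute s p) (hq : Commute s q)
    (h : v - u = ev K p q f) : ⁅s, u⁆ = ⁅s, v⁆ := by
  have := (commute_ev (K := K) hp hq f).eq
  rw [← h] at this
  simp only [Ring.lie_def]
  linear_combination (norm := noncomm_ring) -this

theorem c2c_sum {n : ℕ} {f : T K} (hf : Grt K n f) (hn : 2 ≤ n) {p q r u v w : A}
    (hp : Commute p (p + q + r)) (hq : Commute q (p + q + r)) (hv : v - u = ev K p q f)
    (hw : w - u = ev K p r f) : ⁅p, u⁆ + ⁅q, v⁆ + ⁅r, w⁆ = ⁅p + q + r, u⁆ := by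
  have := spc_cl hf.lie hn hp hq
  rw [spc_ev hf.spc, ← hv, ← hw] at this
  simp only [Ring.lie_def] at this ⊢
  linear_combination (norm := noncomm_ring) this

theorem c2c_sub {p q s t u : A} (h : s + t = ⁅p + q, u⁆) (ht : t = ⁅q, u⁆) : s = ⁅p, u⁆ := by
  rw [lie_add_l, ← ht] at h
  exact add_right_cancel h

theorem c2c_csub {p q : A} (h : Commute p (q + p)) : Commute q p := by
  have := h.sub_right (Commute.refl p)
  rw [add_sub_cancel_right] at this
  exact this.symm

/-- the deformed braid family.  `s_a = ⁅a,ua3⁆` etc.; by the special condition the cluster sums of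
the `s` are the `s_T`; each of the 15 relations of `Br` is a pair `dn p ⁅p,u⁆`, `dn q ⁅q,u⁆` with
`p, q` commuting and the same `u`.  Vertices of the pentagon: `u1 = ua3`, `u2 = uag`, `u3 = ug0`,
`u4 = ud0`, `u5 = ud3`. -/
theorem deform {n : ℕ} {f : T K} (hf : Grt K n f) {a b c d e g : A} (h : Br a b c d e g) :
    ∃ sa sb sc sd se sg u1 u2 u3 u4 u5 : A,
      (∀ s ∈ [sa, sb, sc, sd, se, sg], s ∈ LS K ![a, b, c, d, e, g] w1 (n + 1)) ∧
      Br (dn a sa) (dn b sb) (dn c sc) (dn d sd) (dn e se) (dn g sg) ∧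
      Edge K f a (d + e) sa (sd + se) u2 u3 ∧ Edge K f (b + d) g (sb + sd) sg u1 u2 ∧
      Edge K f d g sd sg u4 u3 ∧ Edge K f (a + b) (e + g) (sa + sb) (se + sg) u5 u4 ∧
      Edge K f a d sa sd u1 u5 := by
  rcases le_or_gt n 2 with hn | hn
  · have hz : ∀ p : A, 0 = ⁅p, (0 : A)⁆ := fun p => by simp [Ring.lie_def]
    have hE : ∀ p q : A, Edge K f p q 0 0 0 0 := fun p q =>
      ⟨hz p, hz q, by simp [hf.eq_zero_of_le_two hn]⟩
    have hc : ∀ {p q : A}, Commute p q → Commute (dn p 0) (dn q 0) := fun h =>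
      c2c_comm h (hz _) (hz _)
    refine ⟨0, 0, 0, 0, 0, 0, 0, 0, 0, 0, 0, by simp, ?_, ?_⟩
    · constructor <;> (try simp only [dn_add, add_zero]) <;> apply hc
      exacts [h.ag, h.be, h.cd, h.a3, h.b3, h.d3, h.a2, h.c2, h.e2, h.b1, h.c1, h.g1, h.d0, h.e0,
        h.g0]
    · simp only [add_zero, hE, and_self]
  have hn2 : 2 ≤ n := hn.le
  obtain ⟨uag, ube, ucd, ua3, ub3, ud3, ua2, uc2, ue2, ub1, uc1, ug1, ud0, ue0, ug0, P, hL⟩ :=
    exists_pot hf hn2 h
  obtain ⟨za, zb, zc, zd, ze, zg⟩ := h.central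
  have a2 := c2c_lie h.a3 h.a2 P.a_32
  have ag := c2c_lie h.a3 h.ag P.a_3g
  have b1 := c2c_lie h.b3 h.b1 P.b_31
  have be := c2c_lie h.b3 h.be P.b_3e
  have d0 := c2c_lie h.d3 h.d0 P.d_30
  have dc := c2c_lie h.d3 h.cd.symm P.d_3c
  have c1 := c2c_lie h.c2 h.c1 P.c_21
  have cd := c2c_lie h.c2 h.cd P.c_2d
  have e0 := c2c_lie h.e2 h.e0 P.e_20
  have eb := c2c_lie h.e2 h.be.symm P.e_2b
  have g0 := c2c_lie h.g1 h.g0 P.g_10
  have ga := c2c_lie h.g1 h.ag.symm P.g_1a
  have t3a := c2c_sum hf hn2 h.a3 h.b3 P.t3_ab P.t3_ad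
  have t2a := c2c_sum hf hn2 h.a2 h.c2 P.t2_ac P.t2_ae
  have t1b := c2c_sum hf hn2 h.b1 h.c1 P.t1_bc P.t1_bg
  have t0d := c2c_sum hf hn2 h.d0 h.e0 P.t0_de P.t0_dg
  rw [← a2] at t2a
  rw [← b1, ← c1] at t1b
  rw [← d0, ← e0, ← g0] at t0d
  have t3b := t3a.trans (c2c_lie h.a3.symm h.b3.symm P.t3_ab)
  have t3d := t3a.trans (c2c_lie h.a3.symm h.d3.symm P.t3_ad)
  have t2c := t2a.trans (c2c_lie h.a2.symm h.c2.symm P.t2_ac)
  have t2e := t2a.trans (c2c_lie h.a2.symm h.e2.symm P.t2_ae)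
  have t1c := t1b.trans (c2c_lie h.b1.symm h.c1.symm P.t1_bc)
  have t1g := t1b.trans (c2c_lie h.b1.symm h.g1.symm P.t1_bg)
  have t0e := t0d.trans (c2c_lie h.d0.symm h.e0.symm P.t0_de)
  have t0g := t0d.trans (c2c_lie h.d0.symm h.g0.symm P.t0_dg)
  refine ⟨⁅a, ua3⁆, ⁅b, ub3⁆, ⁅c, uc2⁆, ⁅d, ud3⁆, ⁅e, ue2⁆, ⁅g, ug1⁆, ua3, uag, ug0, ud0, ud3,
    ?_, ?_, ⟨ag, c2c_sub t0g g0, ?_⟩, ⟨?_, ga, ?_⟩, ⟨d0, g0, P.t0_dg⟩,
    ⟨c2c_sub t3d rfl, ?_, ?_⟩, ⟨rfl, rfl, P.t3_ad⟩⟩
  · have m : ∀ i, ![a, b, c, d, e, g] i ∈ LS K ![a, b, c, d, e, g] w1 1 := mem_LS_of _ w1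
    simp only [List.mem_cons, List.not_mem_nil, or_false, forall_eq_or_imp, forall_eq, add_comm n]
    exact ⟨lie_mem_LS (m 0) (hL _ (by simp)), lie_mem_LS (m 1) (hL _ (by simp)),
      lie_mem_LS (m 2) (hL _ (by simp)), lie_mem_LS (m 3) (hL _ (by simp)),
      lie_mem_LS (m 4) (hL _ (by simp)), lie_mem_LS (m 5) (hL _ (by simp))⟩
  · constructor <;> try simp only [dn_add]
    exacts [c2c_comm h.ag ag ga, c2c_comm h.be be eb, c2c_comm h.cd cd dc,
      c2c_comm h.a3 rfl t3a, c2c_comm h.b3 rfl t3b, c2c_comm h.d3 rfl t3d,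
      c2c_comm h.a2 a2 t2a, c2c_comm h.c2 rfl t2c, c2c_comm h.e2 rfl t2e,
      c2c_comm h.b1 b1 t1b, c2c_comm h.c1 c1 t1c, c2c_comm h.g1 rfl t1g,
      c2c_comm h.d0 d0 t0d, c2c_comm h.e0 e0 t0e, c2c_comm h.g0 g0 t0g]
  · have h1 := c2a_hex hf hn2 (r := b + c + g) (za.add_right h.ag)
      (((zd.add_left ze).add_left zg).add_right h.g0.symm) (by abel)
    have h2 := ev_shift hf.lie hn2 (Commute.zero_right a) h.ag (Commute.zero_right (d + e))
      (c2c_csub h.g0) (Commute.zero_left g)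
    have h3 := asy_ev hf.asy (b + c + g) (d + e + g)
    rw [add_zero] at h2
    rw [asy] at h3
    linear_combination (norm := abel1) P.g_10 - P.g_1a + h2 - h1 + h3
  · refine c2c_sub (q := a) (t := ⁅a, ua3⁆) ?_ rfl
    rw [show b + d + a = a + b + d by abel, ← t3a]; abel
  · have h0 : b + d + a = a + b + d := by abel
    have h1 : Commute (b + d) a := c2c_csub (h0 ▸ h.a3)
    rw [P.a_3g, ← ev_shift hf.lie hn2 h1 (Commute.zero_right _) h.ag.symm
      (Commute.zero_right g) (Commute.zero_right a), h0, add_zero]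
  · refine c2c_sub (q := d) (t := ⁅d, ud3⁆) ?_ d0
    rw [show e + g + d = d + e + g by abel, ← t0d]; abel
  · have h0 : e + g + d = d + e + g := by abel
    have h1 := c2c_csub h.d3
    have h2 := c2c_csub (h0 ▸ h.d0)
    rw [P.d_30, ← ev_shift hf.lie hn2 h1 h1 h2 h2 (Commute.refl d), h0]

/-- closure under the Ihara bracket.  `ihara ψ φ = Op ψ φ - Op φ ψ` (`lie_Op` at `1`, or directly).
`deform` for `ψ`, the pentagon of `φ` in the deformed family, `snd`, `Edge.ev_dn`; same with the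
roles exchanged; each edge contributes `⁅v,v'⁆ - ⁅u,u'⁆`, which telescopes.  Then `furusho`
(weights `≤ 2` are trivial by `Grt.eq_zero_of_le_two`). -/
theorem Grt.ihara {m n : ℕ} {ψ φ : T K} (hψ : Grt K m ψ) (hφ : Grt K n φ) :
    Grt K (m + n) (ihara K ψ φ) := by
  rcases le_or_gt m 2 with hm | hm
  · rw [hψ.eq_zero_of_le_two hm, ihara_eq, Op_zero, map_zero, LinearMap.zero_apply, sub_zero]
    exact (GrtS K _).zero_mem
  refine furusho (ihara_mem_L hψ.lie hφ.lie) (by omega) fun A _ _ a b c d e g h => ?_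
  obtain ⟨sa, sb, sc, sd, se, sg, u1, u2, u3, u4, u5, -, hb, E1, E2, E3, E4, E5⟩ := deform hψ h
  obtain ⟨ta, tb, tc, td, te, tg, v1, v2, v3, v4, v5, -, hb', F1, F2, F3, F4, F5⟩ := deform hφ h
  have h1 := congrArg TrivSqZeroExt.snd (hφ.pent _ _ _ _ _ _ _ hb)
  have h2 := congrArg TrivSqZeroExt.snd (hψ.pent _ _ _ _ _ _ _ hb')
  simp only [R10.pent, dn_add] at h1 h2
  rw [E1.ev_dn, E2.ev_dn, E3.ev_dn, E4.ev_dn, E5.ev_dn, ← F1.huv, ← F2.huv, ← F3.huv, ← F4.huv,
    ← F5.huv] at h1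
  rw [F1.ev_dn, F2.ev_dn, F3.ev_dn, F4.ev_dn, F5.ev_dn, ← E1.huv, ← E2.huv, ← E3.huv, ← E4.huv,
    ← E5.huv] at h2
  simp only [dn_add, dn_sub, snd_dn, TrivSqZeroExt.snd_zero] at h1 h2
  simp only [R10.pent, ihara_eq, map_sub]
  linear_combination (norm := noncomm_ring) h1 - h2

end Crest.Agent.R10
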