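import Mathlib

/-!
# Row 10 (Deligne–Drinfeld): definitions.  Blueprint: `notes10/R10.md`.
Everything is phrased in associative algebras; `⁅a,b⁆ = a*b - b*a` (`Ring.lie_def`).
-/

noncomputable section
namespace Crest.Agent.R10
open FreeAlgebra (ι)

/-- free algebra on `x = ι 0`, `y = ι 1`. -/
abbrev T (K : Type) [CommRing K] : Type := FreeAlgebra K (Fin 2)
/-- free algebra on three letters. -/
abbrev T3 (K : Type) [CommRing K] : Type := FreeAlgebra K (Fin 3)
/-- the field with two elements. -/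
abbrev F2 : Type := ZMod 2

section basic
variable (K : Type) [CommRing K] {A : Type} [Ring A] [Algebra K A] {I : Type}

def xx : T K := ι K 0
def yy : T K := ι K 1

/-- substitution `f ↦ f(a,b)`. -/
def ev (a b : A) : T K →ₐ[K] A := FreeAlgebra.lift K ![a, b]

/-- `adp z i w = ad_z^i w`. -/
def adp (z : A) : ℕ → A → A
  | 0, w => w
  | (i+1), w => ⁅z, adp z i w⁆

/-- bracket monomials in the family `g`, with weights `wt`. -/
inductive Mono (g : I → A) (wt : I → ℕ) : ℕ → A → Prop
  | of (i : I) : Mono g wt (wt i) (g i)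
  | lie {m n : ℕ} {a b : A} : Mono g wt m a → Mono g wt n b → Mono g wt (m + n) ⁅a, b⁆

/-- span of the bracket monomials of weight `n`. -/
def LS (g : I → A) (wt : I → ℕ) (n : ℕ) : Submodule K A := Submodule.span K {a | Mono g wt n a}

/-- Lie polynomials of weight `n` in `x, y`. -/
def L (n : ℕ) : Submodule K (T K) := LS K (ι K) (fun _ => 1) n

/-- the dual number `a + ε u`. -/
def dn (a u : A) : DualNumber A := TrivSqZeroExt.inl a + TrivSqZeroExt.inr u

/-- the derivation along `lift g` sending the letter `i` to `u i`. -/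
def dA (g u : I → A) : FreeAlgebra K I →ₗ[K] A where
  toFun w := (FreeAlgebra.lift K (fun i => dn (g i) (u i)) w).snd
  map_add' v w := by simp
  map_smul' r v := by simp

/-- the derivation of the free algebra sending the letter `i` to `u i`. -/
def der (u : I → FreeAlgebra K I) : Module.End K (FreeAlgebra K I) := dA K (ι K) u

/-- left multiplication. -/
abbrev Lm (t : A) : Module.End K A := Algebra.lmul K A t

/-- grading homomorphism: letter `i ↦ t^(wt i) i`. -/
def theta (wt : I → ℕ) : FreeAlgebra K I →ₐ[K] Polynomial (FreeAlgebra K I) :=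
  FreeAlgebra.lift K (fun i => Polynomial.monomial (wt i) (ι K i))

/-- homogeneous component of weight `d`. -/
def cmp (wt : I → ℕ) (d : ℕ) : FreeAlgebra K I →ₗ[K] FreeAlgebra K I where
  toFun f := (theta K wt f).coeff d
  map_add' v w := by simp
  map_smul' r v := by simp

/-- homogeneous elements of weight `d`. -/
def Hom (wt : I → ℕ) (d : ℕ) : Submodule K (FreeAlgebra K I) :=
  LinearMap.ker (cmp K wt d - LinearMap.id)

/-- elements all of whose components have weight `≥ d`. -/
def Ge (wt : I → ℕ) (d : ℕ) : Submodule K (FreeAlgebra K I) :=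
  ⨅ i ∈ Finset.range d, LinearMap.ker (cmp K wt i)

/-- change of coefficients. -/
def bc (K' : Type) [CommRing K'] [Algebra K K'] (I : Type) :
    FreeAlgebra K I →ₐ[K] FreeAlgebra K' I := FreeAlgebra.lift K (ι K')

end basic

/-- all letters have weight one. -/
abbrev w1 {I : Type} : I → ℕ := fun _ => 1

/-- braid family `a=t01, b=t02, c=t03, d=t12, e=t13, g=t23`. -/
structure Br {A : Type} [Ring A] (a b c d e g : A) : Prop where
  ag : Commute a g
  be : Commute b e
  cd : Commute c d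
  a3 : Commute a (a + b + d)
  b3 : Commute b (a + b + d)
  d3 : Commute d (a + b + d)
  a2 : Commute a (a + c + e)
  c2 : Commute c (a + c + e)
  e2 : Commute e (a + c + e)
  b1 : Commute b (b + c + g)
  c1 : Commute c (b + c + g)
  g1 : Commute g (b + c + g)
  d0 : Commute d (d + e + g)
  e0 : Commute e (d + e + g)
  g0 : Commute g (d + e + g)

section grt
variable (K : Type) [CommRing K] {A : Type} [Ring A] [Algebra K A]

/-- linear pentagon defect (the strand pair `c = t03` does not occur). -/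
def pent (f : T K) (a b d e g : A) : A :=
  ev K a (d + e) f + ev K (b + d) g f - ev K d g f - ev K (a + b) (e + g) f - ev K a d f

/-- antisymmetry defect at `(p,q)`. -/
def asy (f : T K) (p q : A) : A := ev K p q f + ev K q p f
/-- three-term defect at `(p,q)`. -/
def hex (f : T K) (p q : A) : A := ev K p q f + ev K q (-p - q) f + ev K (-p - q) p f
/-- Drinfeld's special-condition defect at `(p,q)`. -/
def spc (f : T K) (p q : A) : A := ⁅q, ev K p q f⁆ + ⁅-p - q, ev K p (-p - q) f⁆

/-- the pentagon equation holds in every braid family. -/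
def Pent (f : T K) : Prop :=
  ∀ (A : Type) [Ring A] [Algebra K A] (a b c d e g : A), Br a b c d e g → pent K f a b d e g = 0

/-- weight-`n` part of `grt`. -/
structure Grt (n : ℕ) (f : T K) : Prop where
  lie : f ∈ L K n
  asy : asy K f (xx K) (yy K) = 0
  hex : hex K f (xx K) (yy K) = 0
  pent : Pent K f

/-- Ihara derivation `x ↦ 0`, `y ↦ [y,ψ]`. -/
def Dr (ψ : T K) : Module.End K (T K) := der K ![0, ⁅yy K, ψ⁆]
/-- Ihara bracket. -/
def ihara (ψ φ : T K) : T K := Dr K ψ φ - Dr K φ ψ + ⁅ψ, φ⁆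
/-- `Op ψ = L_ψ + D_ψ`; `[Op ψ, Op φ] = Op {ψ,φ}`. -/
def Op (ψ : T K) : Module.End K (T K) := Lm K ψ + Dr K ψ

/-- sum of the coefficients of the words `x^i y`. -/
def cc : T K →ₗ[K] K where
  toFun f := ev K (!![1, 0; 0, 0] : Matrix (Fin 2) (Fin 2) K) !![0, 1; 0, 0] f 0 1
  map_add' v w := by simp
  map_smul' r v := by simp

/-- span of the Ihara monomials of weight `n` in the `σ k` (weight `2k+3`). -/
def IB (σ : ℕ → T K) (n : ℕ) : Submodule K (T K) :=
  (LS K (fun k => Op K (σ k)) (fun k => 2 * k + 3) n).map (LinearMap.applyₗ (1 : T K))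

/-- `ω ↦ ω(Op σ_0, Op σ_1, …) 1`. -/
def phi (σ : ℕ → T K) : FreeAlgebra K ℕ →ₗ[K] T K :=
  LinearMap.applyₗ (1 : T K) ∘ₗ (FreeAlgebra.lift K (fun k => Op K (σ k))).toLinearMap

/-! The fibre representation of the four-strand braid Lie algebra on `T3 = K⟨a,b,e⟩`
(strands `s,A,B,w`; `a = t_{sA}`, `b = t_{sB}`, `e = t_{sw}` act by left multiplication). -/
def a3 : T3 K := ι K 0
def b3 : T3 K := ι K 1
def e3 : T3 K := ι K 2
def tAB : Module.End K (T3 K) := der K ![⁅a3 K, b3 K⁆, ⁅b3 K, a3 K⁆, 0]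
def tAw : Module.End K (T3 K) := der K ![⁅a3 K, e3 K⁆, 0, ⁅e3 K, a3 K⁆]
def tBw : Module.End K (T3 K) := der K ![0, ⁅b3 K, e3 K⁆, ⁅e3 K, b3 K⁆]

/-- the finitely many consequences of `Grt` that survive reduction mod 2. -/
structure GrtR (n : ℕ) (f : T K) : Prop where
  lie : f ∈ L K n
  asy : asy K f (xx K) (yy K) = 0
  hex : hex K f (xx K) (yy K) = 0
  spc : spc K f (xx K) (yy K) = 0
  cell3 : pent K f (Lm K (a3 K)) (Lm K (b3 K)) (tAB K) (tAw K) (tBw K) 1 = 0
  cell1 : pent K f (Lm K (e3 K)) (Lm K (a3 K)) (tAw K) (tBw K) (tAB K) 1 = 0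

/-- nilpotent multiplicative filtration. -/
structure Filt (A : Type) [Ring A] [Algebra K A] (N : ℕ) where
  J : ℕ → Submodule K A
  top : J 0 = ⊤
  anti : Antitone J
  mul : ∀ {i j : ℕ} {a b : A}, a ∈ J i → b ∈ J j → a * b ∈ J (i + j)
  bot : J (N + 1) = ⊥

/-- an associator modulo weight `> N` (group-like, pentagon; no hexagon). -/
structure Assoc (N : ℕ) (Φ : T K) : Prop where
  one : Φ - 1 ∈ Ge K w1 2
  grp : ∀ (A : Type) [Ring A] [Algebra K A] (F : Filt K A N) (a b a' b' : A),
    a ∈ F.J 1 → b ∈ F.J 1 → a' ∈ F.J 1 → b' ∈ F.J 1 →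
    Commute a a' → Commute a b' → Commute b a' → Commute b b' →
    ev K (a + a') (b + b') Φ = ev K a b Φ * ev K a' b' Φ
  pent : ∀ (A : Type) [Ring A] [Algebra K A] (F : Filt K A N) (a b c d e g : A),
    a ∈ F.J 1 → b ∈ F.J 1 → c ∈ F.J 1 → d ∈ F.J 1 → e ∈ F.J 1 → g ∈ F.J 1 → Br a b c d e g →
    ev K a (d + e) Φ * ev K (b + d) g Φ =
      ev K d g Φ * ev K (a + b) (e + g) Φ * ev K a d Φ

end grt

/-! ### characteristic two -/

/-- `F₂⟨Y_0, Y_1, …⟩`; `Y_i` has weight `i+2` (`wY`) and length one (`w1`). -/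
abbrev TY : Type := FreeAlgebra F2 ℕ
abbrev wY : ℕ → ℕ := fun i => i + 2
/-- the shift derivation `Y_i ↦ Y_{i+1}`. -/
def shY : Module.End F2 TY := der F2 (fun i => ι F2 (i + 1))

/-- the block operator `[[p,q],[r,s]]` on `N × N`. -/
def mat {K N : Type} [CommRing K] [AddCommGroup N] [Module K N] (p q r s : Module.End K N) :
    Module.End K (N × N) := (p.coprod q).prod (r.coprod s)

/-- the read-off map `𝒫`. -/
def PP : T F2 →ₗ[F2] TY :=
  LinearMap.fst F2 TY TY ∘ₗ LinearMap.applyₗ ((1, 0) : TY × TY) ∘ₗ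
    (ev F2 (mat shY (shY * shY + Lm F2 (ι F2 0)) 0 shY) (mat 0 0 1 0)).toLinearMap

/-- kill the even letters. -/
def piOdd : TY →ₐ[F2] TY := FreeAlgebra.lift F2 (fun i => if Odd i then ι F2 i else 0)

end Crest.Agent.R10
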