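import Crest.Agent.R10.Grade

/-! # Row 10: Lie polynomials inside associative algebras.  Most proofs: `LS_le` with a
well-chosen family of submodules, or `Submodule.span_induction` + induction on `Mono`. -/

noncomputable section
namespace Crest.Agent.R10
open FreeAlgebra (ι)

variable {K : Type} [CommRing K] {A : Type} [Ring A] [Algebra K A] {I : Type}

theorem Mono.pos {g : I → A} {wt : I → ℕ} {μ : ℕ} (h : ∀ i, μ ≤ wt i) {n : ℕ} {a : A}
    (ha : Mono g wt n a) : μ ≤ n := by
  induction ha with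
  | of i => exact h i
  | lie _ _ h1 h2 => omega
theorem LS_eq_bot_of_lt (g : I → A) (wt : I → ℕ) {μ n : ℕ} (h : ∀ i, μ ≤ wt i) (hn : n < μ) :
    LS K g wt n = ⊥ := by
  rw [LS, Submodule.span_eq_bot]
  intro a ha
  exact absurd (Mono.pos h ha) (by omega)
theorem lie_smul_r (c : K) (a b : A) : ⁅a, c • b⁆ = c • ⁅a, b⁆ := by simp [Ring.lie_def, smul_sub]
theorem lie_smul_l (c : K) (a b : A) : ⁅c • a, b⁆ = c • ⁅a, b⁆ := by simp [Ring.lie_def, smul_sub]
theorem lie_add_r (a b c : A) : ⁅a, b + c⁆ = ⁅a, b⁆ + ⁅a, c⁆ := by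
  simp only [Ring.lie_def]; noncomm_ring
theorem lie_add_l (a b c : A) : ⁅a + b, c⁆ = ⁅a, c⁆ + ⁅b, c⁆ := by
  simp only [Ring.lie_def]; noncomm_ring
theorem lie_of_commute {a b : A} (h : Commute a b) : ⁅a, b⁆ = 0 := by
  rw [Ring.lie_def, h.eq, sub_self]

theorem LS_zero (g : I → A) (wt : I → ℕ) (h : ∀ i, 1 ≤ wt i) : LS K g wt 0 = ⊥ := by
  exact LS_eq_bot_of_lt g wt h one_pos
theorem Mono.one {a : T K} {n : ℕ} (ha : Mono (ι K) (fun _ => 1) n a) (hn : n = 1) :
    a = xx K ∨ a = yy K := by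
  cases ha with
  | of i => fin_cases i; exacts [Or.inl rfl, Or.inr rfl]
  | lie h1 h2 =>
    have := Mono.pos (μ := 1) (fun _ => le_rfl) h1
    have := Mono.pos (μ := 1) (fun _ => le_rfl) h2
    omega

theorem mem_L_one {f : T K} (hf : f ∈ L K 1) : ∃ α β : K, f = α • xx K + β • yy K := by
  have : L K 1 ≤ Submodule.span K {xx K, yy K} := by
    apply Submodule.span_mono
    intro a ha
    exact Mono.one ha rfl
  obtain ⟨a, b, h⟩ := Submodule.mem_span_pair.1 (this hf)
  exact ⟨a, b, h.symm⟩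
theorem mem_L_two {f : T K} (hf : f ∈ L K 2) : ∃ c : K, f = c • ⁅xx K, yy K⁆ := by
  have : L K 2 ≤ Submodule.span K {⁅xx K, yy K⁆} := by
    apply Submodule.span_le.2
    intro a ha
    have key : ∀ n, Mono (ι K) (fun _ => 1) n a → n = 2 → a ∈ Submodule.span K {⁅xx K, yy K⁆} := by
      intro n ha hn
      cases ha with
      | of i => omega
      | lie h1 h2 =>
        have := Mono.pos (μ := 1) (fun _ => le_rfl) h1
        have := Mono.pos (μ := 1) (fun _ => le_rfl) h2
        rcases Mono.one h1 (by omega) with rfl | rfl <;>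
          rcases Mono.one h2 (by omega) with rfl | rfl
        · simp [Ring.lie_def]
        · exact Submodule.mem_span_singleton_self _
        · have : ⁅yy K, xx K⁆ = -⁅xx K, yy K⁆ := by simp [Ring.lie_def]
          rw [this]; exact neg_mem (Submodule.mem_span_singleton_self _)
        · simp [Ring.lie_def]
    exact key 2 ha rfl
  obtain ⟨c, h⟩ := Submodule.mem_span_singleton.1 (this hf)
  exact ⟨c, h.symm⟩
theorem commute_lift (g : I → A) (c : A) (h : ∀ i, Commute c (g i)) (f : FreeAlgebra K I) :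
    Commute c (FreeAlgebra.lift K g f) := by
  induction f using FreeAlgebra.induction with
  | grade0 r => rw [AlgHom.commutes]; exact (Algebra.commute_algebraMap_right _ _)
  | grade1 i => simpa using h i
  | mul u v hu hv => rw [map_mul]; exact hu.mul_right hv
  | add u v hu hv => rw [map_add]; exact hu.add_right hv
theorem commute_ev {c a b : A} (ha : Commute c a) (hb : Commute c b) (f : T K) :
    Commute c (ev K a b f) := by
  exact commute_lift _ c (fun i => by fin_cases i <;> simpa) f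
/-- Lie elements are primitive. -/
theorem lift_prim {wt : I → ℕ} {n : ℕ} {f : FreeAlgebra K I} (hf : f ∈ LS K (ι K) wt n)
    (g g' : I → A) (h : ∀ i j, Commute (g i) (g' j)) :
    FreeAlgebra.lift K (g + g') f = FreeAlgebra.lift K g f + FreeAlgebra.lift K g' f := by
  have hc : ∀ u v, Commute (FreeAlgebra.lift K g u) (FreeAlgebra.lift K g' v) := fun u v =>
    commute_lift g' _ (fun j => (commute_lift g _ (fun i => (h i j).symm) u).symm) v
  have := LS_le (fun _ => LinearMap.ker ((FreeAlgebra.lift K (g + g')).toLinearMap -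
    (FreeAlgebra.lift K g).toLinearMap - (FreeAlgebra.lift K g').toLinearMap)) (by simp)
    (fun m n a b ha hb => by
      simp only [LinearMap.mem_ker, LinearMap.sub_apply, AlgHom.toLinearMap_apply, sub_sub,
        sub_eq_zero, LinearMap.add_apply] at *
      rw [map_lie', map_lie', map_lie', ha, hb, lie_add_l, lie_add_r, lie_add_r,
        lie_of_commute (hc a b), lie_of_commute (hc b a).symm]
      simp) n hf
  simpa [sub_sub, sub_eq_zero] using this
theorem ev_prim {n : ℕ} {f : T K} (hf : f ∈ L K n) {a b a' b' : A} (h1 : Commute a a')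
    (h2 : Commute a b') (h3 : Commute b a') (h4 : Commute b b') :
    ev K (a + a') (b + b') f = ev K a b f + ev K a' b' f := by
  have := lift_prim hf ![a, b] ![a', b'] (fun i j => by fin_cases i <;> fin_cases j <;> simpa)
  rw [ev, ev, ev, ← this]; congr 2; funext i; fin_cases i <;> rfl
theorem lift_eq_zero_of_commute {wt : I → ℕ} {n : ℕ} {f : FreeAlgebra K I}
    (hf : f ∈ LS K (ι K) wt n) (g : I → A) (h : ∀ i j, Commute (g i) (g j))
    (h0 : ∀ i, wt i = n → g i = 0) : FreeAlgebra.lift K g f = 0 := by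
  have hc : ∀ u v, Commute (FreeAlgebra.lift K g u) (FreeAlgebra.lift K g v) := fun u v =>
    commute_lift g _ (fun j => (commute_lift g _ (fun i => (h i j).symm) u).symm) v
  have : LS K (ι K) wt n ≤ LinearMap.ker (FreeAlgebra.lift K g).toLinearMap := by
    apply Submodule.span_le.2
    intro a ha
    have key : ∀ m, Mono (ι K) wt m a → m = n → FreeAlgebra.lift K g a = 0 := by
      intro m ha hm
      cases ha with
      | of i => simpa using h0 i hm
      | lie h1 h2 => rw [map_lie', lie_of_commute (hc _ _)]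
    exact key n ha rfl
  exact this hf
theorem ev_eq_zero_of_commute {n : ℕ} {f : T K} (hf : f ∈ L K n) (hn : 2 ≤ n) {a b : A}
    (h : Commute a b) : ev K a b f = 0 := by
  refine lift_eq_zero_of_commute hf _ (fun i j => ?_) (fun i hi => by omega)
  fin_cases i <;> fin_cases j
  exacts [Commute.refl _, h, h.symm, Commute.refl _]
/-- central shift. -/
theorem ev_shift {n : ℕ} {f : T K} (hf : f ∈ L K n) (hn : 2 ≤ n) {a b s t : A}
    (h1 : Commute a s) (h2 : Commute a t) (h3 : Commute b s) (h4 : Commute b t)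
    (h5 : Commute s t) : ev K (a + s) (b + t) f = ev K a b f := by
  rw [ev_prim hf h1 h2 h3 h4, ev_eq_zero_of_commute hf hn h5, add_zero]
theorem ev_mem_LS {g : I → A} {n : ℕ} {f : T K} (hf : f ∈ L K n) {a b : A}
    (ha : a ∈ LS K g w1 1) (hb : b ∈ LS K g w1 1) : ev K a b f ∈ LS K g w1 n := by
  exact map_mem_LS _ (fun i => by fin_cases i <;> simpa) hf
/-- a Lie polynomial in operators that kill `m` kills `m`. -/
theorem ev_apply_eq_zero {M : Type} [AddCommGroup M] [Module K M] {n : ℕ} {f : T K}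
    (hf : f ∈ L K n) (p q : Module.End K M) (m : M) (hp : p m = 0) (hq : q m = 0) :
    ev K p q f m = 0 := by
  have := LS_le (fun _ => LinearMap.ker (LinearMap.applyₗ m ∘ₗ (ev K p q).toLinearMap))
    (fun i => by fin_cases i <;> simpa) (fun m n a b ha hb => by
      simp only [LinearMap.mem_ker, LinearMap.comp_apply, AlgHom.toLinearMap_apply,
        LinearMap.applyₗ_apply_apply] at *
      simp [Ring.lie_def, ha, hb]) n hf
  simpa using this
theorem Filt.LS_le_J {N : ℕ} (F : Filt K A N) (g : I → A) (hg : ∀ i, g i ∈ F.J 1) (n : ℕ) :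
    LS K g w1 n ≤ F.J n := by
  refine LS_le F.J hg (fun m n a b ha hb => ?_) n
  rw [Ring.lie_def]
  exact sub_mem (F.mul ha hb) (add_comm n m ▸ F.mul hb ha)
theorem adp_mul_adp (Z w : A) (h : ∀ k : ℕ, w * Z ^ k * w = 0) (i j k : ℕ) :
    adp Z i w * Z ^ k * adp Z j w = 0 := by
  induction i generalizing j k with
  | zero =>
    induction j generalizing k with
    | zero => exact h k
    | succ j ih =>
      have h1 := ih (k + 1)
      have h2 := ih k
      rw [adp_succ, Ring.lie_def, mul_sub, ← mul_assoc, ← mul_assoc, h2, mul_assoc _ _ Z,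
        ← pow_succ, h1]; simp
  | succ i ih =>
    have h1 := ih j (k + 1)
    have h2 := ih j k
    rw [adp_succ, Ring.lie_def, sub_mul, sub_mul, mul_assoc Z, mul_assoc Z, h2,
      mul_assoc _ Z, ← pow_succ', h1]; simp

theorem ev_cc_mat (f : T K) :
    ev K (!![1, 0; 0, 0] : Matrix (Fin 2) (Fin 2) K) !![0, 1; 0, 0] f =
      !![ev K (1 : K) 0 f, cc K f; 0, ev K (0 : K) 0 f] := by
  induction f using FreeAlgebra.induction with
  | grade0 c =>
    ext i j; fin_cases i <;> fin_cases j <;> simp [Algebra.algebraMap_eq_smul_one, cc]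
  | grade1 i => fin_cases i <;> simp [cc]
  | mul u v hu hv =>
    have : cc K (u * v) = ev K (1 : K) 0 u * cc K v + cc K u * ev K (0 : K) 0 v := by
      change ev K (!![1, 0; 0, 0] : Matrix (Fin 2) (Fin 2) K) !![0, 1; 0, 0] (u * v) 0 1 = _
      rw [map_mul, hu, hv]; simp
    rw [map_mul, hu, hv, this]; simp
  | add u v hu hv => rw [map_add, hu, hv]; simp

theorem cc_mul (u v : T K) :
    cc K (u * v) = ev K (1 : K) 0 u * cc K v + cc K u * ev K (0 : K) 0 v := by
  change ev K (!![1, 0; 0, 0] : Matrix (Fin 2) (Fin 2) K) !![0, 1; 0, 0] (u * v) 0 1 = _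
  rw [map_mul, ev_cc_mat, ev_cc_mat]; simp
@[simp] theorem cc_xx : cc K (xx K) = 0 := by simp [cc]
@[simp] theorem cc_yy : cc K (yy K) = 1 := by simp [cc]

/-- the part linear in `w`.  Prove by `LS_le`, for all `n`, with `α f := ev 1 0 f : K`:
`ev Z w f = α f • Z + cc f • adp Z (n-1) w` and (`n ≠ 1 → α f = 0`); for the `cc`-matrices
`M f = !![α f, cc f; 0, 0]` on Lie `f`, so `cc ⁅a,b⁆ = α a * cc b - α b * cc a`;
`adp Z i w * Z^k * adp Z j w = 0`. -/
theorem ev_lin {n : ℕ} {f : T K} (hf : f ∈ L K n) (hn : 2 ≤ n) (Z w : A)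
    (h : ∀ k : ℕ, w * Z ^ k * w = 0) : ev K Z w f = cc K f • adp Z (n - 1) w := by
  let P : ℕ → Submodule K (T K) := fun n =>
    { carrier := {f | ev K Z w f = ev K (1 : K) 0 f • Z + cc K f • adp Z (n - 1) w ∧
        (n ≠ 1 → ev K (1 : K) 0 f = 0) ∧ ev K (0 : K) 0 f = 0 ∧ (n = 0 → cc K f = 0)}
      add_mem' := fun {a b} ha hb => ⟨by
          rw [map_add, map_add, map_add, ha.1, hb.1, add_smul, add_smul]; abel,
        fun h => by rw [map_add, ha.2.1 h, hb.2.1 h, add_zero],
        by rw [map_add, ha.2.2.1, hb.2.2.1, add_zero],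
        fun h => by rw [map_add, ha.2.2.2 h, hb.2.2.2 h, add_zero]⟩
      zero_mem' := by simp
      smul_mem' := fun c a ha => ⟨by
          rw [map_smul, map_smul, map_smul, ha.1, smul_add, smul_assoc, smul_assoc],
        fun h => by rw [map_smul, ha.2.1 h, smul_zero],
        by rw [map_smul, ha.2.2.1, smul_zero],
        fun h => by rw [map_smul, ha.2.2.2 h, smul_zero]⟩ }
  have key := LS_le (K := K) (g := ι K) (wt := fun _ : Fin 2 => 1) P
    (fun i => by fin_cases i <;> simp [P, cc]) (fun m n a b ha hb => by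
      obtain ⟨a1, a2, a3, a4⟩ := ha
      obtain ⟨b1, b2, b3, b4⟩ := hb
      have hα : ev K (1 : K) 0 ⁅a, b⁆ = 0 := by rw [map_lie', Ring.lie_def, mul_comm, sub_self]
      have hc : cc K ⁅a, b⁆ = ev K (1 : K) 0 a * cc K b - ev K (1 : K) 0 b * cc K a := by
        rw [Ring.lie_def, map_sub, cc_mul, cc_mul, a3, b3]; ring
      refine ⟨?_, fun _ => hα, by rw [map_lie', a3, b3]; simp [Ring.lie_def], fun h => ?_⟩
      · have z1 := adp_mul_adp Z w h (m - 1) (n - 1) 0
        have z2 := adp_mul_adp Z w h (n - 1) (m - 1) 0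
        rw [pow_zero, mul_one] at z1 z2
        have z3 : ⁅adp Z (m - 1) w, adp Z (n - 1) w⁆ = 0 := by rw [Ring.lie_def, z1, z2, sub_zero]
        have e1 : (ev K (1 : K) 0 a * cc K b) • ⁅Z, adp Z (n - 1) w⁆ =
            (ev K (1 : K) 0 a * cc K b) • adp Z (m + n - 1) w := by
          by_cases hm : m = 1
          · by_cases hn : n = 0
            · simp [b4 hn]
            · rw [← adp_succ]; congr 2; omega
          · simp [a2 hm]
        have e2 : (ev K (1 : K) 0 b * cc K a) • ⁅Z, adp Z (m - 1) w⁆ =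
            (ev K (1 : K) 0 b * cc K a) • adp Z (m + n - 1) w := by
          by_cases hn : n = 1
          · by_cases hm : m = 0
            · simp [a4 hm]
            · rw [← adp_succ]; congr 2; omega
          · simp [b2 hn]
        have sk : ⁅adp Z (m - 1) w, Z⁆ = -⁅Z, adp Z (m - 1) w⁆ := by simp [Ring.lie_def]
        rw [map_lie', a1, b1, hα, hc, zero_smul, zero_add, sub_smul, ← e1, ← e2, lie_add_l,
          lie_add_r, lie_add_r]
        simp only [lie_smul_l, lie_smul_r, z3, lie_of_commute (Commute.refl Z), sk, smul_zero,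
          smul_neg, smul_smul, zero_add, add_zero]
        rw [mul_comm (cc K b), sub_eq_add_neg]
      · rw [hc, a4 (by omega), b4 (by omega)]; simp) n hf
  rw [key.1, key.2.1 (by omega), zero_smul, zero_add]
theorem der_mem_LS {wt : I → ℕ} {m : ℕ} (u : I → FreeAlgebra K I)
    (hu : ∀ i, u i ∈ LS K (ι K) wt (wt i + m)) {n : ℕ} {f : FreeAlgebra K I}
    (hf : f ∈ LS K (ι K) wt n) : der K u f ∈ LS K (ι K) wt (n + m) := by
  have := LS_le (K := K) (g := ι K) (wt := wt)
    (fun n => LS K (ι K) wt n ⊓ (LS K (ι K) wt (n + m)).comap (der K u))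
    (fun i => ⟨mem_LS_of _ _ i, by simpa using hu i⟩) (fun p q a b ha hb => by
      refine ⟨lie_mem_LS ha.1 hb.1, ?_⟩
      have h1 := lie_mem_LS ha.2 hb.1
      have h2 := lie_mem_LS ha.1 hb.2
      rw [add_right_comm] at h1
      rw [← add_assoc] at h2
      change der K u ⁅a, b⁆ ∈ LS K (ι K) wt (p + q + m)
      rw [der_lie]; exact add_mem h1 h2) n hf
  exact this.2

/-- Friedrichs' criterion.  Take `A = DualNumber (Module.End K (T K))`, `a = dn (L_x) (L_x)`,
`a' = dn (-R_x) 0` (`R` = `LinearMap.mulRight`), same for `y`.  Then `a + a' = dn ad_x L_x`;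
`snd` of the identity applied to `1` reads `Dyn f = n • f` (`dA_self_of_Hom`, `ev_Lm`,
`dA_zero`), where `Dyn w := dA ![ad_x, ad_y] ![L_x, L_y] w 1`.  Finally `Dyn` maps `Hom n` into
`L n`: `map_mem_of_Hom` with `J k = {W : DualNumber End | (∀ m, ∀ v ∈ L m, W.fst v ∈ L (m+k)) ∧
W.snd 1 ∈ L k ∧ (k = 0 → W.fst ∈ K•1 ∧ W.snd = 0) ∧ (k ≠ 0 → W.fst 1 = 0)}` (or any variant, e.g.
induction on words). -/
theorem friedrichs {K : Type} [Field K] [CharZero K] {n : ℕ} (hn : 1 ≤ n) {f : T K}
    (hf : f ∈ Hom K w1 n)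
    (hp : ∀ (A : Type) [Ring A] [Algebra K A] (a b a' b' : A), Commute a a' → Commute a b' →
      Commute b a' → Commute b b' → ev K (a + a') (b + b') f = ev K a b f + ev K a' b' f) :
    f ∈ L K n := by
  let R : T K → Module.End K (T K) := fun t => LinearMap.mulRight K t
  have hLR : ∀ s t, Commute (dn (Lm K s) (Lm K s)) (dn (-R t) 0) := by
    intro s t
    have : Lm K s * -R t = -R t * Lm K s := by ext1 w; simp [R, mul_assoc]
    rw [Commute, SemiconjBy, dn_mul, dn_mul]; simp [this]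
  have h := hp _ _ _ _ _ (hLR (xx K) (xx K)) (hLR (xx K) (yy K)) (hLR (yy K) (xx K))
    (hLR (yy K) (yy K))
  rw [dn_add, dn_add, add_zero, add_zero] at h
  have h1 := congrArg (fun W : DualNumber (Module.End K (T K)) => W.snd 1) h
  have e0 : (![0, 0] : Fin 2 → Module.End K (T K)) = 0 := by funext i; fin_cases i <;> rfl
  simp only [ev_dn (Lm K (xx K)), ev_dn (-R (xx K)), dn_add, snd_dn, e0, dA_zero, add_zero,
    dA_self_of_Hom hf] at h1
  rw [← ev, ev_Lm, ev_self] at h1
  simp only [LinearMap.smul_apply, Lm_apply, mul_one] at h1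
  let J : ℕ → Submodule K (DualNumber (Module.End K (T K))) := fun k =>
    { carrier := {W | (∀ m, ∀ v ∈ L K m, W.fst v ∈ L K (m + k)) ∧ W.snd 1 ∈ L K k ∧
        (k = 0 → (∃ c : K, W.fst = c • 1) ∧ W.snd = 0) ∧ (k ≠ 0 → W.fst 1 = 0)}
      add_mem' := fun {a b} ha hb => ⟨fun m v hv => add_mem (ha.1 m v hv) (hb.1 m v hv),
        add_mem ha.2.1 hb.2.1, fun h => by
          obtain ⟨⟨c, hc⟩, h1⟩ := ha.2.2.1 h
          obtain ⟨⟨d, hd⟩, h2⟩ := hb.2.2.1 h
          exact ⟨⟨c + d, by simp [hc, hd, add_smul]⟩, by simp [h1, h2]⟩,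
        fun h => by simp [ha.2.2.2 h, hb.2.2.2 h]⟩
      zero_mem' := ⟨fun m v hv => by simp, by simp, fun _ => ⟨⟨0, by simp⟩, rfl⟩, fun _ => rfl⟩
      smul_mem' := fun c a ha => ⟨fun m v hv => Submodule.smul_mem _ c (ha.1 m v hv),
        Submodule.smul_mem _ c ha.2.1, fun h => by
          obtain ⟨⟨d, hd⟩, h2⟩ := ha.2.2.1 h
          exact ⟨⟨c * d, by simp [hd, mul_smul]⟩, by simp [h2]⟩,
        fun h => by simp [ha.2.2.2 h]⟩ }
  have gen : ∀ t ∈ L K 1, dn (Lm K t + -R t) (Lm K t) ∈ J 1 := by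
    intro t ht
    refine ⟨fun m v hv => ?_, by simpa using ht, fun h => absurd h one_ne_zero, fun _ => by
      simp [R]⟩
    have := lie_mem_LS ht hv
    rw [add_comm] at this
    simpa [R, L, Ring.lie_def, sub_eq_add_neg] using this
  have key := map_mem_of_Hom w1 (ev K (dn (Lm K (xx K) + -R (xx K)) (Lm K (xx K)))
      (dn (Lm K (yy K) + -R (yy K)) (Lm K (yy K)))) J
    ⟨fun m v hv => by simpa using hv, by simp, fun _ => ⟨⟨1, by simp⟩, by simp⟩,
      fun h => absurd rfl h⟩
    (fun i j a b ha hb => by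
      obtain ⟨a1, a2, a3, a4⟩ := ha
      obtain ⟨b1, b2, b3, b4⟩ := hb
      refine ⟨fun m v hv => ?_, ?_, fun h => ?_, fun h => ?_⟩
      · have := a1 _ _ (b1 m v hv)
        rw [add_assoc, add_comm j] at this
        simpa using this
      · rw [DualNumber.snd_mul]
        by_cases hj : j = 0
        · obtain ⟨⟨c, hc⟩, h2⟩ := b3 hj
          subst hj
          simpa [hc, h2] using Submodule.smul_mem _ c a2
        · have := a1 _ _ b2
          rw [add_comm] at this
          simpa [b4 hj] using this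
      · obtain ⟨⟨c, hc⟩, h1⟩ := a3 (by omega)
        obtain ⟨⟨d, hd⟩, h2⟩ := b3 (by omega)
        exact ⟨⟨d * c, by simp [hc, hd, mul_smul]⟩, by simp [h1, h2]⟩
      · by_cases hj : j = 0
        · obtain ⟨⟨c, hc⟩, h2⟩ := b3 hj
          simp [hc, a4 (by omega)]
        · simp [b4 hj])
    (fun i => by
      fin_cases i
      · simpa using gen _ xx_mem_L
      · simpa using gen _ yy_mem_L) hf
  have h2 := key.2.1
  rw [h1] at h2
  have h3 := Submodule.smul_mem _ ((n : K)⁻¹) h2
  rwa [← Nat.cast_smul_eq_nsmul K, smul_smul, inv_mul_cancel₀ (by exact_mod_cast (by omega)),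
    one_smul] at h3

end Crest.Agent.R10
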