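import Crest.Agent.R10.BC
import Crest.Agent.R10.Lie

/-! # Row 10, endgame, part 1: generic lemmas on free algebras. -/

noncomputable section
namespace Crest.Agent.R10
open FreeAlgebra (ι)

variable {K : Type} [CommRing K] {A : Type} [Ring A] [Algebra K A] {I : Type}

theorem lie_mem_Hom' {wt' : I → ℕ} {m n : ℕ} {a b : FreeAlgebra K I} (ha : a ∈ Hom K wt' m)
    (hb : b ∈ Hom K wt' n) : ⁅a, b⁆ ∈ Hom K wt' (m + n) := by
  rw [Ring.lie_def]
  exact sub_mem (mul_mem_Hom _ ha hb) (by rw [add_comm]; exact mul_mem_Hom _ hb ha)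

theorem Mono.exists_Hom {wt : I → ℕ} (wt' : I → ℕ) {μ : ℕ} (hμ : ∀ i, μ ≤ wt' i) {n : ℕ}
    {a : FreeAlgebra K I} (ha : Mono (ι K) wt n a) : ∃ k, μ ≤ k ∧ a ∈ Hom K wt' k := by
  induction ha with
  | of i => exact ⟨_, hμ i, ι_mem_Hom _ i⟩
  | lie _ _ iha ihb =>
    obtain ⟨k, hk, h⟩ := iha
    obtain ⟨k', -, h'⟩ := ihb
    exact ⟨k + k', by omega, lie_mem_Hom' h h'⟩

theorem Mono.cmp_one_lie {wt : I → ℕ} {m n : ℕ} {a b : FreeAlgebra K I}
    (ha : Mono (ι K) wt m a) (hb : Mono (ι K) wt n b) : cmp K w1 1 ⁅a, b⁆ = 0 := by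
  obtain ⟨k, hk, h⟩ := ha.exists_Hom w1 (μ := 1) (fun _ => le_rfl)
  obtain ⟨k', hk', h'⟩ := hb.exists_Hom w1 (μ := 1) (fun _ => le_rfl)
  rw [cmp_of_mem_Hom _ (lie_mem_Hom' h h'), if_neg (by omega)]

theorem Mono.lift_congr {wt : I → ℕ} {n : ℕ} {a : FreeAlgebra K I} (ha : Mono (ι K) wt n a)
    (g g' : I → A) (hg : ∀ i, wt i ≤ n → g i = g' i) :
    FreeAlgebra.lift K g a = FreeAlgebra.lift K g' a := by
  induction ha with
  | of i => simp [hg i le_rfl]
  | lie _ _ iha ihb =>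
    rw [map_lie', map_lie', iha fun i hi => hg i (by omega), ihb fun i hi => hg i (by omega)]

/-- components for a second grading of a Lie element are Lie: a monomial is homogeneous for every
grading. -/
theorem cmp_mem_LS (wt wt' : I → ℕ) {n : ℕ} (d : ℕ) {f : FreeAlgebra K I}
    (hf : f ∈ LS K (ι K) wt n) : cmp K wt' d f ∈ LS K (ι K) wt n := by
  induction hf using Submodule.span_induction with
  | zero => simp
  | add a b _ _ ha hb => rw [map_add]; exact add_mem ha hb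
  | smul c a _ ha => rw [map_smul]; exact Submodule.smul_mem _ _ ha
  | mem a ha =>
    obtain ⟨k, -, h⟩ := Mono.exists_Hom wt' (μ := 0) (fun _ => Nat.zero_le _) ha
    rw [cmp_of_mem_Hom _ h]
    split_ifs
    · exact Submodule.subset_span ha
    · exact zero_mem _

theorem lift_congr_LS (wt : I → ℕ) {n : ℕ} {ω : FreeAlgebra K I} (h : ω ∈ LS K (ι K) wt n)
    (g g' : I → A) (hg : ∀ i, wt i ≤ n → g i = g' i) :
    FreeAlgebra.lift K g ω = FreeAlgebra.lift K g' ω := by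
  induction h using Submodule.span_induction with
  | zero => simp
  | add a b _ _ ha hb => rw [map_add, map_add, ha, hb]
  | smul c a _ ha => rw [map_smul, map_smul, ha]
  | mem a ha => exact Mono.lift_congr ha g g' hg

/-- without a length-one part only letters of weight `< n` matter. -/
theorem lift_congr_LS_lt (wt : I → ℕ) (hwt : ∀ i, 1 ≤ wt i) {n : ℕ} {ω : FreeAlgebra K I}
    (h : ω ∈ LS K (ι K) wt n) (h1 : cmp K w1 1 ω = 0) (g g' : I → A)
    (hg : ∀ i, wt i < n → g i = g' i) : FreeAlgebra.lift K g ω = FreeAlgebra.lift K g' ω := by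
  have key : FreeAlgebra.lift K g (ω - cmp K w1 1 ω) =
      FreeAlgebra.lift K g' (ω - cmp K w1 1 ω) := by
    clear h1
    induction h using Submodule.span_induction with
    | zero => simp
    | add a b _ _ ha hb => rw [map_add, add_sub_add_comm, map_add, map_add, ha, hb]
    | smul c a _ ha => rw [map_smul, ← smul_sub, map_smul, map_smul, ha]
    | mem a ha =>
      cases ha with
      | of i => simp [cmp_ι]
      | lie ha hb =>
        have h1 := ha.pos hwt
        have h2 := hb.pos hwt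
        rw [ha.cmp_one_lie hb, sub_zero, map_lie', map_lie',
          ha.lift_congr g g' fun i hi => hg i (by omega),
          hb.lift_congr g g' fun i hi => hg i (by omega)]
  rwa [h1, sub_zero] at key

theorem cmp_one_mem_span (wt : I → ℕ) {n : ℕ} {ω : FreeAlgebra K I} (h : ω ∈ LS K (ι K) wt n) :
    cmp K w1 1 ω ∈ Submodule.span K {a | ∃ i, wt i = n ∧ a = ι K i} := by
  induction h using Submodule.span_induction with
  | zero => simp
  | add a b _ _ ha hb => rw [map_add]; exact add_mem ha hb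
  | smul c a _ ha => rw [map_smul]; exact Submodule.smul_mem _ _ ha
  | mem a ha =>
    cases ha with
    | of i => exact Submodule.subset_span ⟨i, rfl, by simp [cmp_ι]⟩
    | lie ha hb => rw [ha.cmp_one_lie hb]; exact zero_mem _

theorem LS_le_Ge_one (wt : I → ℕ) (n : ℕ) : LS K (ι K) wt n ≤ Ge K (w1 : I → ℕ) 1 := by
  refine Submodule.span_le.2 fun a ha => ?_
  obtain ⟨k, hk, h⟩ := Mono.exists_Hom w1 (μ := 1) (fun _ => le_rfl) ha
  exact Ge_anti _ hk (Hom_le_Ge _ k h)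

/-- lowest-length terms: `map_mem_of_Ge` for the pair map into `A × A` with
`J k = {(p,q) | p ∈ Ge k ∧ p - q ∈ Ge (k+1)}`. -/
theorem lift_sub_lift_mem_Ge {I' : Type} (g g' : I → FreeAlgebra K I')
    (h1 : ∀ i, g i ∈ Ge K w1 1) (h2 : ∀ i, g i - g' i ∈ Ge K w1 2) {d : ℕ} {ω : FreeAlgebra K I}
    (h : ω ∈ Ge K w1 d) :
    FreeAlgebra.lift K g ω - FreeAlgebra.lift K g' ω ∈ Ge K w1 (d + 1) := by
  let J : ℕ → Submodule K (FreeAlgebra K I' × FreeAlgebra K I') := fun k =>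
    (Ge K w1 k).comap (LinearMap.fst K _ _) ⊓ (Ge K w1 (k + 1)).comap (LinearMap.fst K _ _ - LinearMap.snd K _ _)
  have hJ : ∀ k p, p ∈ J k ↔ p.1 ∈ Ge K w1 k ∧ p.1 - p.2 ∈ Ge K w1 (k + 1) := fun _ _ => Iff.rfl
  have := map_mem_of_Ge w1 ((FreeAlgebra.lift K g).prod (FreeAlgebra.lift K g')) J
    ((hJ _ _).2 ⟨by rw [Ge_zero]; trivial, by simp⟩)
    (fun i j hij p hp => ⟨Ge_anti _ hij hp.1, Ge_anti _ (Nat.succ_le_succ hij) hp.2⟩)
    (fun i j a b ha hb => by
      obtain ⟨a1, a2⟩ := (hJ _ _).1 ha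
      obtain ⟨b1, b2⟩ := (hJ _ _).1 hb
      refine (hJ _ _).2 ⟨mul_mem_Ge _ a1 b1, ?_⟩
      have b3 : b.2 ∈ Ge K w1 j := by
        simpa using sub_mem b1 (Ge_anti _ (Nat.le_succ j) b2)
      have e : (a * b).1 - (a * b).2 = a.1 * (b.1 - b.2) + (a.1 - a.2) * b.2 := by
        simp only [Prod.fst_mul, Prod.snd_mul]; noncomm_ring
      rw [e]
      exact add_mem (mul_mem_Ge (n := j + 1) _ a1 b2) (by have := mul_mem_Ge _ a2 b3; rwa [Nat.add_right_comm] at this))
    (fun i => (hJ _ _).2 ⟨by simpa using h1 i, by simpa using h2 i⟩) h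
  exact ((hJ _ _).1 this).2

/-- `Y_{2k+1} + longer terms` generate a free algebra: show `ω ∈ Ge d` for all `d` (if `ω ∈ Ge d`,
`lift (ι ∘ odd) (cmp d ω)` is in `Hom d` and `Ge (d+1)`; `lift (ι ∘ odd)` has a left inverse). -/
theorem lift_injective_of_lowest (τ : ℕ → FreeAlgebra K ℕ)
    (h : ∀ k, τ k - ι K (2 * k + 1) ∈ Ge K w1 2) :
    Function.Injective (FreeAlgebra.lift K τ) := by
  refine (injective_iff_map_eq_zero _).2 fun ω hω => ?_
  set o : ℕ → FreeAlgebra K ℕ := fun k => ι K (2 * k + 1) with ho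
  have h0 : ∀ k, o k ∈ Hom K w1 1 := fun k => ι_mem_Hom w1 _
  have h1 : ∀ k, τ k ∈ Ge K w1 1 := fun k => by
    simpa [ho] using add_mem (Ge_anti _ one_le_two (h k)) (Hom_le_Ge _ _ (h0 k))
  have hl : ∀ f, FreeAlgebra.lift K (fun i => ι K (i / 2)) (FreeAlgebra.lift K o f) = f := fun f => by
    rw [map_lift]
    have : ∀ k, (2 * k + 1) / 2 = k := fun k => by omega
    simp [ho, this]
  have key : ∀ d, ω ∈ Ge K w1 d := fun d => by
    induction d with
    | zero => rw [Ge_zero]; trivial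
    | succ d ih =>
      have a1 := sub_cmp_mem_Ge _ ih
      have a2 : FreeAlgebra.lift K o (cmp K w1 d ω) ∈ Hom K w1 d := map_cmp_mem w1 _ (Hom K w1) (one_mem_Hom _)
        (fun _ _ _ _ => mul_mem_Hom _) (fun i => by simpa using h0 i) _ _
      have a3 : FreeAlgebra.lift K o (ω - cmp K w1 d ω) ∈ Ge K w1 (d + 1) := map_mem_of_Ge w1 _ (Ge K w1)
        (by rw [Ge_zero]; trivial) (Ge_anti _) (fun _ _ _ _ => mul_mem_Ge _)
        (fun i => by simpa using Hom_le_Ge _ _ (h0 i)) a1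
      have a4 := add_mem (lift_sub_lift_mem_Ge τ o h1 h ih) a3
      rw [hω, map_sub, zero_sub, sub_eq_add_neg, neg_add_cancel_left, neg_mem_iff] at a4
      have a5 := hl (cmp K w1 d ω)
      rw [eq_zero_of_Hom_of_Ge _ a2 a4, map_zero] at a5
      rwa [← a5, sub_zero] at a1
  exact eq_zero_of_cmp w1 fun i => (mem_Ge _).1 (key (i + 1)) i (Nat.lt_succ_self i)

theorem fg_of_le_L_aux [IsNoetherianRing K] {n : ℕ} (P : Submodule K (T K)) (h : P ≤ L K n) : P.FG := by
  have h1 : (Submodule.span K (Set.range (ι K : Fin 2 → T K)) ^ n).FG :=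
    (Submodule.fg_span (Set.finite_range _)).pow n
  refine h1.of_le (h.trans fun f hf => ?_)
  exact map_mem_of_Hom w1 (AlgHom.id K _) (fun k => Submodule.span K (Set.range (ι K : Fin 2 → T K)) ^ k)
    (by rw [pow_zero]; exact Submodule.one_le.1 le_rfl)
    (fun i j a b ha hb => by rw [pow_add]; exact Submodule.mul_mem_mul ha hb)
    (fun i => by rw [pow_one]; exact Submodule.subset_span ⟨i, rfl⟩) (LS_le_Hom _ n hf)

/-- finitely many words of length `n` (e.g. `Hom w1 n ≤ (span {x,y})^n` by `map_mem_of_Hom`,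
`Submodule.FG.pow`, and `ℤ` is noetherian). -/
theorem fg_of_le_L {n : ℕ} (P : Submodule ℤ (T ℤ)) (h : P ≤ L ℤ n) : P.FG :=
  fg_of_le_L_aux P h

theorem exists_bc_eq_LS_two (wt : I → ℕ) {n : ℕ} {f : FreeAlgebra F2 I}
    (hf : f ∈ LS F2 (ι F2) wt n) : ∃ g ∈ LS ℤ (ι ℤ) wt n, bc ℤ F2 I g = f := by
  have := LS_le_span_bc (K := ℤ) wt n hf
  clear hf
  induction this using Submodule.span_induction with
  | mem x hx => exact hx
  | zero => exact ⟨0, zero_mem _, map_zero _⟩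
  | add x y _ _ hx hy =>
    obtain ⟨a, ha, rfl⟩ := hx
    obtain ⟨b, hb, rfl⟩ := hy
    exact ⟨a + b, add_mem ha hb, map_add _ _ _⟩
  | smul c x _ hx =>
    obtain ⟨a, ha, rfl⟩ := hx
    obtain ⟨k, rfl⟩ := ZMod.intCast_surjective c
    exact ⟨k • a, Submodule.smul_mem _ _ ha, by rw [map_zsmul, Int.cast_smul_eq_zsmul]⟩

end Crest.Agent.R10
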