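import Crest.Agent.R10.BC
import Crest.Agent.R10.Lie

/-! # Row 10: the free Lie ring is saturated in the free associative ring (Lazard elimination). -/

noncomputable section
namespace Crest.Agent.R10
open FreeAlgebra (ι)

/-- elimination of the letter `z`: the letter `(i,k)` goes to `ad_z^k i`. -/
def elimJ (K : Type) [CommRing K] {I : Type} (z : I) :
    FreeAlgebra K ({i // i ≠ z} × ℕ) →ₐ[K] FreeAlgebra K I :=
  FreeAlgebra.lift K (fun p => adp (ι K z) p.2 (ι K p.1.1))

variable {K : Type} [CommRing K] {I : Type}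

/-- the shift derivation `(i,k) ↦ (i,k+1)`. -/
def elimSh (K : Type) [CommRing K] {I : Type} (z : I) :
    Module.End K (FreeAlgebra K ({i // i ≠ z} × ℕ)) := der K fun p => ι K (p.1, p.2 + 1)

theorem elimJ_elimSh (z : I) (w : FreeAlgebra K ({i // i ≠ z} × ℕ)) :
    elimJ K z (elimSh K z w) = ⁅ι K z, elimJ K z w⁆ := by
  induction w using FreeAlgebra.induction with
  | grade0 c =>
    rw [elimSh, der, dA_algebraMap, map_zero, AlgHom.commutes, Ring.lie_def,
      Algebra.commutes, sub_self]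
  | grade1 p => simp [elimSh, elimJ, adp_succ]
  | mul a b ha hb =>
    rw [elimSh, der_mul, ← elimSh, map_add, map_mul, map_mul, ha, hb, map_mul]
    simp only [Ring.lie_def]; noncomm_ring
  | add a b ha hb => rw [map_add, map_add, ha, hb, map_add, lie_add_r]

/-- left inverse: represent `FreeAlgebra K I` on `FreeAlgebra K ({i // i ≠ z} × ℕ)` by
`z ↦ der ((i,k) ↦ (i,k+1))`, `i ↦ Lm (i,0)`, and evaluate at `1` (`lie_der_Lm`, `map_adp`). -/
theorem exists_elim_leftInverse (z : I) :
    ∃ r : FreeAlgebra K I →ₗ[K] FreeAlgebra K ({i // i ≠ z} × ℕ), ∀ w, r (elimJ K z w) = w := by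
  classical
  let ρ : FreeAlgebra K I →ₐ[K] Module.End K (FreeAlgebra K ({i // i ≠ z} × ℕ)) :=
    FreeAlgebra.lift K fun i => if h : i = z then elimSh K z else Lm K (ι K (⟨i, h⟩, 0))
  have key : ρ.comp (elimJ K z) = Algebra.lmul K _ := by
    refine FreeAlgebra.hom_ext (funext fun p => ?_)
    obtain ⟨⟨i, hi⟩, k⟩ := p
    have h1 : ρ (ι K z) = elimSh K z := by simp [ρ]
    have h2 : ρ (ι K i) = Lm K (ι K (⟨i, hi⟩, 0)) := by simp [ρ, hi]
    simp only [Function.comp, AlgHom.comp_apply, elimJ, FreeAlgebra.lift_ι_apply, map_adp, h1, h2]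
    induction k with
    | zero => rfl
    | succ k ih => rw [adp_succ, ih, elimSh, lie_der_Lm, der_ι]
  refine ⟨LinearMap.applyₗ 1 ∘ₗ ρ.toLinearMap, fun w => ?_⟩
  have := DFunLike.congr_fun key w
  simp only [AlgHom.comp_apply] at this
  simp [this]

theorem elimJ_mem_LS (wt : I → ℕ) (z : I) {n : ℕ} {G : FreeAlgebra K ({i // i ≠ z} × ℕ)}
    (hG : G ∈ LS K (ι K) (fun p => wt p.1.1 + p.2 * wt z) n) : elimJ K z G ∈ LS K (ι K) wt n := by
  refine map_mem_LS (elimJ K z) (fun p => ?_) hG
  obtain ⟨i, k⟩ := p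
  simp only [elimJ, FreeAlgebra.lift_ι_apply]
  induction k with
  | zero => simpa using mem_LS_of (K := K) (ι K) wt i.1
  | succ k ih =>
    have := lie_mem_LS (mem_LS_of (K := K) (ι K) wt z) ih
    rwa [show wt z + (wt i.1 + k * wt z) = wt i.1 + (k + 1) * wt z by ring] at this

/-- Lazard: with `V n` the image of `LS … n` under `elimJ`: `V` is closed under brackets and under
`ad z` (shift derivation, `der_mem_LS`), so `LS_le` applies to
`P n = V n ⊔ (if n = wt z then K ∙ z else ⊥)` (or `span {ι z | wt z = n}`). -/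
theorem exists_elim (wt : I → ℕ) (z : I) {n : ℕ} (hn : n ≠ wt z) {f : FreeAlgebra K I}
    (hf : f ∈ LS K (ι K) wt n) :
    ∃ G ∈ LS K (ι K) (fun p : {i // i ≠ z} × ℕ => wt p.1.1 + p.2 * wt z) n, f = elimJ K z G := by
  classical
  set V : ℕ → Submodule K (FreeAlgebra K I) := fun n =>
    (LS K (ι K) (fun p : {i // i ≠ z} × ℕ => wt p.1.1 + p.2 * wt z) n).map
      (elimJ K z).toLinearMap with hV
  have v1 : ∀ m n a b, a ∈ V m → b ∈ V n → ⁅a, b⁆ ∈ V (m + n) := by
    rintro m n _ _ ⟨a, ha, rfl⟩ ⟨b, hb, rfl⟩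
    exact ⟨⁅a, b⁆, lie_mem_LS ha hb, map_lie' (elimJ K z) a b⟩
  have v2 : ∀ n b, b ∈ V n → ⁅ι K z, b⁆ ∈ V (n + wt z) := by
    rintro n _ ⟨b, hb, rfl⟩
    refine ⟨elimSh K z b, der_mem_LS _ (fun p => ?_) hb, elimJ_elimSh z b⟩
    have := mem_LS_of (K := K) (ι K) (fun p : {i // i ≠ z} × ℕ => wt p.1.1 + p.2 * wt z)
      (p.1, p.2 + 1)
    rwa [show wt p.1.1 + (p.2 + 1) * wt z = wt p.1.1 + p.2 * wt z + wt z by ring] at this
  set P : ℕ → Submodule K (FreeAlgebra K I) := fun n =>
    V n ⊔ (if n = wt z then K ∙ ι K z else ⊥) with hP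
  have dec : ∀ n a, a ∈ P n → ∃ v ∈ V n, ∃ c : K, a = v + c • ι K z ∧ (n = wt z ∨ c = 0) := by
    intro n a ha
    obtain ⟨v, hv, w, hw, rfl⟩ := Submodule.mem_sup.1 ha
    split_ifs at hw with h
    · obtain ⟨c, rfl⟩ := Submodule.mem_span_singleton.1 hw
      exact ⟨v, hv, c, rfl, Or.inl h⟩
    · exact ⟨v, hv, 0, by simp [(Submodule.mem_bot K).1 hw], Or.inr rfl⟩
  have h := LS_le (g := ι K) (wt := wt) P (fun i => ?_) (fun m n a b ha hb => ?_) n hf
  · obtain ⟨_, ⟨G, hG, rfl⟩, c, e, hc⟩ := dec _ _ h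
    exact ⟨G, hG, by simpa [hc.resolve_left hn] using e⟩
  · by_cases hi : i = z
    · subst hi
      exact Submodule.mem_sup_right (by simp)
    · refine Submodule.mem_sup_left ⟨ι K (⟨i, hi⟩, 0), ?_, by simp [elimJ]⟩
      simpa using mem_LS_of (K := K) (ι K) (fun p : {i // i ≠ z} × ℕ => wt p.1.1 + p.2 * wt z)
        (⟨i, hi⟩, 0)
  · obtain ⟨v, hv, c, rfl, hc⟩ := dec _ _ ha
    obtain ⟨w, hw, d, rfl, hd⟩ := dec _ _ hb
    have e : ⁅v + c • ι K z, w + d • ι K z⁆ = ⁅v, w⁆ + c • ⁅ι K z, w⁆ - d • ⁅ι K z, v⁆ := by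
      simp only [Ring.lie_def, add_mul, mul_add, smul_mul_assoc, mul_smul_comm]
      module
    rw [e]
    refine Submodule.mem_sup_left (sub_mem (add_mem (v1 _ _ _ _ hv hw) ?_) ?_)
    · rcases hc with rfl | rfl
      · rw [add_comm]; exact Submodule.smul_mem _ _ (v2 _ _ hw)
      · simp
    · rcases hd with rfl | rfl
      · exact Submodule.smul_mem _ _ (v2 _ _ hv)
      · simp

/-- base case: if all letters have weight `≥ μ ≥ 1` and `n < 2μ`, `LS n` is the span of the
letters of weight `n`, which is saturated (word basis, or the projection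
`cmp w1 1 ∘ cmp wt n`). -/
theorem sat_base (wt : I → ℕ) (μ n : ℕ) (hμ : ∀ i, μ ≤ wt i) (hn : n < 2 * μ) {m : ℤ} (hm : m ≠ 0)
    {f : FreeAlgebra ℤ I} (hf : m • f ∈ LS ℤ (ι ℤ) wt n) : f ∈ LS ℤ (ι ℤ) wt n := by
  have hge : ∀ k (a : FreeAlgebra ℤ I), Mono (ι ℤ) wt k a → μ ≤ k := by
    intro k a ha
    induction ha with
    | of i => exact hμ i
    | lie _ _ h1 h2 => omega
  have hset : {a : FreeAlgebra ℤ I | Mono (ι ℤ) wt n a} =
      FreeAlgebra.basisFreeMonoid ℤ I '' {w | ∃ i, wt i = n ∧ w = FreeMonoid.of i} := by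
    ext a
    constructor
    · intro ha
      have key : ∀ k (a : FreeAlgebra ℤ I), Mono (ι ℤ) wt k a → k < 2 * μ →
          ∃ i, wt i = k ∧ a = ι ℤ i := by
        intro k a ha hk
        cases ha with
        | of i => exact ⟨i, rfl, rfl⟩
        | lie h1 h2 =>
          have := hge _ _ h1
          have := hge _ _ h2
          omega
      obtain ⟨i, hi, rfl⟩ := key n a ha hn
      exact ⟨FreeMonoid.of i, ⟨i, hi, rfl⟩, by simp [basis_word]⟩
    · rintro ⟨_, ⟨i, rfl, rfl⟩, rfl⟩
      have : FreeAlgebra.basisFreeMonoid ℤ I (FreeMonoid.of i) = ι ℤ i := by simp [basis_word]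
      rw [this]
      exact Mono.of i
  unfold LS at hf ⊢
  rw [hset, Module.Basis.mem_span_image] at hf ⊢
  rwa [map_smul, Finsupp.support_smul_eq hm] at hf

/-- Induction: statement `P μ` = "for all `I : Type`, `wt` with finite fibres and `μ ≤ wt i`".
`P μ` for `n < 2μ` is `sat_base`.  For `1 ≤ μ`, `2μ ≤ n`: `P (μ+1) → P μ` by induction on the
number of letters of weight `μ`; eliminate one such letter `z` (`exists_elim`, `n ≠ μ`):
`m•f = J G`, `G = m • r f`, so `r f ∈ LS`, `J (r f) ∈ LS`, and `m•(f - J (r f)) = 0`. -/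
theorem sat_gen (n : ℕ) {m : ℤ} (hm : m ≠ 0) (I : Type) (wt : I → ℕ) (h1 : ∀ i, 1 ≤ wt i)
    (hfin : ∀ k, {i | wt i = k}.Finite) {f : FreeAlgebra ℤ I}
    (hf : m • f ∈ LS ℤ (ι ℤ) wt n) : f ∈ LS ℤ (ι ℤ) wt n := by
  have main : ∀ (d μ : ℕ), 1 ≤ μ → n ≤ μ + d → ∀ (I : Type) (wt : I → ℕ), (∀ i, μ ≤ wt i) →
      (∀ k, {i | wt i = k}.Finite) → ∀ f : FreeAlgebra ℤ I, m • f ∈ LS ℤ (ι ℤ) wt n →
      f ∈ LS ℤ (ι ℤ) wt n := by
    intro d
    induction d with
    | zero => exact fun μ hμ hn I wt hwt _ f hf => sat_base wt μ n hwt (by omega) hm hf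
    | succ d ih =>
      intro μ hμ hn
      by_cases hlt : n < 2 * μ
      · exact fun I wt hwt _ f hf => sat_base wt μ n hwt hlt hm hf
      have inner : ∀ (c : ℕ) (I : Type) (wt : I → ℕ), {i | wt i = μ}.ncard ≤ c →
          (∀ i, μ ≤ wt i) → (∀ k, {i | wt i = k}.Finite) → ∀ f : FreeAlgebra ℤ I,
          m • f ∈ LS ℤ (ι ℤ) wt n → f ∈ LS ℤ (ι ℤ) wt n := by
        intro c
        induction c with
        | zero =>
          intro I wt hc hwt hfin f hf
          have he : {i | wt i = μ} = ∅ := (Set.ncard_eq_zero (hfin μ)).1 (by omega)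
          refine ih (μ + 1) (by omega) (by omega) I wt (fun i => ?_) hfin f hf
          have h1 := hwt i
          have h2 : wt i ≠ μ := fun h => by
            have : i ∈ {i | wt i = μ} := h
            rw [he] at this
            exact this
          omega
        | succ c ihc =>
          intro I wt hc hwt hfin f hf
          by_cases hc' : {i | wt i = μ}.ncard ≤ c
          · exact ihc I wt hc' hwt hfin f hf
          obtain ⟨z, hz⟩ : {i | wt i = μ}.Nonempty := Set.nonempty_of_ncard_ne_zero (by omega)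
          have hz' : wt z = μ := hz
          obtain ⟨G, hG, hGe⟩ := exists_elim wt z (by omega) hf
          obtain ⟨r, hr⟩ := exists_elim_leftInverse (K := ℤ) z
          have hGr : G = m • r f :=
            (hr G).symm.trans ((congrArg r hGe.symm).trans (r.map_smul m f))
          have hrf : r f ∈ LS ℤ (ι ℤ) (fun p : {i // i ≠ z} × ℕ => wt p.1.1 + p.2 * wt z) n := by
            refine ihc ({i // i ≠ z} × ℕ) (fun p => wt p.1.1 + p.2 * wt z) ?_
              (fun p => (hwt p.1.1).trans (Nat.le_add_right _ _)) (fun k => ?_)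
              (r f) (by rw [← hGr]; exact hG)
            · have h2 : ({i | wt i = μ} \ {z}).ncard ≤ c := by
                rw [Set.ncard_sdiff_singleton_of_mem hz]
                omega
              refine le_trans (Set.ncard_le_ncard_of_injOn (fun p => p.1.1) ?_ ?_
                ((hfin μ).subset Set.sdiff_subset)) h2
              · intro p hp
                have h3 : wt p.1.1 + p.2 * wt z = μ := hp
                have h4 := hwt p.1.1
                exact ⟨show wt p.1.1 = μ by omega, p.1.2⟩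
              · intro p hp q hq hpq
                have h3 : wt p.1.1 + p.2 * wt z = μ := hp
                have h4 := hwt p.1.1
                have h5 : wt q.1.1 + q.2 * wt z = μ := hq
                have h6 := hwt q.1.1
                have h7 : p.2 * wt z = 0 := by omega
                have h8 : q.2 * wt z = 0 := by omega
                rw [Nat.mul_eq_zero] at h7 h8
                exact Prod.ext (Subtype.ext hpq) (by omega)
            · have hA : {i : {i // i ≠ z} | wt i.1 ≤ k}.Finite := by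
                have : {i | wt i ≤ k}.Finite := by
                  refine ((Set.finite_le_nat k).biUnion fun j _ => hfin j).subset fun i hi => ?_
                  exact Set.mem_biUnion hi rfl
                exact this.preimage Subtype.val_injective.injOn
              refine (hA.prod (Set.finite_le_nat k)).subset fun p hp => ?_
              have h3 : wt p.1.1 + p.2 * wt z = k := hp
              have h4 : p.2 ≤ p.2 * wt z := Nat.le_mul_of_pos_right _ (by omega)
              exact ⟨show wt p.1.1 ≤ k by omega, show p.2 ≤ k by omega⟩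
          have he : f = elimJ ℤ z (r f) := by
            have : m • (f - elimJ ℤ z (r f)) = 0 := by
              have e1 : elimJ ℤ z (m • r f) = m • elimJ ℤ z (r f) :=
                (elimJ ℤ z).toLinearMap.map_smul m (r f)
              rw [smul_sub, ← e1, ← hGr, ← hGe, sub_self]
            exact sub_eq_zero.1 (eq_zero_of_zsmul_eq_zero hm this)
          rw [he]
          exact elimJ_mem_LS wt z hrf
      exact fun I wt => inner _ I wt le_rfl
  exact main n 1 le_rfl (by omega) I wt h1 hfin f hf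

theorem sat {n : ℕ} {m : ℤ} (hm : m ≠ 0) {f : T ℤ} (hf : m • f ∈ L ℤ n) : f ∈ L ℤ n :=
  sat_gen n hm (Fin 2) _ (fun _ => le_rfl) (fun _ => Set.toFinite _) hf

end Crest.Agent.R10
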