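import Crest.Agent.R10.End1
import Crest.Agent.R10.Sat
import Crest.Agent.R10.C2
import Crest.Agent.R10.E.Alg
import Crest.Agent.R10.U.Main

/-! # Row 10, endgame, part 2: 2-adic descent and the main theorem in algebraic form. -/

noncomputable section
namespace Crest.Agent.R10
open FreeAlgebra (ι)

/-- integral points of `grt`. -/
def Lam (N : ℕ) : Submodule ℤ (T ℤ) :=
  L ℤ N ⊓ ((GrtS ℚ N).restrictScalars ℤ).comap (bc ℤ ℚ (Fin 2)).toLinearMap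

theorem mem_Lam {N : ℕ} {f : T ℤ} : f ∈ Lam N ↔ f ∈ L ℤ N ∧ Grt ℚ N (bc ℤ ℚ _ f) := Iff.rfl

/-- reduction mod 2. -/
abbrev red : T ℤ →ₐ[ℤ] T F2 := bc ℤ F2 (Fin 2)

theorem Lam_red {N : ℕ} {f : T ℤ} (hf : f ∈ Lam N) : GrtR F2 N (red f) :=
  (GrtR.of_bc (K' := ℚ) Int.cast_injective hf.1 (Grt.grtR hf.2)).bc

/-- `bc_two_eq_zero_iff`, `sat`, and `GrtS ℚ N` is a `ℚ`-subspace. -/
theorem Lam_half {N : ℕ} {f : T ℤ} (hf : f ∈ Lam N) (h : red f = 0) :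
    ∃ g ∈ Lam N, f = (2 : ℤ) • g := by
  obtain ⟨g, rfl⟩ := (bc_two_eq_zero_iff f).1 h
  refine ⟨g, ⟨sat two_ne_zero hf.1, ?_⟩, rfl⟩
  have h1 : bc ℤ ℚ _ ((2 : ℤ) • g) ∈ GrtS ℚ N := hf.2
  have h2 := (GrtS ℚ N).smul_mem (1 / 2 : ℚ) h1
  have h3 : (1 / 2 : ℚ) • bc ℤ ℚ _ ((2 : ℤ) • g) = bc ℤ ℚ _ g := by
    rw [map_smul, ← Int.cast_smul_eq_zsmul ℚ, smul_smul]
    norm_num
  rw [h3] at h2
  exact h2

theorem ihara_mem_Lam {m n : ℕ} {ψ φ : T ℤ} (hψ : ψ ∈ Lam m) (hφ : φ ∈ Lam n) :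
    ihara ℤ ψ φ ∈ Lam (m + n) := by
  refine mem_Lam.2 ⟨ihara_mem_L hψ.1 hφ.1, ?_⟩
  rw [bc_ihara]
  exact Grt.ihara (mem_Lam.1 hψ).2 (mem_Lam.1 hφ).2

theorem exists_Lam_of_grt {N : ℕ} {f : T ℚ} (hf : Grt ℚ N f) :
    ∃ m : ℤ, m ≠ 0 ∧ ∃ g ∈ Lam N, bc ℤ ℚ _ g = (m : ℚ) • f := by
  obtain ⟨m, hm, g, hg, h⟩ := exists_bc_eq_smul_LS _ hf.lie
  refine ⟨m, hm, g, mem_Lam.2 ⟨hg, ?_⟩, h⟩
  rw [h]
  exact (GrtS ℚ N).smul_mem (m : ℚ) hf

/-- a good generator in weight `2k+3`. -/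
def Good (k : ℕ) (s : T ℤ) : Prop :=
  s ∈ Lam (2 * k + 3) ∧ PP (red s) - ι F2 (2 * k + 1) ∈ Ge F2 w1 2

open Classical in
/-- the generators (zero if there were no good one). -/
def sig (k : ℕ) : T ℤ := if h : ∃ s, Good k s then h.choose else 0

theorem sig_good {k : ℕ} (h : ∃ s, Good k s) : Good k (sig k) := by
  rw [sig, dif_pos h]; exact h.choose_spec
theorem sig_eq_zero {k : ℕ} (h : ¬ ∃ s, Good k s) : sig k = 0 := by
  rw [sig, dif_neg h]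
theorem sig_mem (k : ℕ) : sig k ∈ Lam (2 * k + 3) := by
  by_cases h : ∃ s, Good k s
  · exact (sig_good h).1
  · rw [sig_eq_zero h]; exact zero_mem _
theorem IB_le_Lam (N : ℕ) : IB ℤ sig N ≤ Lam N :=
  IB_le sig Lam sig_mem (fun _ _ _ _ => ihara_mem_Lam) N

/-- halve the odd letters, kill the even ones. -/
def e2aRho : TY →ₐ[F2] TY := FreeAlgebra.lift F2 (fun i => if Odd i then ι F2 (i / 2) else 0)

theorem e2aRho_LS {n : ℕ} {Q : TY} (hQ : Q ∈ LS F2 (ι F2) wY n) :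
    e2aRho Q ∈ LS F2 (ι F2) (fun k => 2 * k + 3) n := by
  refine map_mem_LS e2aRho (fun i => ?_) hQ
  rw [e2aRho, FreeAlgebra.lift_ι_apply]
  split_ifs with h
  · have h1 : wY i = 2 * (i / 2) + 3 := by
      obtain ⟨k, rfl⟩ := h
      simp only [wY]; omega
    rw [h1]
    exact mem_LS_of (ι F2) (fun k => 2 * k + 3) (i / 2)
  · exact zero_mem _

theorem e2aRho_Hom {d : ℕ} {Q : TY} (hQ : Q ∈ Hom F2 w1 d) : e2aRho Q ∈ Hom F2 w1 d := by
  refine map_mem_of_Hom w1 e2aRho (Hom F2 w1) (one_mem_Hom w1) (fun _ _ _ _ => mul_mem_Hom w1)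
    (fun i => ?_) hQ
  rw [e2aRho, FreeAlgebra.lift_ι_apply]
  split_ifs with h
  · exact ι_mem_Hom w1 (i / 2)
  · exact zero_mem _

theorem e2a_nu_rho (Q : TY) :
    FreeAlgebra.lift F2 (fun k => ι F2 (2 * k + 1)) (e2aRho Q) = piOdd Q := by
  rw [e2aRho, map_lift, piOdd]
  congr 2
  funext i
  split_ifs with h
  · rw [FreeAlgebra.lift_ι_apply]
    obtain ⟨k, rfl⟩ := h
    congr 1; omega
  · exact map_zero _

theorem e2a_span {N : ℕ} {ω : TY}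
    (h : ω ∈ Submodule.span F2 {a | ∃ i, 2 * i + 3 = N ∧ a = ι F2 i}) (h0 : ω ≠ 0) :
    ∃ k, 2 * k + 3 = N ∧ ω = ι F2 k := by
  by_cases hk : ∃ k, 2 * k + 3 = N
  · obtain ⟨k, hk⟩ := hk
    have h1 : {a : TY | ∃ i, 2 * i + 3 = N ∧ a = ι F2 i} ⊆ {ι F2 k} := by
      rintro a ⟨i, hi, rfl⟩
      have : i = k := by omega
      rw [this]; rfl
    obtain ⟨c, rfl⟩ := Submodule.mem_span_singleton.1 (Submodule.span_mono h1 h)
    have hc : c = 0 ∨ c = 1 := (by decide : ∀ c : F2, c = 0 ∨ c = 1) c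
    rcases hc with rfl | rfl
    · exact absurd (zero_smul _ _) h0
    · exact ⟨k, hk, one_smul _ _⟩
  · have h1 : {a : TY | ∃ i, 2 * i + 3 = N ∧ a = ι F2 i} = ∅ := by
      ext a
      simp only [Set.mem_ofPred_eq, Set.mem_empty_iff_false, iff_false]
      rintro ⟨i, hi, -⟩
      exact hk ⟨i, hi⟩
    rw [h1, Submodule.span_empty] at h
    exact absurd h h0

/-- One descent step.  `P = PP (red f)`, `Q = cmp w1 d P = piOdd Q` (`PP_low`), `Q ∈ LS wY N`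
(`PP_mem`, `cmp_mem_LS`).  `piOdd = ν ∘ ρ` with `ν = lift (k ↦ ι (2k+1))`,
`ρ = lift (i ↦ if Odd i then ι (i/2) else 0)`; `ω' = ρ Q ∈ LS (2k+3) N ⊓ Hom w1 d`; lift it to `ω`
over `ℤ` (`exists_bc_eq_LS_two`), `b = phi ℤ sig ω` (`phi_mem_IB`).  `PP (red b) = lift τ ω'` with
`τ k = PP (red (sig k))` (`bc_phi`, `PP_phi`, `Lam_red`).  Let `τ' k = τ k` if good, else `ι (2k+1)`.
`lift τ' ω' - ν ω' ∈ Ge (d+1)` (`lift_sub_lift_mem_Ge`).  If `d ≠ 1` or `ω' = 0`: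
`lift_congr_LS_lt`.  If `d = 1`, `ω' ≠ 0`: `cmp_one_mem_span` gives `N = 2k+3`, `ω' = ι k`, so `f`
itself is good, and `lift_congr_LS` applies. -/
theorem descent_step {N : ℕ} (hN : 3 ≤ N) (H : ∀ j, 2 * j + 3 < N → ∃ s, Good j s) {d : ℕ}
    {f : T ℤ} (hf : f ∈ Lam N) (hd : PP (red f) ∈ Ge F2 w1 d) :
    ∃ b ∈ IB ℤ sig N, PP (red (f - b)) ∈ Ge F2 w1 (d + 1) := by
  classical
  have hfR := Lam_red hf
  have hP : PP (red f) ∈ LS F2 (ι F2) wY N := PP_mem hfR.lie hN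
  have hQ : cmp F2 w1 d (PP (red f)) ∈ LS F2 (ι F2) wY N := cmp_mem_LS wY w1 d hP
  have hQH : cmp F2 w1 d (PP (red f)) ∈ Hom F2 w1 d := cmp_mem_Hom w1 d _
  have hlow := PP_low hfR hN hd
  have hPQ := sub_cmp_mem_Ge w1 hd
  set Q := cmp F2 w1 d (PP (red f)) with hQdef
  have hω' : e2aRho Q ∈ LS F2 (ι F2) (fun k => 2 * k + 3) N := e2aRho_LS hQ
  have hωH : e2aRho Q ∈ Hom F2 w1 d := e2aRho_Hom hQH
  have hν : FreeAlgebra.lift F2 (fun k => ι F2 (2 * k + 1)) (e2aRho Q) = Q := by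
    rw [e2a_nu_rho, hlow]
  set ω' := e2aRho Q with hω'def
  obtain ⟨ω, hω, hbc⟩ := exists_bc_eq_LS_two _ hω'
  refine ⟨phi ℤ sig ω, phi_mem_IB sig hω, ?_⟩
  have hb : PP (red (phi ℤ sig ω)) = FreeAlgebra.lift F2 (fun k => PP (red (sig k))) ω' := by
    rw [bc_phi, PP_phi _ (fun k => Lam_red (sig_mem k)), hbc]
  set τ' : ℕ → TY := fun k => if ∃ s, Good k s then PP (red (sig k)) else ι F2 (2 * k + 1)
    with hτ'
  have h2 : ∀ k, τ' k - ι F2 (2 * k + 1) ∈ Ge F2 w1 2 := by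
    intro k
    by_cases h : ∃ s, Good k s
    · simp only [hτ', if_pos h]; exact (sig_good h).2
    · simp only [hτ', if_neg h, sub_self]; exact zero_mem _
  have h1 : ∀ k, τ' k ∈ Ge F2 w1 1 := by
    intro k
    have a1 := Ge_anti (K := F2) (w1 : ℕ → ℕ) one_le_two (h2 k)
    have a2 : ι F2 (2 * k + 1) ∈ Ge F2 (w1 : ℕ → ℕ) 1 := Hom_le_Ge w1 _ (ι_mem_Hom w1 _)
    simpa using add_mem a1 a2
  have h3 := lift_sub_lift_mem_Ge τ' (fun k => ι F2 (2 * k + 1)) h1 h2 (Hom_le_Ge w1 d hωH)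
  rw [hν] at h3
  have h4 : FreeAlgebra.lift F2 (fun k => PP (red (sig k))) ω' = FreeAlgebra.lift F2 τ' ω' := by
    by_cases h0 : cmp F2 w1 1 ω' = 0
    · refine lift_congr_LS_lt _ (fun i => by omega) hω' h0 _ _ fun i hi => ?_
      simp only [hτ', if_pos (H i hi)]
    · have hd1 : 1 = d := by
        by_contra hd1
        exact h0 (by rw [cmp_of_mem_Hom w1 hωH, if_neg hd1])
      subst hd1
      have hc : cmp F2 w1 1 ω' = ω' := (mem_Hom w1).1 hωH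
      have hs := cmp_one_mem_span _ hω'
      rw [hc] at hs h0
      obtain ⟨k, hk, hωk⟩ := e2a_span hs h0
      have hgood : Good k f := by
        refine ⟨hk ▸ hf, ?_⟩
        rw [← hν, hωk, FreeAlgebra.lift_ι_apply] at hPQ
        exact hPQ
      refine lift_congr_LS _ hω' _ _ fun i hi => ?_
      have : ∃ s, Good i s := by
        rcases lt_or_eq_of_le hi with hi | hi
        · exact H i hi
        · have : i = k := by omega
          exact ⟨f, this ▸ hgood⟩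
      simp only [hτ', if_pos this]
  rw [map_sub, map_sub, hb, h4]
  have h5 := sub_mem hPQ h3
  rwa [sub_sub_sub_cancel_right] at h5

/-- iterate up to `d = N+1` (`eq_zero_of_Hom_of_Ge_len`, `PP_inj`, `Lam_half`). -/
theorem Lam_le_sup {N : ℕ} (hN : 3 ≤ N) (H : ∀ j, 2 * j + 3 < N → ∃ s, Good j s) {f : T ℤ}
    (hf : f ∈ Lam N) : ∃ b ∈ IB ℤ sig N, ∃ g ∈ Lam N, f = b + (2 : ℤ) • g := by
  have key : ∀ d, ∃ b ∈ IB ℤ sig N, PP (red (f - b)) ∈ Ge F2 w1 d := by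
    intro d
    induction d with
    | zero => exact ⟨0, zero_mem _, by rw [Ge_zero]; trivial⟩
    | succ d ih =>
      obtain ⟨b, hb, hd⟩ := ih
      obtain ⟨b', hb', hd'⟩ := descent_step hN H (sub_mem hf (IB_le_Lam N hb)) hd
      refine ⟨b + b', add_mem hb hb', ?_⟩
      rwa [← sub_sub]
  obtain ⟨b, hb, hd⟩ := key (N + 1)
  have hfb : f - b ∈ Lam N := sub_mem hf (IB_le_Lam N hb)
  have hR := Lam_red hfb
  have h0 : PP (red (f - b)) = 0 :=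
    eq_zero_of_Hom_of_Ge_len wY (fun i => by simp [wY]) (LS_le_Hom wY N (PP_mem hR.lie hN)) hd
  obtain ⟨g, hg, hfg⟩ := Lam_half hfb (PP_inj hR hN h0)
  exact ⟨b, hb, g, hg, by rw [← hfg]; abel⟩

/-- Nakayama (`Submodule.exists_sub_one_mem_and_smul_eq_zero_of_fg_of_le_smul` in the quotient by
`IB`, or `Submodule.exists_sub_one_mem_and_smul_le_of_fg_of_le_sup`), `fg_of_le_L`. -/
theorem exists_smul_mem_IB {N : ℕ} (hN : 3 ≤ N) (H : ∀ j, 2 * j + 3 < N → ∃ s, Good j s) :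
    ∃ r : ℤ, r ≠ 0 ∧ ∀ f ∈ Lam N, r • f ∈ IB ℤ sig N := by
  have hfg : (Lam N).FG := fg_of_le_L (n := N) _ inf_le_left
  have hle : Lam N ≤ IB ℤ sig N ⊔ (Ideal.span {(2 : ℤ)}) • Lam N := by
    intro f hf
    obtain ⟨b, hb, g, hg, rfl⟩ := Lam_le_sup hN H hf
    exact add_mem (Submodule.mem_sup_left hb) (Submodule.mem_sup_right
      (Submodule.smul_mem_smul (Ideal.subset_span (Set.mem_singleton _)) hg))
  obtain ⟨r, hr, hr'⟩ := Submodule.exists_sub_one_mem_and_smul_le_of_fg_of_le_sup hfg le_rfl hle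
  refine ⟨r, ?_, fun f hf => hr' (Submodule.smul_mem_pointwise_smul f r _ hf)⟩
  rintro rfl
  rw [Ideal.mem_span_singleton] at hr
  omega

/-- strong induction.  If weight `2k+3` had no good element then `sig k = 0` and `cc` vanishes on
`IB ℤ sig (2k+3)` (`IB_le` with `P n = {f ∈ L n, n<3 → f = 0, n = 2k+3 → cc f = 0}`, `cc_ihara`),
hence on `Lam`, contradicting `exists_grt` (`exists_Lam_of_grt`, `cc_bc`). -/
theorem exists_good (k : ℕ) : ∃ s, Good k s := by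
  induction k using Nat.strong_induction_on with
  | _ k ih =>
  by_contra hk
  obtain ⟨r, hr, hIB⟩ := exists_smul_mem_IB (N := 2 * k + 3) (by omega)
    (fun j hj => ih j (by omega))
  obtain ⟨f, hf, hc⟩ := exists_grt k
  obtain ⟨m, hm, g, hg, hgf⟩ := exists_Lam_of_grt hf
  let P : ℕ → Submodule ℤ (T ℤ) := fun n =>
    { carrier := {f | f ∈ L ℤ n ∧ (n < 2 → f = 0) ∧ (n = 2 * k + 3 → cc ℤ f = 0)}
      add_mem' := fun {a b} ha hb => ⟨add_mem ha.1 hb.1,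
        fun h => by rw [ha.2.1 h, hb.2.1 h, add_zero],
        fun h => by rw [map_add, ha.2.2 h, hb.2.2 h, add_zero]⟩
      zero_mem' := ⟨zero_mem _, fun _ => rfl, fun _ => map_zero _⟩
      smul_mem' := fun c a ha => ⟨Submodule.smul_mem _ c ha.1,
        fun h => by rw [ha.2.1 h, smul_zero], fun h => by rw [map_smul, ha.2.2 h, smul_zero]⟩ }
  have hP : IB ℤ sig (2 * k + 3) ≤ P (2 * k + 3) := by
    refine IB_le sig P (fun j => ⟨(sig_mem j).1, fun h => by omega, fun h => ?_⟩) ?_ _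
    · obtain rfl : j = k := by omega
      rw [sig_eq_zero hk, map_zero]
    · intro m n ψ φ hψ hφ
      by_cases hm2 : m < 2
      · rw [hψ.2.1 hm2, ihara_eq]; simp
      by_cases hn2 : n < 2
      · rw [hφ.2.1 hn2, ihara_eq]; simp
      exact ⟨ihara_mem_L hψ.1 hφ.1, fun h => by omega,
        fun _ => cc_ihara hψ.1 hφ.1 (by omega) (by omega)⟩
  have h1 : cc ℤ (r • g) = 0 := (hP (hIB g hg)).2.2 rfl
  rw [map_smul, smul_eq_mul, mul_eq_zero] at h1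
  have h2 : cc ℤ g = 0 := h1.resolve_left hr
  have h3 := cc_bc (K' := ℚ) g
  rw [h2, map_zero, hgf, map_smul, smul_eq_mul, mul_eq_zero] at h3
  exact hc (h3.resolve_left (Int.cast_ne_zero.2 hm))

/-- mod 2: `PP (red (phi ω)) = lift τ (bc ω)` and `lift_injective_of_lowest`; then 2-adic descent
(`bc_two_eq_zero_iff`, `eq_zero_of_zsmul_eq_zero`, `eq_zero_of_forall_two_pow`). -/
theorem phi_sig_injective : Function.Injective (phi ℤ sig) := by
  have hτ := lift_injective_of_lowest (fun k => PP (red (sig k)))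
    (fun k => (sig_good (exists_good k)).2)
  have step : ∀ ω, phi ℤ sig ω = 0 → ∃ g, ω = (2 : ℤ) • g ∧ phi ℤ sig g = 0 := by
    intro ω hω
    have h1 := bc_phi (K' := F2) sig ω
    rw [hω, map_zero] at h1
    have h2 := PP_phi (fun k => red (sig k)) (fun k => Lam_red (sig_mem k)) (bc ℤ F2 ℕ ω)
    rw [← h1, map_zero] at h2
    have h3 : bc ℤ F2 ℕ ω = 0 := hτ (by rw [← h2, map_zero])
    obtain ⟨g, rfl⟩ := (bc_two_eq_zero_iff ω).1 h3
    refine ⟨g, rfl, eq_zero_of_zsmul_eq_zero (m := 2) (by norm_num) ?_⟩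
    rw [← map_smul, hω]
  rw [injective_iff_map_eq_zero]
  intro ω hω
  have key : ∀ k : ℕ, ∃ g, ω = (2 ^ k : ℤ) • g ∧ phi ℤ sig g = 0 := by
    intro k
    induction k with
    | zero => exact ⟨ω, by simp, hω⟩
    | succ k ih =>
      obtain ⟨g, hg, hg0⟩ := ih
      obtain ⟨g', hg', hg0'⟩ := step g hg0
      exact ⟨g', by rw [hg, hg', smul_smul, pow_succ], hg0'⟩
  exact eq_zero_of_forall_two_pow fun k => (key k).imp fun g hg => hg.1

theorem bc_mem_IB {N : ℕ} {b : T ℤ} (hb : b ∈ IB ℤ sig N) :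
    bc ℤ ℚ _ b ∈ IB ℚ (fun k => bc ℤ ℚ _ (sig k)) N := by
  refine IB_le sig (fun n => ((IB ℚ (fun k => bc ℤ ℚ _ (sig k)) n).restrictScalars ℤ).comap
    (bc ℤ ℚ (Fin 2)).toLinearMap) (fun k => mem_IB_self (fun k => bc ℤ ℚ _ (sig k)) k) ?_ N hb
  intro m n ψ φ hψ hφ
  change bc ℤ ℚ _ (ihara ℤ ψ φ) ∈ IB ℚ (fun k => bc ℤ ℚ _ (sig k)) (m + n)
  rw [bc_ihara]
  exact ihara_mem_IB _ hψ hφ

/-- the theorem in associative language. -/
theorem main : ∃ σ : ℕ → T ℚ, (∀ k, Grt ℚ (2 * k + 3) (σ k)) ∧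
    (∀ n f, Grt ℚ n f → f ∈ IB ℚ σ n) ∧ Function.Injective (phi ℚ σ) := by
  refine ⟨fun k => bc ℤ ℚ _ (sig k), fun k => (sig_mem k).2, fun n f hf => ?_, ?_⟩
  · by_cases hn : n ≤ 2
    · rw [hf.eq_zero_of_le_two hn]; exact zero_mem _
    obtain ⟨r, hr, hIB⟩ := exists_smul_mem_IB (N := n) (by omega) (fun j _ => exists_good j)
    obtain ⟨m, hm, g, hg, hgf⟩ := exists_Lam_of_grt hf
    have h1 := bc_mem_IB (hIB g hg)
    rw [map_smul, hgf, ← Int.cast_smul_eq_zsmul ℚ, smul_smul] at h1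
    have hne : (r : ℚ) * (m : ℚ) ≠ 0 :=
      mul_ne_zero (Int.cast_ne_zero.2 hr) (Int.cast_ne_zero.2 hm)
    exact (Submodule.smul_mem_iff _ hne).1 h1
  · rw [injective_iff_map_eq_zero]
    intro ω hω
    obtain ⟨m, hm, g, hg⟩ := exists_bc_eq_smul ω
    have h1 := bc_phi (K' := ℚ) sig g
    rw [hg, map_smul, hω, smul_zero] at h1
    have h2 : phi ℤ sig g = 0 :=
      bc_injective (K' := ℚ) Int.cast_injective (by rw [h1, map_zero])
    have h3 : g = 0 := phi_sig_injective (by rw [h2, map_zero])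
    rw [h3, map_zero] at hg
    exact (smul_eq_zero.1 hg.symm).resolve_left (Int.cast_ne_zero.2 hm)

end Crest.Agent.R10
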