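import Crest.Agent.R10.Bridge
import Crest.Agent.R10.C2

/-! # Row 10: from the associative form of the theorem to the statement. -/

noncomputable section
namespace Crest.Agent.R10
open FreeAlgebra (ι)
open Crest.NumberTheoryR.GT

attribute [local instance 100] LieRing.ofAssociativeRing

/-- induction over all weight subspaces. -/
theorem fin_ind {I : Type} (wt : I → ℕ) (P : Submodule ℚ (FreeLieAlgebra ℚ I))
    (h : ∀ n a, a ∈ weightSubspace wt n → a ∈ P) (a : FreeLieAlgebra ℚ I) : a ∈ P := by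
  have ha : a ∈ ⨆ n, weightSubspace wt n := by rw [iSup_weightSubspace]; trivial
  exact (iSup_le (fun n => h n) : ⨆ n, weightSubspace wt n ≤ P) ha

theorem fin_io_mem {I : Type} {wt : I → ℕ} {n : ℕ} {a : FreeLieAlgebra ℚ I}
    (h : a ∈ weightSubspace wt n) : io I a ∈ LS ℚ (ι ℚ) wt n := by
  rw [← map_weightSubspace]
  exact ⟨a, h, rfl⟩

theorem fin_ex_of_LS {I : Type} {wt : I → ℕ} {n : ℕ} {f : FreeAlgebra ℚ I}
    (h : f ∈ LS ℚ (ι ℚ) wt n) : ∃ a ∈ weightSubspace wt n, io I a = f := by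
  rw [← map_weightSubspace] at h
  obtain ⟨a, ha, rfl⟩ := h
  exact ⟨a, ha, rfl⟩

theorem fin_grt (σ : ℕ → T ℚ) (h1 : ∀ k, Grt ℚ (2 * k + 3) (σ k)) {n : ℕ}
    {a : FreeLieAlgebra ℚ ℕ} (h : a ∈ weightSubspace (fun k => 2 * k + 3) n) :
    Grt ℚ n (phi ℚ σ (io ℕ a)) :=
  IB_le σ (GrtS ℚ) h1 (fun _ _ _ _ hψ hφ => Grt.ihara hψ hφ) n (phi_mem_IB σ (fin_io_mem h))

theorem fin_lift_eq (σ : ℕ → T ℚ) (a : FreeLieAlgebra ℚ ℕ) :
    FreeAlgebra.lift ℚ (fun k => Op ℚ (σ k)) (io ℕ a) = Op ℚ (phi ℚ σ (io ℕ a)) := by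
  have key := fin_ind (fun k : ℕ => 2 * k + 3)
    (LinearMap.eqLocus ((FreeAlgebra.lift ℚ (fun k => Op ℚ (σ k))).toLinearMap ∘ₗ (io ℕ).toLinearMap)
      (OpL ℚ ∘ₗ phi ℚ σ ∘ₗ (io ℕ).toLinearMap)) (fun n a ha => by
      have h2 : FreeAlgebra.lift ℚ (fun k => Op ℚ (σ k)) (io ℕ a) ∈
          LS ℚ (fun k => Op ℚ (σ k)) (fun k => 2 * k + 3) n :=
        map_mem_LS (FreeAlgebra.lift ℚ (fun k => Op ℚ (σ k))) (fun i => by
          rw [FreeAlgebra.lift_ι_apply]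
          exact mem_LS_of (fun k => Op ℚ (σ k)) (fun k => 2 * k + 3) i) (fin_io_mem ha)
      exact eq_Op_of_mem_LS σ _ h2) a
  exact key

theorem fin_phi_lie (σ : ℕ → T ℚ) (a b : FreeLieAlgebra ℚ ℕ) :
    phi ℚ σ (io ℕ ⁅a, b⁆) = ihara ℚ (phi ℚ σ (io ℕ a)) (phi ℚ σ (io ℕ b)) := by
  have h : FreeAlgebra.lift ℚ (fun k => Op ℚ (σ k)) (io ℕ ⁅a, b⁆) =
      Op ℚ (ihara ℚ (phi ℚ σ (io ℕ a)) (phi ℚ σ (io ℕ b))) := by
    rw [LieHom.map_lie, map_lie', fin_lift_eq, fin_lift_eq, lie_Op]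
  have h' : phi ℚ σ (io ℕ ⁅a, b⁆) =
      FreeAlgebra.lift ℚ (fun k => Op ℚ (σ k)) (io ℕ ⁅a, b⁆) 1 := rfl
  rw [h', h, Op_one]

theorem fin_ex_of_IB (σ : ℕ → T ℚ) {n : ℕ} {f : T ℚ} (h : f ∈ IB ℚ σ n) :
    ∃ a : FreeLieAlgebra ℚ ℕ, phi ℚ σ (io ℕ a) = f := by
  have key := IB_le σ (fun _ => LinearMap.range (phi ℚ σ ∘ₗ (io ℕ).toLinearMap)) (fun k => by
      refine ⟨FreeLieAlgebra.of ℚ k, ?_⟩
      change phi ℚ σ (io ℕ (FreeLieAlgebra.of ℚ k)) = σ k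
      rw [io_of]
      change FreeAlgebra.lift ℚ (fun k => Op ℚ (σ k)) (ι ℚ k) 1 = σ k
      rw [FreeAlgebra.lift_ι_apply, Op_one])
    (fun m n ψ φ hψ hφ => by
      obtain ⟨a, rfl⟩ := hψ
      obtain ⟨b, rfl⟩ := hφ
      exact ⟨⁅a, b⁆, fin_phi_lie σ a b⟩) n h
  exact key

/-- `Φ' = phi σ ∘ io ℕ`.  On `weightSubspace (2k+3) n`, `Φ' a ∈ IB n` (`map_weightSubspace`,
`phi_mem_IB`), `IB n ≤ GrtS n` (`IB_le`, `Grt.ihara`), `lift (Op ∘ σ) (io a) = Op (Φ' a)`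
(`eq_Op_of_mem_LS`).  So `Φ' a ∈ range io`; let `Φ = io⁻¹ ∘ Φ'` (`LinearEquiv.ofInjective`,
`codRestrict`).  Bracket: `lie_Op`, `io_iharaBracket`.  Range: `mem_grtSpace_of_grt`;
`grt_cmp_of_mem`, `exists_sum_cmp`. -/
theorem final_of_main (σ : ℕ → T ℚ) (h1 : ∀ k, Grt ℚ (2 * k + 3) (σ k))
    (h2 : ∀ n f, Grt ℚ n f → f ∈ IB ℚ σ n) (h3 : Function.Injective (phi ℚ σ)) :
    ∃ Φ : FreeLieAlgebra ℚ ℕ →ₗ[ℚ] GTLie,
      Function.Injective Φ ∧ LinearMap.range Φ = grtSpace ∧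
      (∀ a b : FreeLieAlgebra ℚ ℕ, Φ ⁅a, b⁆ = iharaBracket (Φ a) (Φ b)) ∧
      (∀ k : ℕ, Φ (FreeLieAlgebra.of ℚ k) ∈ weightSubspace (fun _ : Fin 2 => 1) (2 * k + 3)) := by
  have hr : ∀ a, (phi ℚ σ ∘ₗ (io ℕ).toLinearMap) a ∈
      LinearMap.range (io (Fin 2)).toLinearMap := fun a =>
    fin_ind (fun k : ℕ => 2 * k + 3)
      ((LinearMap.range (io (Fin 2)).toLinearMap).comap (phi ℚ σ ∘ₗ (io ℕ).toLinearMap))
      (fun n a ha => by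
        obtain ⟨b, -, hb⟩ := fin_ex_of_LS (fin_grt σ h1 ha).lie
        exact ⟨b, hb⟩) a
  have hinj : Function.Injective (io (Fin 2)).toLinearMap := io_injective
  let Φ : FreeLieAlgebra ℚ ℕ →ₗ[ℚ] GTLie :=
    (LinearEquiv.ofInjective (io (Fin 2)).toLinearMap hinj).symm.toLinearMap ∘ₗ
      (phi ℚ σ ∘ₗ (io ℕ).toLinearMap).codRestrict _ hr
  have hΦ : ∀ a, io (Fin 2) (Φ a) = phi ℚ σ (io ℕ a) := fun a => by
    have h := (LinearEquiv.ofInjective (io (Fin 2)).toLinearMap hinj).apply_symm_apply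
      ((phi ℚ σ ∘ₗ (io ℕ).toLinearMap).codRestrict _ hr a)
    exact congrArg Subtype.val h
  refine ⟨Φ, fun a b hab => ?_, le_antisymm ?_ ?_, fun a b => ?_, fun k => ?_⟩
  · apply io_injective
    apply h3
    rw [← hΦ, ← hΦ, hab]
  · rintro _ ⟨a, rfl⟩
    exact fin_ind (fun k : ℕ => 2 * k + 3) (grtSpace.comap Φ) (fun n a ha => by
      have h := fin_grt σ h1 ha
      rw [← hΦ] at h
      exact mem_grtSpace_of_grt h) a
  · intro ψ hψ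
    obtain ⟨n, -, hn⟩ := exists_sum_cmp (K := ℚ) w1 (io (Fin 2) ψ)
    have hc : ∀ i, ∃ a : FreeLieAlgebra ℚ ℕ,
        phi ℚ σ (io ℕ a) = cmp ℚ w1 i (io (Fin 2) ψ) := fun i =>
      fin_ex_of_IB σ (h2 i _ (grt_cmp_of_mem hψ i))
    choose a ha using hc
    refine ⟨∑ i ∈ Finset.range n, a i, io_injective ?_⟩
    rw [hΦ, hn, map_sum, map_sum]
    exact Finset.sum_congr rfl (fun i _ => ha i)
  · apply io_injective
    rw [io_iharaBracket, hΦ, hΦ, hΦ, fin_phi_lie]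
  · have hk : FreeLieAlgebra.of ℚ k ∈ weightSubspace (fun k : ℕ => 2 * k + 3) (2 * k + 3) :=
      Submodule.subset_span (IsBracketMonomial.of (w := fun k : ℕ => 2 * k + 3) k)
    obtain ⟨b, hb, hb'⟩ := fin_ex_of_LS (fin_grt σ h1 hk).lie
    rw [← hΦ] at hb'
    rw [← io_injective hb']
    exact hb

end Crest.Agent.R10
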