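import Crest.Agent.R10.Basic

/-! # Row 10: gradings of free algebras (`theta`, `cmp`, `Hom`, `Ge`). -/

noncomputable section
namespace Crest.Agent.R10
open FreeAlgebra (ι)

variable {K : Type} [CommRing K] {A : Type} [Ring A] [Algebra K A] {I : Type} (wt : I → ℕ)

theorem cmp_apply (d : ℕ) (f : FreeAlgebra K I) : cmp K wt d f = (theta K wt f).coeff d := rfl

theorem mem_Hom {d : ℕ} {f : FreeAlgebra K I} : f ∈ Hom K wt d ↔ cmp K wt d f = f := by
  simp [Hom, sub_eq_zero]
theorem mem_Ge {d : ℕ} {f : FreeAlgebra K I} : f ∈ Ge K wt d ↔ ∀ i < d, cmp K wt i f = 0 := by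
  simp [Ge, Submodule.mem_iInf]
theorem cmp_ι (d : ℕ) (i : I) : cmp K wt d (ι K i) = if wt i = d then ι K i else 0 := by
  simp [cmp_apply, theta, Polynomial.coeff_monomial]
theorem cmp_one (d : ℕ) : cmp K wt d (1 : FreeAlgebra K I) = if d = 0 then 1 else 0 := by
  simp [cmp_apply, Polynomial.coeff_one]
theorem cmp_mul (d : ℕ) (u v : FreeAlgebra K I) :
    cmp K wt d (u * v) = ∑ p ∈ Finset.HasAntidiagonal.antidiagonal d, cmp K wt p.1 u * cmp K wt p.2 v := by
  simp [cmp_apply, Polynomial.coeff_mul]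
/-- key lemma (induction on `f`, using `cmp_mul`). -/
theorem map_cmp_mem (φ : FreeAlgebra K I →ₐ[K] A) (J : ℕ → Submodule K A) (h1 : (1 : A) ∈ J 0)
    (hmul : ∀ i j a b, a ∈ J i → b ∈ J j → a * b ∈ J (i + j)) (hg : ∀ i, φ (ι K i) ∈ J (wt i))
    (k : ℕ) (f : FreeAlgebra K I) : φ (cmp K wt k f) ∈ J k := by
  induction f using FreeAlgebra.induction generalizing k with
  | grade0 c =>
    rw [Algebra.algebraMap_eq_smul_one, map_smul, map_smul, cmp_one]
    split_ifs with h
    · subst h; rw [map_one]; exact Submodule.smul_mem _ _ h1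
    · simp
  | grade1 i =>
    rw [cmp_ι]
    split_ifs with h
    · subst h; exact hg i
    · simp
  | mul u v hu hv =>
    rw [cmp_mul, map_sum]
    refine Submodule.sum_mem _ (fun p hp => ?_)
    rw [map_mul, ← Finset.HasAntidiagonal.mem_antidiagonal.1 hp]
    exact hmul _ _ _ _ (hu _) (hv _)
  | add u v hu hv => rw [map_add, map_add]; exact add_mem (hu _) (hv _)
/-- apply `map_cmp_mem` with `φ = id`, `J k = {f | theta f = monomial k f}`. -/
theorem cmp_cmp (i j : ℕ) (f : FreeAlgebra K I) :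
    cmp K wt i (cmp K wt j f) = if i = j then cmp K wt j f else 0 := by
  have h := map_cmp_mem wt (AlgHom.id K _)
    (fun k => LinearMap.ker ((theta K wt).toLinearMap -
      (Polynomial.monomial k).restrictScalars K))
    (by simp) (fun i j a b ha hb => by
      simp only [LinearMap.mem_ker, LinearMap.sub_apply, AlgHom.toLinearMap_apply,
        LinearMap.restrictScalars_apply, sub_eq_zero] at *
      rw [map_mul, ha, hb, Polynomial.monomial_mul_monomial])
    (fun i => by simp [theta]) j f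
  simp only [LinearMap.mem_ker, LinearMap.sub_apply, AlgHom.toLinearMap_apply,
    LinearMap.restrictScalars_apply, sub_eq_zero, AlgHom.id_apply] at h
  rw [cmp_apply, h, Polynomial.coeff_monomial]
  simp only [eq_comm]
theorem cmp_mem_Hom (d : ℕ) (f : FreeAlgebra K I) : cmp K wt d f ∈ Hom K wt d := by
  rw [mem_Hom, cmp_cmp, if_pos rfl]
theorem cmp_of_mem_Hom {d : ℕ} {f : FreeAlgebra K I} (hf : f ∈ Hom K wt d) (i : ℕ) :
    cmp K wt i f = if i = d then f else 0 := by
  rw [mem_Hom] at hf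
  conv_lhs => rw [← hf, cmp_cmp, hf]
/-- evaluate `theta f` at `t = 1` (`Polynomial.eval₂` at the central element 1). -/
theorem exists_sum_cmp (f : FreeAlgebra K I) :
    ∃ n, (∀ i, n ≤ i → cmp K wt i f = 0) ∧ f = ∑ i ∈ Finset.range n, cmp K wt i f := by
  have key : ∀ f : FreeAlgebra K I, (theta K wt f).eval 1 = f := by
    intro f
    induction f using FreeAlgebra.induction with
    | grade0 c => simp [Algebra.algebraMap_eq_smul_one]
    | grade1 i => simp [theta]
    | mul u v hu hv =>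
      rw [map_mul, Polynomial.eval, Polynomial.eval₂_mul_noncomm _ _ (fun _ => Commute.one_right _)]
      exact congrArg₂ _ hu hv
    | add u v hu hv => simp [hu, hv]
  refine ⟨(theta K wt f).natDegree + 1, fun i hi => Polynomial.coeff_eq_zero_of_natDegree_lt hi, ?_⟩
  conv_lhs => rw [← key f, Polynomial.eval_eq_sum_range]
  simp [cmp_apply]
theorem eq_zero_of_cmp {f : FreeAlgebra K I} (h : ∀ i, cmp K wt i f = 0) : f = 0 := by
  obtain ⟨n, -, hn⟩ := exists_sum_cmp wt f
  rw [hn]; simp [h]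
theorem one_mem_Hom : (1 : FreeAlgebra K I) ∈ Hom K wt 0 := by
  rw [mem_Hom, cmp_one, if_pos rfl]
theorem ι_mem_Hom (i : I) : ι K i ∈ Hom K wt (wt i) := by
  rw [mem_Hom, cmp_ι, if_pos rfl]
theorem mul_mem_Hom {m n : ℕ} {u v : FreeAlgebra K I} (hu : u ∈ Hom K wt m) (hv : v ∈ Hom K wt n) :
    u * v ∈ Hom K wt (m + n) := by
  rw [mem_Hom, cmp_mul, Finset.sum_eq_single (m, n)]
  · rw [(mem_Hom wt).1 hu, (mem_Hom wt).1 hv]
  · rintro ⟨i, j⟩ hp hne
    have := Finset.HasAntidiagonal.mem_antidiagonal.1 hp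
    rw [cmp_of_mem_Hom wt hu, cmp_of_mem_Hom wt hv]
    by_cases h1 : i = m
    · have h2 : j ≠ n := fun h => hne (by rw [h1, h])
      simp [h2]
    · simp [h1]
  · intro h; simp at h
theorem mul_mem_Ge {m n : ℕ} {u v : FreeAlgebra K I} (hu : u ∈ Ge K wt m) (hv : v ∈ Ge K wt n) :
    u * v ∈ Ge K wt (m + n) := by
  rw [mem_Ge] at *
  intro i hi
  rw [cmp_mul]
  refine Finset.sum_eq_zero (fun p hp => ?_)
  have := Finset.HasAntidiagonal.mem_antidiagonal.1 hp
  by_cases h : p.1 < m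
  · rw [hu _ h, zero_mul]
  · rw [hv _ (by omega), mul_zero]
theorem Ge_zero : Ge K wt 0 = ⊤ := by
  ext f; simp [mem_Ge]
theorem Ge_anti : Antitone (Ge K wt) := by
  intro m n h f hf
  rw [mem_Ge] at *
  exact fun i hi => hf i (by omega)
theorem Hom_le_Ge (d : ℕ) : Hom K wt d ≤ Ge K wt d := by
  intro f hf
  rw [mem_Ge]
  intro i hi
  rw [cmp_of_mem_Hom wt hf, if_neg hi.ne]
theorem sub_cmp_mem_Ge {d : ℕ} {f : FreeAlgebra K I} (hf : f ∈ Ge K wt d) :
    f - cmp K wt d f ∈ Ge K wt (d + 1) := by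
  rw [mem_Ge] at *
  intro i hi
  rw [map_sub, cmp_cmp]
  split_ifs with h
  · rw [h, sub_self]
  · rw [hf i (by omega), sub_zero]
theorem eq_zero_of_Hom_of_Ge {d : ℕ} {f : FreeAlgebra K I} (h1 : f ∈ Hom K wt d)
    (h2 : f ∈ Ge K wt (d + 1)) : f = 0 := by
  rw [← (mem_Hom wt).1 h1]; exact (mem_Ge wt).1 h2 d (by omega)
theorem LS_le_Hom (n : ℕ) : LS K (ι K) wt n ≤ Hom K wt n := by
  refine LS_le (Hom K wt) (ι_mem_Hom wt) (fun m n a b ha hb => ?_) n
  rw [Ring.lie_def]
  exact sub_mem (mul_mem_Hom wt ha hb) (add_comm n m ▸ mul_mem_Hom wt hb ha)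
theorem map_mem_of_Hom (φ : FreeAlgebra K I →ₐ[K] A) (J : ℕ → Submodule K A) (h1 : (1 : A) ∈ J 0)
    (hmul : ∀ i j a b, a ∈ J i → b ∈ J j → a * b ∈ J (i + j)) (hg : ∀ i, φ (ι K i) ∈ J (wt i))
    {k : ℕ} {f : FreeAlgebra K I} (hf : f ∈ Hom K wt k) : φ f ∈ J k := by
  rw [← (mem_Hom wt).1 hf]; exact map_cmp_mem wt φ J h1 hmul hg k f
theorem map_mem_of_Ge (φ : FreeAlgebra K I →ₐ[K] A) (J : ℕ → Submodule K A) (h1 : (1 : A) ∈ J 0)
    (hanti : Antitone J)
    (hmul : ∀ i j a b, a ∈ J i → b ∈ J j → a * b ∈ J (i + j)) (hg : ∀ i, φ (ι K i) ∈ J (wt i))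
    {k : ℕ} {f : FreeAlgebra K I} (hf : f ∈ Ge K wt k) : φ f ∈ J k := by
  obtain ⟨n, -, hn⟩ := exists_sum_cmp wt f
  rw [hn, map_sum]
  refine Submodule.sum_mem _ (fun i _ => ?_)
  by_cases h : i < k
  · rw [(mem_Ge wt).1 hf i h, map_zero]; exact zero_mem _
  · exact hanti (not_lt.1 h) (map_cmp_mem wt φ J h1 hmul hg i f)
/-- shifted filtration of the dual numbers. -/
def dualJ (J : ℕ → Submodule K A) (s k : ℕ) : Submodule K (DualNumber A) :=
  (J k).comap (TrivSqZeroExt.fstHom K A A).toLinearMap ⊓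
    (J (k + s)).comap ((TrivSqZeroExt.sndHom A A).restrictScalars K)
theorem mem_dualJ {J : ℕ → Submodule K A} {s k : ℕ} {w : DualNumber A} :
    w ∈ dualJ J s k ↔ w.fst ∈ J k ∧ w.snd ∈ J (k + s) := Iff.rfl
theorem dualJ_mul {J : ℕ → Submodule K A}
    (hmul : ∀ i j a b, a ∈ J i → b ∈ J j → a * b ∈ J (i + j)) (s i j : ℕ) (a b : DualNumber A)
    (ha : a ∈ dualJ J s i) (hb : b ∈ dualJ J s j) : a * b ∈ dualJ J s (i + j) := by
  rw [mem_dualJ] at *
  refine ⟨by simpa using hmul _ _ _ _ ha.1 hb.1, ?_⟩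
  rw [DualNumber.snd_mul]
  have h1 := hmul _ _ _ _ ha.1 hb.2
  have h2 := hmul _ _ _ _ ha.2 hb.1
  rw [← add_assoc] at h1
  rw [add_right_comm] at h2
  exact add_mem h1 h2

/-- derivations along a filtered map, shifting degrees by `s` (use `map_mem_of_Ge` in
`DualNumber A` with the filtration `{w | w.fst ∈ J k ∧ w.snd ∈ J (k+s)}`, and `lift_dn`). -/
theorem dA_mem_of_Ge (g u : I → A) (J : ℕ → Submodule K A) (h1 : (1 : A) ∈ J 0)
    (hanti : Antitone J) (hmul : ∀ i j a b, a ∈ J i → b ∈ J j → a * b ∈ J (i + j)) (s : ℕ)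
    (hg : ∀ i, g i ∈ J (wt i)) (hu : ∀ i, u i ∈ J (wt i + s))
    {k : ℕ} {f : FreeAlgebra K I} (hf : f ∈ Ge K wt k) : dA K g u f ∈ J (k + s) := by
  exact (map_mem_of_Ge wt (FreeAlgebra.lift K (fun i => dn (g i) (u i))) (dualJ J s)
    (mem_dualJ.2 ⟨h1, by simp⟩)
    (fun m n h => inf_le_inf (Submodule.comap_mono (hanti h))
      (Submodule.comap_mono (hanti (by omega))))
    (dualJ_mul hmul s) (fun i => mem_dualJ.2 (by simpa using ⟨hg i, hu i⟩)) hf).2
theorem dA_mem_of_Hom (g u : I → A) (J : ℕ → Submodule K A) (h1 : (1 : A) ∈ J 0)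
    (hmul : ∀ i j a b, a ∈ J i → b ∈ J j → a * b ∈ J (i + j)) (s : ℕ)
    (hg : ∀ i, g i ∈ J (wt i)) (hu : ∀ i, u i ∈ J (wt i + s))
    {k : ℕ} {f : FreeAlgebra K I} (hf : f ∈ Hom K wt k) : dA K g u f ∈ J (k + s) := by
  exact (map_mem_of_Hom wt (FreeAlgebra.lift K (fun i => dn (g i) (u i))) (dualJ J s)
    (mem_dualJ.2 ⟨h1, by simp⟩)
    (dualJ_mul hmul s) (fun i => mem_dualJ.2 (by simpa using ⟨hg i, hu i⟩)) hf).2
/-- `lift (monomial (wt i) (g i)) = mapAlgHom (lift g) ∘ theta` (or induction on `f`). -/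
theorem coeff_lift_monomial (g : I → A) (f : FreeAlgebra K I) (n : ℕ) :
    (FreeAlgebra.lift K (fun i => Polynomial.monomial (wt i) (g i)) f).coeff n =
      FreeAlgebra.lift K g (cmp K wt n f) := by
  induction f using FreeAlgebra.induction generalizing n with
  | grade0 c =>
    simp only [Algebra.algebraMap_eq_smul_one, map_smul, map_one, Polynomial.coeff_smul, cmp_one,
      Polynomial.coeff_one]
    split_ifs <;> simp
  | grade1 i =>
    rw [FreeAlgebra.lift_ι_apply, cmp_ι, Polynomial.coeff_monomial]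
    split_ifs <;> simp
  | mul u v hu hv => simp [Polynomial.coeff_mul, cmp_mul, hu, hv]
  | add u v hu hv => simp [hu, hv]
theorem coeff_ev_monomial (a b : A) (f : T K) (n : ℕ) :
    (ev K (Polynomial.monomial 1 a) (Polynomial.monomial 1 b) f).coeff n =
      ev K a b (cmp K w1 n f) := by
  rw [ev, ev, ← coeff_lift_monomial]
  congr 3; funext i; fin_cases i <;> rfl
theorem ev_mul_of_Hom {n : ℕ} {f : T K} (hf : f ∈ Hom K w1 n) (c a b : A) (ha : Commute c a)
    (hb : Commute c b) : ev K (c * a) (c * b) f = c ^ n * ev K a b f := by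
  have hc : ∀ f : T K, Commute c (ev K a b f) := by
    intro f
    induction f using FreeAlgebra.induction with
    | grade0 r => rw [AlgHom.commutes]; exact (Algebra.commute_algebraMap_right _ _)
    | grade1 i => fin_cases i <;> simpa
    | mul u v hu hv => rw [map_mul]; exact hu.mul_right hv
    | add u v hu hv => rw [map_add]; exact hu.add_right hv
  have := map_mem_of_Hom w1 (AlgHom.id K _)
    (fun k => LinearMap.ker ((ev K (c * a) (c * b)).toLinearMap -
      LinearMap.mulLeft K (c ^ k) ∘ₗ (ev K a b).toLinearMap)) (by simp)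
    (fun i j u v hu hv => by
      simp only [LinearMap.mem_ker, LinearMap.sub_apply, AlgHom.toLinearMap_apply,
        LinearMap.comp_apply, LinearMap.mulLeft_apply, sub_eq_zero] at *
      rw [map_mul, hu, hv, map_mul, pow_add, mul_assoc, mul_assoc, ← mul_assoc (ev K a b u),
        ← ((hc u).pow_left j).eq, mul_assoc])
    (fun i => by fin_cases i <;> simp) hf
  simpa [sub_eq_zero] using this
theorem ev_smul_of_Hom {n : ℕ} {f : T K} (hf : f ∈ Hom K w1 n) (c : K) (a b : A) :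
    ev K (c • a) (c • b) f = c ^ n • ev K a b f := by
  have := ev_mul_of_Hom hf (algebraMap K A c) a b (Algebra.commute_algebraMap_left _ _)
    (Algebra.commute_algebraMap_left _ _)
  rwa [← map_pow, ← Algebra.smul_def, ← Algebra.smul_def, ← Algebra.smul_def] at this
/-- Euler. -/
theorem dA_self_of_Hom {n : ℕ} {f : FreeAlgebra K I} (hf : f ∈ Hom K w1 n) (g : I → A) :
    dA K g g f = n • FreeAlgebra.lift K g f := by
  have := map_mem_of_Hom w1 (AlgHom.id K _)
    (fun k => LinearMap.ker (dA K g g - k • (FreeAlgebra.lift K g).toLinearMap)) (by simp)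
    (fun i j u v hu hv => by
      simp only [LinearMap.mem_ker, LinearMap.sub_apply, AlgHom.toLinearMap_apply,
        LinearMap.smul_apply, sub_eq_zero] at *
      rw [dA_mul, hu, hv, map_mul, add_smul, mul_smul_comm, smul_mul_assoc, add_comm])
    (fun i => by simp) hf
  simpa [sub_eq_zero] using this
/-- weight `n` with all letters of weight `≥ 1` forces length `≤ n`. -/
theorem eq_zero_of_Hom_of_Ge_len (hwt : ∀ i, 1 ≤ wt i) {n : ℕ} {f : FreeAlgebra K I}
    (h1 : f ∈ Hom K wt n) (h2 : f ∈ Ge K w1 (n + 1)) : f = 0 := by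
  refine eq_zero_of_Hom_of_Ge wt h1 ?_
  exact map_mem_of_Ge w1 (AlgHom.id K _) (Ge K wt) (by rw [Ge_zero]; trivial) (Ge_anti wt)
    (fun _ _ _ _ => mul_mem_Ge wt)
    (fun i => Ge_anti wt (hwt i) (Hom_le_Ge wt _ (ι_mem_Hom wt i))) h2
/-- the constant term. -/
theorem cmp_zero_eq (f : T K) :
    cmp K w1 0 f = algebraMap K (T K) (ev K (0 : K) 0 f) := by
  induction f using FreeAlgebra.induction with
  | grade0 c => simp [Algebra.algebraMap_eq_smul_one, cmp_one]
  | grade1 i => fin_cases i <;> simp [cmp_ι]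
  | mul u v hu hv => simp [cmp_mul, hu, hv]
  | add u v hu hv => simp [hu, hv]

end Crest.Agent.R10
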